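import Vale.Agent.P180.R2.H667.Br2

set_option linter.all false

/-!
P180: blocks of extensions by p-groups.
-/

namespace Vale.Agent.P180.R2.H667

open Vale.Agent.P180 Vale.Agent.P180.H768.Gd Vale.Agent.P180.R2.H365

open scoped commutatorElement

universe u

section Grp

variable {p : ℕ} [Fact p.Prime] {G : Type*} [Group G] [Finite G]

theorem isPGroup_quot {X : Subgroup G} [X.Normal] (hp : ∀ g : G, ∃ n, g ^ p ^ n ∈ X) :
    IsPGroup p (G ⧸ X) := by
  intro g
  obtain ⟨g, rfl⟩ := QuotientGroup.mk_surjective g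
  obtain ⟨n, hn⟩ := hp g
  exact ⟨n, by rw [← QuotientGroup.mk_pow]; exact (QuotientGroup.eq_one_iff _).mpr hn⟩

/-- a maximal subgroup above a proper subgroup, in an extension by a `p`-group -/
theorem exists_max {X R : Subgroup G} [X.Normal] (hp : ∀ g : G, ∃ n, g ^ p ^ n ∈ X) (hXR : X ≤ R)
    (hR : R ≠ ⊤) :
    ∃ M : Subgroup G, M.Normal ∧ R ≤ M ∧ M ≠ ⊤ ∧ (∀ a b : G, a * b * a⁻¹ * b⁻¹ ∈ M) ∧
      p ∣ M.index := by
  have hPG : IsPGroup p (G ⧸ X) := isPGroup_quot hp
  have hnil : Group.IsNilpotent (G ⧸ X) := hPG.isNilpotent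
  rcases eq_top_or_exists_le_coatom R with h | ⟨M, hM, hRM⟩
  · exact absurd h hR
  have hXM : X ≤ M := hXR.trans hRM
  have hcomap : (M.map (QuotientGroup.mk' X)).comap (QuotientGroup.mk' X) = M := by
    rw [Subgroup.comap_map_eq, QuotientGroup.ker_mk', sup_eq_left.mpr hXM]
  have hMn : M.Normal := by
    rw [← Subgroup.normalizer_eq_top_iff]
    apply hM.2
    have h1 : M.map (QuotientGroup.mk' X) ≠ ⊤ := by
      intro h
      apply hM.1
      rw [← hcomap, h, Subgroup.comap_top]
    have h2 := Group.normalizerCondition_of_isNilpotent (G := G ⧸ X) _ (lt_top_iff_ne_top.mpr h1)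
    rw [SetLike.lt_iff_le_and_exists] at h2 ⊢
    refine ⟨Subgroup.le_normalizer, ?_⟩
    obtain ⟨-, g, hg, hg'⟩ := h2
    obtain ⟨g, rfl⟩ := QuotientGroup.mk'_surjective X g
    refine ⟨g, ?_, ?_⟩
    · rw [Subgroup.mem_normalizer_iff] at hg ⊢
      intro x
      have h3 := hg (QuotientGroup.mk' X x)
      rw [← map_mul, ← map_inv, ← map_mul] at h3
      rw [← hcomap, Subgroup.mem_comap, Subgroup.mem_comap]
      exact h3
    · intro h
      exact hg' (Subgroup.mem_map_of_mem _ h)
  have hPM : IsPGroup p (G ⧸ M) := isPGroup_quot fun g => by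
    obtain ⟨n, hn⟩ := hp g
    exact ⟨n, hXM hn⟩
  have hnt : Nontrivial (G ⧸ M) := by
    rw [← not_subsingleton_iff_nontrivial]
    intro h
    apply hM.1
    rw [eq_top_iff]
    intro g _
    rw [← QuotientGroup.eq_one_iff]
    exact Subsingleton.elim _ _
  have hnilM : Group.IsNilpotent (G ⧸ M) := hPM.isNilpotent
  refine ⟨M, hMn, hRM, hM.1, ?_, ?_⟩
  · have h1 : commutator (G ⧸ M) < ⊤ := Group.IsSolvable.commutator_lt_top_of_nontrivial _
    have h2 : (commutator (G ⧸ M)).comap (QuotientGroup.mk' M) = M := by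
      by_contra hne
      have h3 : M < (commutator (G ⧸ M)).comap (QuotientGroup.mk' M) := by
        refine lt_of_le_of_ne ?_ (Ne.symm hne)
        intro x hx
        rw [Subgroup.mem_comap]
        have : QuotientGroup.mk' M x = 1 := (QuotientGroup.eq_one_iff x).mpr hx
        rw [this]
        exact Subgroup.one_mem _
      have h4 := hM.2 _ h3
      apply h1.ne
      rw [eq_top_iff]
      intro x _
      obtain ⟨x, rfl⟩ := QuotientGroup.mk'_surjective M x
      have h5 : x ∈ (commutator (G ⧸ M)).comap (QuotientGroup.mk' M) := by rw [h4]; trivial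
      exact h5
    intro a b
    rw [← h2, Subgroup.mem_comap]
    have h6 : QuotientGroup.mk' M (a * b * a⁻¹ * b⁻¹) =
        ⁅QuotientGroup.mk' M a, QuotientGroup.mk' M b⁆ := by
      rw [commutatorElement_def]; simp
    rw [h6, commutator_def]
    exact Subgroup.commutator_mem_commutator (Subgroup.mem_top _) (Subgroup.mem_top _)
  · obtain ⟨n, hn⟩ := IsPGroup.iff_card.mp hPM
    have h7 : M.index = p ^ n := hn
    rw [h7]
    apply dvd_pow_self
    rintro rfl
    rw [pow_zero] at h7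
    exact hM.1 (Subgroup.index_eq_one.mp h7)

end Grp

section Blk

variable {k : Type*} [Field k] {p : ℕ} [Fact p.Prime] [CharP k p]

/-- central idempotents lie in normal subgroups with abelian quotient a `p`-group -/
theorem idem_mem {G : Type*} [Group G] [Finite G] {N : Subgroup G} [N.Normal]
    (hab : ∀ a b : G, a * b * a⁻¹ * b⁻¹ ∈ N)
    (hp : ∀ g : G, ∃ n, g ^ p ^ n ∈ N) {c : MonoidAlgebra k G} (hc : c ∈ Fix (cj k G) ⊤)
    (hcc : c * c = c) : c ∈ SubAlg k N := by
  classical
  have _ := Fintype.ofFinite (G ⧸ N)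
  have hcm : ∀ a b : G, ((a * b * a⁻¹ : G) : G ⧸ N) = (b : G ⧸ N) := by
    intro a b
    rw [eq_comm, QuotientGroup.eq]
    have := hab b⁻¹ a
    have e : b⁻¹ * (a * b * a⁻¹) = b⁻¹ * a * (b⁻¹)⁻¹ * a⁻¹ := by group
    rwa [e]
  have hcomp : ∀ (q : G ⧸ N), comp N q c ∈ Subalgebra.center k (MonoidAlgebra k G) := by
    intro q
    rw [mem_center_iff_Fix_top]
    intro g _
    apply MonoidAlgebra.coeff_injective
    ext x
    rw [cj_coeff, comp_coeff, comp_coeff]
    have h1 : ((g⁻¹ * x * g : G) : G ⧸ N) = (x : G ⧸ N) := by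
      have := hcm g⁻¹ x
      rwa [inv_inv] at this
    rw [h1]
    have h2 : c.coeff (g⁻¹ * x * g) = c.coeff x := by
      conv_rhs => rw [← hc g trivial]
      rw [cj_coeff]
    rw [h2]
  obtain ⟨m, hm⟩ : ∃ m, ∀ g : G, g ^ p ^ m ∈ N := by
    choose n hn using hp
    have _ := Fintype.ofFinite G
    refine ⟨∑ g, n g, fun g => ?_⟩
    have h1 : n g ≤ ∑ g, n g := Finset.single_le_sum (f := n) (fun _ _ => Nat.zero_le _)
      (Finset.mem_univ g)
    obtain ⟨d, hd⟩ := Nat.exists_eq_add_of_le h1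
    rw [hd, pow_add, pow_mul]
    exact N.pow_mem (hn g) _
  have _ : CharP (Subalgebra.center k (MonoidAlgebra k G)) p :=
    charP_of_injective_algebraMap (algebraMap k _).injective p
  have _ : ExpChar (Subalgebra.center k (MonoidAlgebra k G)) p := ExpChar.prime Fact.out
  let x : G ⧸ N → Subalgebra.center k (MonoidAlgebra k G) := fun q => ⟨comp N q c, hcomp q⟩
  have hsum : c = ∑ q, (x q : MonoidAlgebra k G) := (sum_comp N c).symm
  have hpow : ∀ n : ℕ, n ≠ 0 → c ^ n = c := by
    intro n hn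
    obtain ⟨n, rfl⟩ := Nat.exists_eq_succ_of_ne_zero hn
    induction n with
    | zero => rw [pow_one]
    | succ n ih => rw [pow_succ, ih (Nat.succ_ne_zero n), hcc]
  have h1 : c = ∑ q, ((x q : MonoidAlgebra k G)) ^ p ^ m := by
    have h2 := sum_pow_char_pow (R := Subalgebra.center k (MonoidAlgebra k G)) (p := p) (n := m)
      (Finset.univ) x
    have h3 := congrArg (fun y : Subalgebra.center k (MonoidAlgebra k G) =>
      (y : MonoidAlgebra k G)) h2
    simp only [SubmonoidClass.coe_pow, AddSubmonoidClass.coe_finset_sum] at h3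
    rw [← hsum, hpow _ (pow_ne_zero _ (Fact.out : p.Prime).ne_zero)] at h3
    exact h3
  rw [h1]
  refine Subalgebra.sum_mem _ fun q _ => ?_
  rw [mem_SubAlg_iff_cst]
  have h4 : ∀ n : ℕ, SuppIn (cst N (q ^ n)) ((x q : MonoidAlgebra k G) ^ n) := by
    intro n
    induction n with
    | zero =>
      rw [pow_zero, pow_zero, ← mem_SubAlg_iff_cst]
      exact Subalgebra.one_mem _
    | succ n ih =>
      rw [pow_succ, pow_succ]
      exact mul_supp_cst ih (comp_supp N q c)
  have h5 := h4 (p ^ m)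
  have h6 : q ^ p ^ m = 1 := by
    obtain ⟨g, rfl⟩ := QuotientGroup.mk_surjective q
    rw [← QuotientGroup.mk_pow]
    exact (QuotientGroup.eq_one_iff _).mpr (hm g)
  rwa [h6] at h5

/-- A stable block of a normal subgroup with quotient a `p`-group is a block. -/
theorem block_top_aux (n : ℕ) : ∀ (G : Type u) [Group G] [Finite G] (X : Subgroup G) [X.Normal],
    Nat.card G ≤ n → (∀ g : G, ∃ n, g ^ p ^ n ∈ X) → ∀ e : MonoidAlgebra k G, IsBlockOf X e →
    e ∈ Fix (cj k G) ⊤ → IsBlockOf ⊤ e := by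
  induction n with
  | zero =>
    intro G _ _ X _ hG
    exact absurd (Nat.card_pos (α := G)) (by omega)
  | succ n ih =>
    intro G _ _ X _ hG hp e he heG
    by_cases hX : X = ⊤
    · rw [← hX]; exact he
    obtain ⟨M, hMn, hXM, hMt, hab, -⟩ := exists_max (p := p) hp le_rfl hX
    have hcard : Nat.card M ≤ n := by
      have h1 := M.card_mul_index
      have h2 : M.index ≠ 1 := fun h => hMt (Subgroup.index_eq_one.mp h)
      have h3 : M.index ≠ 0 := Subgroup.index_ne_zero_of_finite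
      have h4 : 0 < Nat.card M := Nat.card_pos
      have h5 : Nat.card M * 2 ≤ Nat.card M * M.index := Nat.mul_le_mul_left _ (by omega)
      omega
    obtain ⟨e', he'⟩ := Vale.Agent.P180.exists_incl (k := k) M (SubAlg_mono hXM he.mem.1)
    have h1 : IsBlockOf (X.subgroupOf M) e' := by
      rw [isBlockOf_subgroupOf_iff hXM, he']; exact he
    have h2 : IsBlockOf (⊤ : Subgroup M) e' := by
      refine ih M (X.subgroupOf M) hcard ?_ e' h1 ?_
      · intro g
        obtain ⟨m, hm⟩ := hp g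
        exact ⟨m, hm⟩
      · intro g _
        apply Vale.Agent.P180.incl_injective (k := k) M
        rw [Vale.Agent.P180.incl_cj, he']
        exact heG g trivial
    have h3 : IsBlockOf M e := by
      have h4 := (isBlockOf_map_iff (k := k) M ⊤ e').mpr h2
      rw [he'] at h4
      rwa [← MonoidHom.range_eq_map, Subgroup.range_subtype] at h4
    refine ⟨⟨SubAlg_top _, heG⟩, he.idem, he.ne_zero, fun c hc hcc hce => ?_⟩
    refine h3.primitive c ⟨?_, Fix_mono _ le_top hc.2⟩ hcc hce
    refine idem_mem (p := p) hab (fun g => ?_) hc.2 hcc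
    obtain ⟨m, hm⟩ := hp g
    exact ⟨m, hXM hm⟩

theorem block_top {G : Type u} [Group G] [Finite G] {X : Subgroup G} [X.Normal]
    (hp : ∀ g : G, ∃ n, g ^ p ^ n ∈ X) {e : MonoidAlgebra k G} (he : IsBlockOf X e)
    (heG : e ∈ Fix (cj k G) ⊤) : IsBlockOf ⊤ e :=
  block_top_aux (k := k) (p := p) _ G X le_rfl hp e he heG

/-- A defect group covers the quotient. -/
theorem sup_eq_top [IsAlgClosed k] {G : Type u} [Group G] [Finite G] {X R : Subgroup G} [X.Normal]
    (hp : ∀ g : G, ∃ n, g ^ p ^ n ∈ X) {e z : MonoidAlgebra k G} (he : IsBlockOf X e)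
    (heG : e ∈ Fix (cj k G) ⊤) (hz : z ∈ Fix (cj k G) R) (hez : e = tr (cj k G) R ⊤ z) :
    R ⊔ X = ⊤ := by
  classical
  by_contra hR
  obtain ⟨M, hMn, hRM, hMt, hab, hpM⟩ := exists_max (p := p) hp le_sup_right hR
  have hXM : X ≤ M := le_sup_right.trans hRM
  have hRM' : R ≤ M := le_sup_left.trans hRM
  have hBM : IsBlockOf M e := by
    obtain ⟨e', he'⟩ := Vale.Agent.P180.exists_incl (k := k) M (SubAlg_mono hXM he.mem.1)
    have h1 : IsBlockOf (X.subgroupOf M) e' := by
      rw [isBlockOf_subgroupOf_iff hXM, he']; exact he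
    have h2 : IsBlockOf (⊤ : Subgroup M) e' := by
      refine block_top (X := X.subgroupOf M) ?_ h1 ?_
      · intro g
        obtain ⟨m, hm⟩ := hp g
        exact ⟨m, hm⟩
      · intro g _
        apply Vale.Agent.P180.incl_injective (k := k) M
        rw [Vale.Agent.P180.incl_cj, he']
        exact heG g trivial
    have h4 := (isBlockOf_map_iff (k := k) M ⊤ e').mpr h2
    rw [he'] at h4
    rwa [← MonoidHom.range_eq_map, Subgroup.range_subtype] at h4
  -- the trace from `M`
  obtain ⟨y, hy⟩ : ∃ y, y = tr (cj k G) R M z := ⟨_, rfl⟩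
  have hyF : y ∈ Fix (cj k G) M := by rw [hy]; exact tr_mem_Fix hz
  have hey : e = tr (cj k G) M ⊤ y := by rw [hy, tr_tr hz hRM' le_top]; exact hez
  obtain ⟨w, hw⟩ : ∃ w, w = comp M 1 y := ⟨_, rfl⟩
  have hwZ : w ∈ ZAlg k M := by
    rw [mem_ZAlg]
    refine ⟨?_, ?_⟩
    · rw [mem_SubAlg_iff_cst, hw]; exact comp_supp M 1 y
    · rw [hw]; exact comp_mem_Fix le_rfl 1 hyF
  have _ := Fintype.ofFinite ((⊤ : Subgroup G) ⧸ M.subgroupOf ⊤)
  have hcomp_cj : ∀ g : G, comp M 1 (cj k G g y) = cj k G g w := by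
    intro g
    rw [hw]
    apply MonoidAlgebra.coeff_injective
    ext x
    rw [comp_coeff, cj_coeff, cj_coeff, comp_coeff]
    have h1 : ((x : G) : G ⧸ M) = 1 ↔ ((g⁻¹ * x * g : G) : G ⧸ M) = 1 := by
      rw [QuotientGroup.eq_one_iff, QuotientGroup.eq_one_iff]
      constructor
      · intro h
        have := hMn.conj_mem x h g⁻¹
        rwa [inv_inv] at this
      · intro h
        have := hMn.conj_mem _ h g
        have e : g * (g⁻¹ * x * g) * g⁻¹ = x := by group
        rwa [e] at this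
    simp only [h1]
  have hew : e = tr (cj k G) M ⊤ w := by
    have h1 : comp M 1 e = e := by
      apply comp_of_supp
      rw [← mem_SubAlg_iff_cst]
      exact hBM.mem.1
    conv_lhs => rw [← h1, hey]
    rw [tr_def, tr_def, map_sum]
    exact Finset.sum_congr rfl fun q _ => hcomp_cj _
  obtain ⟨c, hc⟩ := KP.isPrimIn_exists_scalar (by exact ZAlg_comm) hBM hwZ
  obtain ⟨v, hv⟩ : ∃ v, v = w * e - c • e := ⟨_, rfl⟩
  have hvn : v ∈ nilZ k M := by
    refine ⟨?_, ?_⟩
    · rw [hv]
      exact Subalgebra.sub_mem _ (Subalgebra.mul_mem _ hwZ hBM.mem)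
        (Subalgebra.smul_mem _ hBM.mem c)
    · rw [hv]; exact hc
  have h1 : e = tr (cj k G) M ⊤ v := by
    have h2 : tr (cj k G) M ⊤ (c • e) = 0 := by
      rw [tr_smul, tr_of_mem_Fix heG, Subgroup.relIndex_top_right]
      have : ((M.index : ℕ) : k) = 0 := (CharP.cast_eq_zero_iff k p _).mpr hpM
      rw [this, zero_smul, smul_zero]
    have h3 : w * e = v + c • e := by rw [hv, sub_add_cancel]
    have h4 : e = tr (cj k G) M ⊤ (w * e) := by
      rw [← tr_mul heG, ← hew]
      exact he.idem.symm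
    rw [h4, h3, tr_add, h2, add_zero]
  have h5 : e ∈ nilZ k M := by
    rw [h1, tr_def]
    refine Submodule.sum_mem _ fun q _ => ?_
    refine ⟨cj_mem_ZAlg _ hvn.1, ?_⟩
    obtain ⟨n, hn⟩ := hvn.2
    exact ⟨n, by rw [← map_pow, hn, map_zero]⟩
  obtain ⟨n, hn⟩ := h5.2
  have hpow : ∀ n : ℕ, e ^ (n + 1) = e := by
    intro n
    induction n with
    | zero => rw [zero_add, pow_one]
    | succ n ih => rw [pow_succ, ih]; exact he.idem
  apply he.ne_zero
  rw [← hpow n, pow_succ, hn, zero_mul]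

end Blk

end Vale.Agent.P180.R2.H667
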