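import Vale.Agent.P180.R2.H667.Ind
import Vale.Agent.P180.R2.H259.Unif

set_option linter.all false

/-!
P180: the relative theorem, one list for all fields and all complete discrete valuation rings.
-/

namespace Vale.Agent.P180.R2.H667

open IsLocalRing
open Vale.Agent.P180 Vale.Agent.P180.H768.Gd Vale.Agent.P180.R2.H365 Vale.Agent.P180.R2.H259
open Vale.Agent.P180.I (EO rd Lf isBlock_rd isBlockR_of_lf isBlockR_iff exists_lf)
open Vale.Agent.P180.R2.H799 (NN)

open scoped Nat

universe u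

/-- The block `b` has a trace from a `p`-subgroup `P` of order at most `n` and there are a normal
subgroup `X` which is the bottom of a normal series of `G` with factors of order prime to `p`,
`p`-groups, or of bounded order (the product of the bounds being at most `m`), and an idempotent
`i ∈ (kX)^P` with `Br_P(i b) ≠ 0` and `dim (i kX i) ≤ C`. -/
def SmT (p n C m : ℕ) (k : Type u) [Field k] (G : Type) [Group G] [Finite G]
    (b : MonoidAlgebra k G) : Prop :=
  ∃ (X P : Subgroup G) (a i : MonoidAlgebra k G), X.Normal ∧ Tw p X m ∧ IsPGroup p P ∧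
    Nat.card P ≤ n ∧ a ∈ Fix (cj k G) P ∧ b = tr (cj k G) P ⊤ a ∧ i ∈ SubAlg k X ∧
    i ∈ Fix (cj k G) P ∧ i * i = i ∧ br P (i * b) ≠ 0 ∧
    Module.finrank k (NN (SubAlg k X) i i) ≤ C

theorem sg_comm {k : Type u} [Field k] {G : Type} [Group G] {R : Subgroup G}
    {i : MonoidAlgebra k G} (hi : i ∈ Fix (cj k G) R) (r : G) (hr : r ∈ R) :
    sg k r * i = i * sg k r := mem_Fix_cj_iff.1 hi r hr

theorem prop_of_smT {k : Type u} [Field k] [IsAlgClosed k] {p : ℕ} [Fact p.Prime] [CharP k p]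
    {P : ∀ (G : Type) [Group G], MonoidAlgebra k G → Prop} (hP : Cl k p P) {n C m : ℕ}
    (hend : ∀ (G : Type) [Group G] [Finite G] (b : MonoidAlgebra k G), IsBlock b →
      SmC n (n ! * n ! * ((C * m * n) * (C * m * n))) k G b → P G b)
    {G : Type} [Group G] [Finite G] {b : MonoidAlgebra k G} (hb : IsBlock b)
    (h : SmT p n C m k G b) : P G b := by
  obtain ⟨X, D, a, i, hX, hTw, hD, hDn, ha, hba, hiX, hiD, hii, hbr, hC⟩ := h
  refine main_ind hP hend X.index G X D a b i m hX hD hDn hb ha hba hiX hiD hii hbr hTw ?_ le_rfl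
  refine Nat.mul_le_mul (Nat.mul_le_mul_right _ hC) ?_
  exact (Nat.le_of_dvd Nat.card_pos (Subgroup.relIndex_dvd_card X D)).trans hDn

theorem uni_list (p : ℕ) [Fact p.Prime] (n C m : ℕ) :
    ∃ (r : ℕ) (H : Fin r → Type) (_ : ∀ i, Group (H i)) (_ : ∀ i, Finite (H i)),
      (∀ (k : Type u) [Field k] [IsAlgClosed k] [CharP k p],
        ∃ (c : ∀ i, MonoidAlgebra k (H i)) (hc : ∀ i, IsBlockR (c i)),
          ∀ (G : Type) [Group G] [Finite G] (b : MonoidAlgebra k G) (hb : IsBlockR b),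
            SmT p n C m k G b → ∃ i, IsMoritaEquivalent k hb.Alg (hc i).Alg) ∧
      (∀ (O : Type u) [CommRing O] [IsDomain O] [IsDiscreteValuationRing O]
        [IsAdicComplete (maximalIdeal O) O] [IsAlgClosed (ResidueField O)]
        [CharP (ResidueField O) p],
        ∃ (C' : ∀ i, MonoidAlgebra O (H i)) (hC' : ∀ i, IsBlockR (C' i)),
          ∀ (G : Type) [Group G] [Finite G] (B : MonoidAlgebra O G) (hB : IsBlockR B),
            SmT p n C m (ResidueField O) G (MonoidAlgebra.mapRingHom G (residue O) B) →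
              ∃ i, IsMoritaEquivalent O hB.Alg (hC' i).Alg) := by
  obtain ⟨N, hN⟩ : ∃ N, N = n ! * n ! * ((C * m * n) * (C * m * n)) := ⟨_, rfl⟩
  obtain ⟨r, H, iG, iF, h1, h2⟩ := unif.{u} p (max n N)
  refine ⟨r, H, iG, iF, ?_, ?_⟩
  · intro k _ _ _
    obtain ⟨c, hc, h⟩ := h1 k
    refine ⟨c, hc, ?_⟩
    intro G _ _ b hb hS
    have hc' : ∀ i, IsBlock (c i) := fun i => isBlockR_iff.mp (hc i)
    have hend : ∀ (G : Type) [Group G] [Finite G] (b : MonoidAlgebra k G), IsBlock b →
        SmC n (n ! * n ! * ((C * m * n) * (C * m * n))) k G b →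
        ∀ hb : IsBlock b, ∃ j, IsMoritaEquivalent k hb.Alg (hc' j).Alg := by
      intro G _ _ b hb hS hb0
      obtain ⟨R, i, hi, hR, hiR, hbi, ⟨m', u, v, hu, hv, huv⟩, hfr⟩ := hS
      exact h G b (isBlockR_iff.mpr hb0) R i hi (hR.trans (le_max_left _ _)) (sg_comm hiR) hbi
        (gen_of_tr hiR u v hu hv huv) (by
          rw [← hN] at hfr
          exact hfr.trans (le_max_right _ _))
    exact prop_of_smT (cl_field k p H c hc') hend (isBlockR_iff.mp hb) hS (isBlockR_iff.mp hb)
  · intro O _ _ _ _ _ _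
    obtain ⟨c, hc, h⟩ := h2 O
    refine ⟨c, hc, ?_⟩
    intro G _ _ B hB hS
    obtain ⟨hb, hlf⟩ := isBlock_rd hB
    have hend : ∀ (G : Type) [Group G] [Finite G] (b : MonoidAlgebra (ResidueField O) G),
        IsBlock b → SmC n (n ! * n ! * ((C * m * n) * (C * m * n))) (ResidueField O) G b →
        ∃ j, EO O b (rd (c j)) := by
      intro G _ _ b hb hS
      obtain ⟨B₁, hB₁⟩ := exists_lf (O := O) (b := b)
        (fun x => (Subalgebra.mem_center_iff.mp hb.central) x) hb.idem
      have hB₁R : IsBlockR B₁ := isBlockR_of_lf hb hB₁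
      have hrd : rd B₁ = b := hB₁.rd_eq
      obtain ⟨R, i, hi, hR, hiR, hbi, ⟨m', u, v, hu, hv, huv⟩, hfr⟩ := hS
      obtain ⟨t, ht⟩ := h G B₁ hB₁R R i hi (hR.trans (le_max_left _ _)) (sg_comm hiR)
        (by rw [hrd]; exact hbi) (by rw [hrd]; exact gen_of_tr hiR u v hu hv huv) (by
          rw [← hN] at hfr
          exact hfr.trans (le_max_right _ _))
      exact ⟨t, B₁, c t, hB₁, (isBlock_rd (hc t)).2, ht⟩
    obtain ⟨j, B₂, C₂, hB₂, hC₂, hM⟩ := prop_of_smT
      (cl_integral O p H (fun j => rd (c j))) hend hb hS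
    obtain rfl := hB₂.unique hlf
    obtain rfl := hC₂.unique (isBlock_rd (hc j)).2
    exact ⟨j, hM⟩

end Vale.Agent.P180.R2.H667
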