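import Vale.Agent.P180.R2.H667.Br1

set_option linter.all false

/-!
P180: transport of relative traces and of the Brauer map.
-/

namespace Vale.Agent.P180.R2.H667

open Vale.Agent.P180 Vale.Agent.P180.H768.Gd Vale.Agent.P180.R2.H365

section Hom

variable {k : Type*} [Field k] {P G : Type*} [Group P] [Finite P] [Group G] [Finite G]
variable {A : Type*} [Ring A] [Algebra k A]

theorem tr_hom {ρ : G →* (A ≃ₐ[k] A)} {β : P →* G} (hβ : Function.Injective β)
    {S K : Subgroup P} {z : A} (hz : z ∈ Fix ρ (S.map β)) :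
    tr (ρ.comp β) S K z = tr ρ (S.map β) (K.map β) z := by
  classical
  have _ := Fintype.ofFinite (K ⧸ S.subgroupOf K)
  rw [tr_def]
  symm
  refine tr_eq_sum' hz (fun q : K ⧸ S.subgroupOf K => β ((q.out : K) : P)) ?_ ?_ ?_
  · intro q
    exact ⟨_, (q.out).2, rfl⟩
  · intro q q' h
    obtain ⟨x, hx, hx'⟩ := h
    rw [← map_inv, ← map_mul] at hx'
    have h1 := hβ hx'
    rw [← q.out_eq', ← q'.out_eq']
    exact QuotientGroup.eq.mpr (show ((q.out : K)⁻¹ * (q'.out : K) : K) ∈ S.subgroupOf K by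
      rw [Subgroup.mem_subgroupOf]
      change ((q.out : K) : P)⁻¹ * ((q'.out : K) : P) ∈ S
      rw [← h1]; exact hx)
  · rintro _ ⟨y, hy, rfl⟩
    refine ⟨QuotientGroup.mk (⟨y, hy⟩ : K), ?_⟩
    have h1 : (QuotientGroup.mk (⟨y, hy⟩ : K) : K ⧸ S.subgroupOf K).out⁻¹ * (⟨y, hy⟩ : K) ∈
        S.subgroupOf K := by
      rw [← QuotientGroup.eq, QuotientGroup.out_eq']
    refine ⟨_, Subgroup.mem_subgroupOf.mp h1, ?_⟩
    rw [← map_inv, ← map_mul]
    rfl

theorem tr_equiv {B : Type*} [Ring B] [Algebra k B] {ρ : P →* (A ≃ₐ[k] A)} {σ : P →* (B ≃ₐ[k] B)}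
    (T : A →ₗ[k] B) (hT : ∀ x a, T (ρ x a) = σ x (T a)) (S K : Subgroup P) (a : A) :
    T (tr ρ S K a) = tr σ S K (T a) := by
  classical
  have _ := Fintype.ofFinite (K ⧸ S.subgroupOf K)
  rw [tr_def, tr_def, map_sum]
  exact Finset.sum_congr rfl fun q _ => hT _ _

end Hom

section Tp

variable {k : Type*} [Field k] {p : ℕ} [Fact p.Prime] [CharP k p]
variable {P G H : Type*} [Group P] [Finite P] [Group G] [Finite G] [Group H] [Finite H]

/-- transport of the vanishing of the Brauer map -/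
theorem br_transport {α : P →* H} {β : P →* G} (hα : Function.Injective α)
    (hβ : Function.Injective β) (hP : IsPGroup p P)
    (T : MonoidAlgebra k H →ₗ[k] MonoidAlgebra k G)
    (hT : ∀ x y, T (cj k H (α x) y) = cj k G (β x) (T y)) {y : MonoidAlgebra k H}
    (hy : y ∈ Fix (cj k H) α.range) (h0 : br α.range y = 0) : br β.range (T y) = 0 := by
  classical
  obtain ⟨ι, _, S, z, hS, hSz, hF, rfl⟩ := exists_proper hy h0
  have hP' : IsPGroup p β.range := hP.of_surjective β.rangeRestrict β.rangeRestrict_surjective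
  have h1 : ∀ o, ((S o).comap α).map α = S o := fun o => by
    rw [Subgroup.map_comap_eq, inf_eq_right.mpr (hS o)]
  have h2 : ∀ o, T (tr (cj k H) (S o) α.range (z o)) =
      tr (cj k G) (((S o).comap α).map β) β.range (T (z o)) := by
    intro o
    have h3 := tr_hom (ρ := cj k H) hα (S := (S o).comap α) (K := ⊤) (z := z o)
      (by rw [h1]; exact hF o)
    rw [h1, ← MonoidHom.range_eq_map] at h3
    rw [← h3, tr_equiv T (ρ := (cj k H).comp α) (σ := (cj k G).comp β) hT,
      tr_hom (ρ := cj k G) hβ, ← MonoidHom.range_eq_map]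
    rintro _ ⟨x, hx, rfl⟩
    have h4 := hT x (z o)
    rw [hF o (α x) hx] at h4
    exact h4.symm
  rw [map_sum, Finset.sum_congr rfl fun o _ => h2 o]
  refine br_sum_tr hP' _ _ ?_ ?_
  · intro o
    rw [MonoidHom.range_eq_map]
    exact Subgroup.map_mono le_top
  · intro o ho
    have h5 : (S o).comap α = ⊤ := by
      rw [MonoidHom.range_eq_map] at ho
      exact Subgroup.map_injective hβ ho
    have h6 : S o = α.range := by
      rw [← h1 o, h5, MonoidHom.range_eq_map]
    rw [hSz o h6, map_zero]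

theorem fix_transport {α : P →* H} {β : P →* G}
    (T : MonoidAlgebra k H →ₗ[k] MonoidAlgebra k G)
    (hT : ∀ x y, T (cj k H (α x) y) = cj k G (β x) (T y)) {y : MonoidAlgebra k H}
    (hy : y ∈ Fix (cj k H) α.range) : T y ∈ Fix (cj k G) β.range := by
  rintro _ ⟨x, rfl⟩
  rw [← hT, hy _ ⟨x, rfl⟩]

end Tp

end Vale.Agent.P180.R2.H667
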