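import Vale.Agent.P180.R2.H667.Br1
import Vale.Agent.P180.R2.H799.Loc1

set_option linter.all false

/-!
P180: stable covered blocks and the reduction of Fong and Reynolds with a local idempotent.
-/

namespace Vale.Agent.P180.R2.H667

open Vale.Agent.P180 Vale.Agent.P180.H768.Gd Vale.Agent.P180.R2.H365

universe u

section Stab

variable {k : Type*} [Field k] {p : ℕ} [Fact p.Prime] [CharP k p] {G : Type*} [Group G] [Finite G]

/-- There is a `D`-stable block of a normal subgroup not killed by the Brauer map. -/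
theorem exists_stable {N D : Subgroup G} [N.Normal] (hD : IsPGroup p D) {u : MonoidAlgebra k G}
    (hu : u ∈ Fix (cj k G) D) (h0 : br D u ≠ 0) :
    ∃ c : MonoidAlgebra k G, IsBlockOf N c ∧ (∀ d ∈ D, cj k G d c = c) ∧ br D (u * c) ≠ 0 := by
  classical
  obtain ⟨x, hx⟩ : ∃ x, (br D u).coeff x ≠ 0 := by
    by_contra hcon
    push Not at hcon
    apply h0
    apply MonoidAlgebra.coeff_injective
    ext x
    rw [hcon x]; rfl
  -- the functional
  let T : MonoidAlgebra k G →ₗ[k] k :=
    { toFun := fun a => (br D a).coeff x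
      map_add' := fun a b => by rw [br_add]; rfl
      map_smul' := fun c a => by
        rw [br_coeff, br_coeff]
        split_ifs <;> simp }
  let S : Subalgebra k (MonoidAlgebra k G) := ZAlg k N ⊓ Fix (cj k G) D
  have hS : ∀ a ∈ S, ∀ b ∈ S, a * b = b * a := fun a ha b hb => ZAlg_comm a ha.1 b hb.1
  obtain ⟨e, he, hTe⟩ := KP.exists_isPrimIn_T S hS T (b := u) hx
  -- a block below `e`
  obtain ⟨c, hc, hce⟩ := H799.exists_covered (X := N) (k := k) (G := G) he.ne_zero
  have hce' : c * e = c := by
    rcases hc.primitive (c * e) ((ZAlg k N).mul_mem hc.mem he.mem.1)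
      (by
        change c * e * (c * e) = c * e
        rw [mul_assoc, ← mul_assoc e c e, ZAlg_comm e he.mem.1 c hc.mem, mul_assoc c e e,
          he.idem.eq, ← mul_assoc, hc.idem.eq])
      (by rw [mul_assoc, ZAlg_comm e he.mem.1 c hc.mem, ← mul_assoc, hc.idem.eq]) with h | h
    · rw [ZAlg_comm c hc.mem e he.mem.1] at h
      exact absurd h hce
    · exact h
  -- the trace of `c`
  set R : Subgroup G := D ⊓ stabE c with hR
  have hcR : c ∈ Fix (cj k G) R := fun g hg => mem_stabE.mp hg.2
  obtain ⟨t, ht⟩ : ∃ t, t = tr (cj k G) R D c := ⟨_, rfl⟩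
  have hct : c * t = c := by
    have _ := Fintype.ofFinite (D ⧸ R.subgroupOf D)
    rw [ht, tr_def, Finset.mul_sum, Finset.sum_eq_single (QuotientGroup.mk (1 : D))]
    · rw [act_out hcR, Subgroup.coe_one, map_one_act, hc.idem.eq]
    · intro q _ hq
      obtain ⟨g, rfl⟩ := QuotientGroup.mk_surjective q
      rw [act_out hcR]
      have hcg : IsBlockOf N (cj k G (g : G) c) := IsBlockOf.conj (g : G) hc
      rcases IsPrimIn.eq_or_mul_eq_zero (by exact ZAlg_comm) hc hcg with h | h
      · exfalso
        apply hq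
        rw [QuotientGroup.eq, Subgroup.mem_subgroupOf]
        refine ⟨(g⁻¹ * 1 : D).2, ?_⟩
        rw [Subgroup.coe_mul, Subgroup.coe_one, mul_one, Subgroup.coe_inv]
        exact (stabE c).inv_mem (mem_stabE.mpr h.symm)
      · exact h
    · intro h
      exact absurd (Finset.mem_univ _) h
  have htF : t ∈ Fix (cj k G) D := by rw [ht]; exact tr_mem_Fix hcR
  have htt : t * t = t := by
    conv_lhs => lhs; rw [ht]
    rw [tr_mul htF, hct, ← ht]
  have htZ : t ∈ ZAlg k N := by
    have _ := Fintype.ofFinite (D ⧸ R.subgroupOf D)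
    rw [ht, tr_def]
    exact Subalgebra.sum_mem _ fun q _ => cj_mem_ZAlg _ hc.mem
  have heD : e ∈ Fix (cj k G) D := he.mem.2
  have hte : t * e = t := by
    rw [ht, tr_mul heD, hce']
  have ht0 : t ≠ 0 := by
    intro h
    rw [h, mul_zero] at hct
    exact hc.ne_zero hct.symm
  have hte' : t = e := by
    rcases he.primitive t ⟨htZ, htF⟩ htt hte with h | h
    · exact absurd h ht0
    · exact h
  -- `R = D`
  have hRD : R = D := by
    by_contra hne
    apply hTe
    change (br D (u * e)).coeff x = 0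
    rw [← hte', ht, mul_tr hu, br_tr_proper hD inf_le_left hne]
    rfl
  have hce2 : t = c := by
    rw [ht, hRD]
    have h1 : c ∈ Fix (cj k G) D := by rw [← hRD]; exact hcR
    rw [tr_of_mem_Fix h1, Subgroup.relIndex_self, Nat.cast_one, one_smul]
  refine ⟨c, hc, fun d hd => ?_, ?_⟩
  · have h1 : d ∈ R := by rw [hRD]; exact hd
    exact hcR d h1
  · intro h
    apply hTe
    change (br D (u * e)).coeff x = 0
    rw [← hte', hce2, h]
    rfl

end Stab

section FR

variable {k : Type u} [Field k] {p : ℕ} [Fact p.Prime] [CharP k p] {G : Type} [Group G] [Finite G]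

/-- The defect data in the stabiliser. -/
theorem fr_data {N D : Subgroup G} [N.Normal] {e b a i : MonoidAlgebra k G} (he : IsBlockOf N e)
    (hb : IsBlock b) (hD : IsPGroup p D) (heD : ∀ d ∈ D, cj k G d e = e)
    (ha : a ∈ Fix (cj k G) D) (hba : b = tr (cj k G) D ⊤ a) (hi : i ∈ Fix (cj k G) D)
    (hbr : br D (i * (b * e)) ≠ 0) :
    ∃ (b' : MonoidAlgebra k (stabE e)), IsBlock b' ∧ incl k (stabE e) b' = b * e ∧
      ∃ a' ∈ Fix (cj k (stabE e)) (D.subgroupOf (stabE e)),
        b' = tr (cj k (stabE e)) (D.subgroupOf (stabE e)) ⊤ a' := by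
  have hbe : b * e ≠ 0 := by
    intro h
    rw [h, mul_zero] at hbr
    exact hbr br_zero
  have hDT : D ≤ stabE e := fun d hd => mem_stabE.mpr (heD d hd)
  have hbB := isBlock_iff.mp hb
  obtain ⟨x, z, hz, hzF, hbz⟩ := be_proj he hbB hbe ha hba
  obtain ⟨y, hy, hle⟩ := le_conj_of_br hD (K := stabE e) inf_le_left hDT hzF hi
    (by rw [← hbz]; exact hbr)
  have hcard : conjS y (stabE e ⊓ conjS x D) = D := by
    symm
    apply Subgroup.eq_of_le_of_card_ge hle
    have h1 : ∀ (g : G) (S : Subgroup G), Nat.card (conjS g S) = Nat.card S := fun g S =>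
      Nat.card_congr (S.equivMapOfInjective _ (MulAut.conj g).injective).symm.toEquiv
    rw [h1]
    exact (Nat.card_le_card_of_injective _ (Subgroup.inclusion_injective inf_le_right)).trans
      (h1 x D).le
  have hyT : conjS y (stabE e) = stabE e := by
    ext w
    rw [mem_conjS]
    constructor
    · intro h
      have := (stabE e).mul_mem ((stabE e).mul_mem hy h) ((stabE e).inv_mem hy)
      have e1 : y * (y⁻¹ * w * y) * y⁻¹ = w := by group
      rwa [e1] at this
    · intro h
      exact (stabE e).mul_mem ((stabE e).mul_mem ((stabE e).inv_mem hy) h) hy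
  have hbeF : cj k G y (b * e) = b * e := by
    rw [map_mul, hbB.mem.2 y trivial, mem_stabE.mp hy]
  have h2 : b * e = tr (cj k G) D (stabE e) (cj k G y z) := by
    have h3 := cj_tr (k := k) y (K := stabE e) hzF
    rw [← hbz, hbeF, hcard, hyT] at h3
    exact h3
  have hzy : cj k G y z ∈ SubAlg k (stabE e) := by
    refine SuppIn.conj hz y fun s hs => ?_
    exact (stabE e).mul_mem ((stabE e).mul_mem hy hs) ((stabE e).inv_mem hy)
  have hzyF : cj k G y z ∈ Fix (cj k G) D := by
    refine conj_mem_Fix hzF y fun h hh => ?_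
    have : h ∈ conjS y (stabE e ⊓ conjS x D) := by rw [hcard]; exact hh
    exact mem_conjS.mp this
  have hBe := be_isBlockOf he hbB hbe
  obtain ⟨b', hb'⟩ := exists_incl (stabE e) hBe.mem.1
  obtain ⟨a', ha'⟩ := exists_incl (stabE e) hzy
  have hb'B : IsBlock b' := by
    rw [isBlock_iff]
    have h4 : IsPrimIn (Subalgebra.center k (MonoidAlgebra k (stabE e))) b' := by
      rw [← isBlockOf_incl_iff, hb']
      exact hBe
    exact ⟨by rw [ZAlg_top]; exact h4.mem, h4.idem, h4.ne_zero, fun c hc => h4.primitive c (by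
      rw [← ZAlg_top]; exact hc)⟩
  have ha'F : a' ∈ Fix (cj k (stabE e)) (D.subgroupOf (stabE e)) := by
    rw [← incl_mem_Fix_iff, ha', Subgroup.map_subgroupOf_eq_of_le hDT]
    exact hzyF
  refine ⟨b', hb'B, hb', a', ha'F, ?_⟩
  apply incl_injective (stabE e)
  rw [incl_tr _ _ ha'F, ha', hb', Subgroup.map_subgroupOf_eq_of_le hDT, h2]

/-- the Brauer map and the inclusion of a subgroup -/
theorem br_incl {T D : Subgroup G} (hDT : D ≤ T) (a : MonoidAlgebra k T) :
    incl k T (br (D.subgroupOf T) a) = br D (incl k T a) := by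
  classical
  apply MonoidAlgebra.coeff_injective
  ext x
  by_cases hx : x ∈ T
  · have h1 := incl_coeff (k := k) T ⟨x, hx⟩ (br (D.subgroupOf T) a)
    have h2 := incl_coeff (k := k) T ⟨x, hx⟩ a
    simp only at h1 h2
    rw [h1, br_coeff, br_coeff, h2]
    have h3 : (⟨x, hx⟩ : T) ∈ Subgroup.centralizer ((D.subgroupOf T : Subgroup T) : Set T) ↔
        x ∈ Subgroup.centralizer (D : Set G) := by
      rw [mem_cent, mem_cent]
      constructor
      · intro h d hd
        exact congrArg Subtype.val (h ⟨d, hDT hd⟩ hd)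
      · intro h d hd
        exact Subtype.ext (h d hd)
    simp only [h3]
  · have h1 : (incl k T (br (D.subgroupOf T) a)).coeff x = 0 := by
      by_contra h
      exact hx (incl_mem T _ x h)
    have h2 : (incl k T a).coeff x = 0 := by
      by_contra h
      exact hx (incl_mem T _ x h)
    rw [h1, br_coeff, h2, ite_self]

end FR

end Vale.Agent.P180.R2.H667
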