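import Vale.Agent.P180.R2.H799.Full

set_option linter.all false

/-!
P180: relative traces from proper subgroups and the Brauer map.
-/

namespace Vale.Agent.P180.R2.H667

open Vale.Agent.P180 Vale.Agent.P180.H768.Gd Vale.Agent.P180.R2.H365

section Br

variable {k : Type*} [Field k] {p : ℕ} [Fact p.Prime] [CharP k p] {G : Type*} [Group G] [Finite G]

omit [Finite G] in
theorem br_add {D : Subgroup G} (a b : MonoidAlgebra k G) : br D (a + b) = br D a + br D b := by
  classical
  apply MonoidAlgebra.coeff_injective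
  ext x
  rw [br_coeff, MonoidAlgebra.coeff_add, MonoidAlgebra.coeff_add, Finsupp.add_apply,
    Finsupp.add_apply, br_coeff, br_coeff]
  split_ifs <;> simp

omit [Finite G] in
theorem br_zero {D : Subgroup G} : br D (0 : MonoidAlgebra k G) = 0 := by
  classical
  apply MonoidAlgebra.coeff_injective
  ext x
  rw [br_coeff]
  simp

omit [Finite G] in
theorem br_sum {D : Subgroup G} {ι : Type*} (s : Finset ι) (f : ι → MonoidAlgebra k G) :
    br D (∑ i ∈ s, f i) = ∑ i ∈ s, br D (f i) := by
  classical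
  induction s using Finset.induction_on with
  | empty => rw [Finset.sum_empty, Finset.sum_empty, br_zero]
  | insert a s ha ih => rw [Finset.sum_insert ha, Finset.sum_insert ha, br_add, ih]

/-- a trace from a proper subgroup is killed by the Brauer map -/
theorem br_tr_proper {D S : Subgroup G} (hD : IsPGroup p D) (hSD : S ≤ D) (hne : S ≠ D)
    (z : MonoidAlgebra k G) : br D (tr (cj k G) S D z) = 0 := by
  classical
  apply MonoidAlgebra.coeff_injective
  ext x
  rw [br_coeff]
  by_cases hx : x ∈ Subgroup.centralizer (D : Set G)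
  · rw [if_pos hx, KP.coeff_tr z x (fun g hg => by
      have := mem_cent.mp hx g hg
      exact this), KP.p_dvd_relIndex (p := p) hD (fun h => hne (le_antisymm hSD h)), zero_mul]
    rfl
  · rw [if_neg hx]; rfl

/-- an element killed by the Brauer map is a sum of traces from proper subgroups -/
theorem exists_proper {D : Subgroup G} {x : MonoidAlgebra k G} (hx : x ∈ Fix (cj k G) D)
    (h0 : br D x = 0) :
    ∃ (ι : Type) (_ : Fintype ι) (S : ι → Subgroup G) (z : ι → MonoidAlgebra k G),
      (∀ o, S o ≤ D) ∧ (∀ o, S o = D → z o = 0) ∧ (∀ o, z o ∈ Fix (cj k G) (S o)) ∧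
      x = ∑ o, tr (cj k G) (S o) D (z o) := by
  classical
  obtain ⟨ι, _, S, y, hS, hSy, hF, hsum⟩ := KP.eq_sum_tr_single D hx
  refine ⟨ι, inferInstance, S, fun o => MonoidAlgebra.single (y o) (x.coeff (y o)), hS, ?_, hF,
    hsum⟩
  intro o ho
  have h1 : y o ∈ Subgroup.centralizer (D : Set G) := by
    rw [mem_cent]
    intro d hd
    exact (hSy o d hd).mp (by rw [ho]; exact hd)
  have h2 : x.coeff (y o) = 0 := by
    have h3 : (br D x).coeff (y o) = 0 := by rw [h0]; rfl
    rwa [br_coeff, if_pos h1] at h3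
  simp [h2]

/-- a trace from proper subgroups is killed by the Brauer map, in general -/
theorem br_sum_tr {D : Subgroup G} (hD : IsPGroup p D) {ι : Type*} [Fintype ι]
    (S : ι → Subgroup G) (z : ι → MonoidAlgebra k G) (hS : ∀ o, S o ≤ D)
    (hz : ∀ o, S o = D → z o = 0) : br D (∑ o, tr (cj k G) (S o) D (z o)) = 0 := by
  rw [br_sum]
  apply Finset.sum_eq_zero
  intro o _
  by_cases h : S o = D
  · rw [hz o h]
    have : tr (cj k G) (S o) D (0 : MonoidAlgebra k G) = 0 := by
      have := tr_smul (ρ := cj k G) (H := S o) (K := D) (0 : k) (0 : MonoidAlgebra k G)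
      rwa [zero_smul, zero_smul] at this
    rw [this, br_zero]
  · exact br_tr_proper hD (hS o) h _

end Br

section Mackey

variable {k : Type*} [Field k] {G : Type*} [Group G] [Finite G]

/-- the Mackey formula for relative traces -/
theorem mackey_rel {R K D : Subgroup G} (hRK : R ≤ K) (hDK : D ≤ K) {a : MonoidAlgebra k G}
    (ha : a ∈ Fix (cj k G) R) :
    ∃ (m : ℕ) (x : Fin m → G), (∀ i, x i ∈ K) ∧ tr (cj k G) R K a =
      ∑ i, tr (cj k G) (D ⊓ conjS (x i) R) D (cj k G (x i) a) := by
  classical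
  have _ := Fintype.ofFinite (K ⧸ R.subgroupOf K)
  let _ : MulAction D (K ⧸ R.subgroupOf K) := MulAction.compHom _ (Subgroup.inclusion hDK)
  have _ := Fintype.ofFinite (MulAction.orbitRel.Quotient D (K ⧸ R.subgroupOf K))
  have h1 := sum_eq_sum_orbits (ρ := cj k G) (K := D) (Ω := K ⧸ R.subgroupOf K)
    (fun q => cj k G ((q.out : K) : G) a) (by
      intro d q
      obtain ⟨g, rfl⟩ := QuotientGroup.mk_surjective q
      have e1 : d • (QuotientGroup.mk g : K ⧸ R.subgroupOf K) =
          (QuotientGroup.mk (Subgroup.inclusion hDK d * g) : K ⧸ R.subgroupOf K) := rfl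
      rw [e1, act_out ha, act_out ha, ← map_mul_act]
      rfl)
  let e := Fintype.equivFin (MulAction.orbitRel.Quotient D (K ⧸ R.subgroupOf K))
  refine ⟨_, fun i => (((e.symm i).out.out : K) : G), fun i => ((e.symm i).out.out : K).2, ?_⟩
  rw [tr_def, h1, ← e.symm.sum_comp]
  refine Finset.sum_congr rfl fun i _ => ?_
  congr 1
  ext d
  rw [Subgroup.mem_map, Subgroup.mem_inf, mem_conjS]
  have key : ∀ d : D, d • (e.symm i).out = (e.symm i).out ↔
      (((e.symm i).out.out : K) : G)⁻¹ * d * (((e.symm i).out.out : K) : G) ∈ R := by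
    intro d
    obtain ⟨g, hg⟩ : ∃ g : K, g = ((e.symm i).out.out : K) := ⟨_, rfl⟩
    have e2 : (e.symm i).out = (QuotientGroup.mk g : K ⧸ R.subgroupOf K) := by
      rw [hg, QuotientGroup.out_eq']
    rw [← hg]
    conv_lhs => rw [e2]
    have e1 : d • (QuotientGroup.mk g : K ⧸ R.subgroupOf K) =
          (QuotientGroup.mk (Subgroup.inclusion hDK d * g) : K ⧸ R.subgroupOf K) := rfl
    rw [e1, eq_comm, QuotientGroup.eq, Subgroup.mem_subgroupOf]
    rw [← mul_assoc]
    rfl
  constructor
  · rintro ⟨d', hd', rfl⟩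
    exact ⟨d'.2, (key d').mp hd'⟩
  · rintro ⟨h2, h3⟩
    exact ⟨⟨d, h2⟩, (key ⟨d, h2⟩).mpr h3, rfl⟩

variable {p : ℕ} [Fact p.Prime] [CharP k p]

/-- If the product of a trace from `R` with a `D`-fixed element survives the Brauer map at `D`
then `D` is contained in a conjugate of `R`. -/
theorem le_conj_of_br {R K D : Subgroup G} (hD : IsPGroup p D) (hRK : R ≤ K) (hDK : D ≤ K)
    {a u : MonoidAlgebra k G} (ha : a ∈ Fix (cj k G) R) (hu : u ∈ Fix (cj k G) D)
    (h : br D (u * tr (cj k G) R K a) ≠ 0) : ∃ x ∈ K, D ≤ conjS x R := by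
  classical
  obtain ⟨m, x, hx, hm⟩ := mackey_rel (D := D) hRK hDK ha
  by_contra hcon
  push Not at hcon
  apply h
  rw [hm, Finset.mul_sum, br_sum]
  apply Finset.sum_eq_zero
  intro i _
  rw [mul_tr hu]
  apply br_tr_proper hD inf_le_left
  intro h1
  exact hcon (x i) (hx i) (inf_eq_left.mp h1)

end Mackey

end Vale.Agent.P180.R2.H667
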