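import Vale.Agent.P180.R2.H667.Ge
import Vale.Agent.P180.R2.H799.Cross

set_option linter.all false

/-!
P180: the dimension of `i kQ i`, for `Q` acting on `kXe` by inner automorphisms.
-/

namespace Vale.Agent.P180.R2.H667

open Vale.Agent.P180 Vale.Agent.P180.H768.Gd Vale.Agent.P180.R2.H799

variable {k : Type*} [Field k] {G : Type*} [Group G] [Finite G]

theorem finrank_climb {X Q : Subgroup G} [X.Normal] {e i : MonoidAlgebra k G}
    (he : IsBlockOf X e) (hXQ : X ≤ Q) (hQ : Q ≤ Ge he) (hiX : i ∈ SubAlg k X) (hie : i * e = i)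
    (hii : i * i = i) :
    Module.finrank k (NN (SubAlg k Q) i i) ≤
      X.relIndex Q * Module.finrank k (NN (SubAlg k X) i i) := by
  classical
  have hfin : FiniteDimensional k (MonoidAlgebra k G) :=
    Module.Finite.equiv (MonoidAlgebra.coeffLinearEquiv k (M := G) (S := k)).symm
  have hei : e * i = i := by rw [← commute_of_mem hiX he.mem.2, hie]
  have _ := Fintype.ofFinite (Q ⧸ X.subgroupOf Q)
  have hUV : ∀ q : Q, InE X e (q : G) := fun q => hQ q.2
  choose U V hU hV hUF hVF hUe hVe hUVe hVUe using hUV
  have hcomm : ∀ q, ∀ x ∈ SubAlg k X, U q * x = x * U q := fun q x hx =>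
    (commute_of_mem hx (hUF q)).symm
  have hcommV : ∀ q, ∀ x ∈ SubAlg k X, V q * x = x * V q := fun q x hx =>
    (commute_of_mem hx (hVF q)).symm
  have hle : NN (SubAlg k Q) i i ≤
      ⨆ q : Q ⧸ X.subgroupOf Q, (NN (SubAlg k X) i i).map
        (LinearMap.mulRight k (U q.out)) := by
    intro x hx
    have hx' : x = i * x * i := by rw [hx.2.1, hx.2.2]
    rw [hx']
    refine SuppIn.induction (P := fun x => i * x * i ∈
      ⨆ q : Q ⧸ X.subgroupOf Q, (NN (SubAlg k X) i i).map
        (LinearMap.mulRight k (U q.out))) hx.1 ?_ ?_ ?_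
    · simp
    · intro a b ha hb
      rw [mul_add, add_mul]
      exact Submodule.add_mem _ ha hb
    · intro g hg c
      rw [mul_smul_comm, smul_mul_assoc]
      apply Submodule.smul_mem
      set q : Q ⧸ X.subgroupOf Q := QuotientGroup.mk (⟨g, hg⟩ : Q) with hq
      refine (le_iSup (fun q : Q ⧸ X.subgroupOf Q => (NN (SubAlg k X) i i).map
        (LinearMap.mulRight k (U q.out))) q) ?_
      refine ⟨i * (MonoidAlgebra.single g 1 * V q.out) * i, ?_, ?_⟩
      · apply mul_mul_mem_NN hii hii hiX hiX
        rw [mem_SubAlg_iff_cst]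
        have h1 : SuppIn (cst X (g : G ⧸ X)) (MonoidAlgebra.single g (1 : k)) :=
          SuppIn.single (show g ∈ cst X (g : G ⧸ X) from rfl) 1
        have h2 := mul_supp_cst h1 (hV q.out)
        have h3 : (g : G ⧸ X) * (((q.out : G))⁻¹ : G) = (1 : G ⧸ X) := by
          have h4 : ((q.out : Q))⁻¹ * ⟨g, hg⟩ ∈ X.subgroupOf Q := by
            rw [← QuotientGroup.eq, QuotientGroup.out_eq', hq]
          rw [Subgroup.mem_subgroupOf] at h4
          have h5 : (((q.out : Q)) : G)⁻¹ * g ∈ X := h4
          rw [QuotientGroup.mk_inv, mul_inv_eq_one, eq_comm, QuotientGroup.eq]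
          exact h5
        rwa [h3] at h2
      · change i * (MonoidAlgebra.single g 1 * V q.out) * i * U q.out = _
        calc i * (MonoidAlgebra.single g 1 * V q.out) * i * U q.out
            = i * (MonoidAlgebra.single g 1 * V q.out) * (i * U q.out) := by
              simp only [mul_assoc]
          _ = i * (MonoidAlgebra.single g 1 * V q.out) * (U q.out * i) := by
              rw [hcomm _ i hiX]
          _ = i * MonoidAlgebra.single g 1 * ((V q.out * U q.out) * i) := by
              simp only [mul_assoc]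
          _ = _ := by rw [hVUe, hei]
  refine (Submodule.finrank_mono hle).trans ((finrank_iSup_le _).trans ?_)
  refine (Finset.sum_le_sum (g := fun _ => Module.finrank k (NN (SubAlg k X) i i))
    fun q _ => Submodule.finrank_map_le _ _).trans ?_
  rw [Finset.sum_const, Finset.card_univ, smul_eq_mul, Subgroup.relIndex, Subgroup.index,
    Nat.card_eq_fintype_card]

end Vale.Agent.P180.R2.H667
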