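import Vale.Agent.P180.R2.H667.Tw2

set_option linter.all false

/-!
P180: the twisted step for a normal `p'`-subgroup: defect data.
-/

namespace Vale.Agent.P180.R2.H667

open Vale.Agent.P180 Vale.Agent.P180.KP Vale.Agent.P180.H768.Gd Vale.Agent.P180.R2.H365

universe u

section Lift

variable {p : ℕ} [Fact p.Prime] {T H : Type} [Group T] [Group H] [Finite T] [Finite H]
variable {N : Subgroup T} [N.Normal]

theorem inf_eq_bot_of {G : Type*} [Group G] [Finite G] {A B : Subgroup G} (hA : IsPGroup p A)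
    (hB : ¬ p ∣ Nat.card B) {x : G} (hxA : x ∈ A) (hxB : x ∈ B) : x = 1 := by
  obtain ⟨n, hn⟩ := hA ⟨x, hxA⟩
  have h1 : x ^ p ^ n = 1 := congrArg Subtype.val hn
  have h2 : orderOf x ∣ p ^ n := orderOf_dvd_of_pow_eq_one h1
  have h3 : orderOf x ∣ Nat.card B := by
    rw [← Subgroup.orderOf_mk x hxB]
    exact orderOf_dvd_natCard _
  obtain ⟨l, -, hl⟩ := (Nat.dvd_prime_pow Fact.out).mp h2
  rw [hl] at h3
  have hl0 : l = 0 := by
    by_contra h0
    exact hB ((dvd_pow_self p h0).trans h3)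
  rw [hl0, pow_zero, orderOf_eq_one_iff] at hl
  exact hl

theorem exists_lift_pgroup (hN : ¬ p ∣ Nat.card N) {π : H →* T ⧸ N}
    (hπ : Function.Surjective π) (hk : ¬ p ∣ Nat.card π.ker) {D : Subgroup T}
    (hD : IsPGroup p D) :
    ∃ (D' : Subgroup H) (δ : D' →* T), D' ≤ (D.map (QuotientGroup.mk' N)).comap π ∧
      IsPGroup p D' ∧ Function.Injective δ ∧ δ.range = D ∧
      (∀ x : D', π (x : H) = ((δ x : T) : T ⧸ N)) ∧
      ¬ p ∣ D'.relIndex ((D.map (QuotientGroup.mk' N)).comap π) := by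
  obtain ⟨E, hEdef⟩ : ∃ E, E = D.map (QuotientGroup.mk' N) := ⟨_, rfl⟩
  have hE : IsPGroup p E := by rw [hEdef]; exact hD.map _
  obtain ⟨H₁, hH₁⟩ : ∃ H₁, H₁ = E.comap π := ⟨_, rfl⟩
  rw [← hEdef, ← hH₁]
  obtain ⟨Q⟩ : Nonempty (Sylow p H₁) := inferInstance
  have hidx : ((Q : Subgroup H₁).map H₁.subtype).relIndex H₁ = (Q : Subgroup H₁).index := by
    rw [Subgroup.relIndex, ← Subgroup.comap_subtype,
      Subgroup.comap_map_eq_self_of_injective H₁.subtype_injective]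
  have hle : (Q : Subgroup H₁).map H₁.subtype ≤ H₁ := by
    rintro _ ⟨x, -, rfl⟩
    exact x.2
  obtain ⟨D', hD'⟩ : ∃ D', D' = (Q : Subgroup H₁).map H₁.subtype := ⟨_, rfl⟩
  rw [← hD'] at hidx hle
  have hD'p : IsPGroup p D' := by rw [hD']; exact Q.2.map _
  -- the map `H₁ → E`
  have hmem' : ∀ x ∈ H₁, π x ∈ E := fun x hx => by
    rw [hH₁] at hx
    exact hx
  have hmem : ∀ x : H₁, π x ∈ E := fun x => hmem' x x.2
  let f : H₁ →* E := (π.comp H₁.subtype).codRestrict E hmem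
  have hf : Function.Surjective f := by
    rintro ⟨y, hy⟩
    obtain ⟨x, rfl⟩ := hπ y
    exact ⟨⟨x, by rw [hH₁]; exact hy⟩, rfl⟩
  have hQf : (Q : Subgroup H₁).map f = ⊤ := by
    have h1 : ((Q : Subgroup H₁).map f).index ∣ (Q : Subgroup H₁).index :=
      Subgroup.index_map_dvd _ hf
    have h2 : ¬ p ∣ ((Q : Subgroup H₁).map f).index := fun h => Q.not_dvd_index (h.trans h1)
    obtain ⟨n, hn⟩ := IsPGroup.iff_card.mp hE
    have h3 : ((Q : Subgroup H₁).map f).index ∣ p ^ n := by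
      rw [← hn]; exact Subgroup.index_dvd_card _
    obtain ⟨l, -, hl⟩ := (Nat.dvd_prime_pow Fact.out).mp h3
    rw [← Subgroup.index_eq_one, hl]
    have hl0 : l = 0 := by
      by_contra h0
      rw [hl] at h2
      exact h2 (dvd_pow_self p h0)
    rw [hl0, pow_zero]
  -- `π` on `D'`
  have hinj : ∀ x ∈ D', π x = 1 → x = 1 := fun x hx hx1 =>
    inf_eq_bot_of (p := p) hD'p hk hx hx1
  have hDE : ∀ x : D', ∃ d ∈ D, (d : T ⧸ N) = π x := by
    intro x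
    have h1 : π x ∈ E := hmem ⟨x, hle x.2⟩
    rw [hEdef] at h1
    obtain ⟨d, hd, hd'⟩ := h1
    exact ⟨d, hd, hd'⟩
  have hDinj : ∀ d ∈ D, ∀ d' ∈ D, (d : T ⧸ N) = (d' : T ⧸ N) → d = d' := by
    intro d hd d' hd' h
    rw [QuotientGroup.eq] at h
    have := inf_eq_bot_of (p := p) hD hN (D.mul_mem (D.inv_mem hd) hd') h
    exact inv_mul_eq_one.mp this
  choose δ₀ hδ₀ hδ₁ using hDE
  let δ : D' →* T :=
    { toFun := δ₀
      map_one' := hDinj _ (hδ₀ _) _ D.one_mem (by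
        rw [hδ₁]
        change π 1 = _
        rw [map_one]; rfl)
      map_mul' := fun x y => hDinj _ (hδ₀ _) _ (D.mul_mem (hδ₀ _) (hδ₀ _)) (by
        rw [hδ₁, QuotientGroup.mk_mul, hδ₁, hδ₁, ← map_mul]; rfl) }
  refine ⟨D', δ, hle, hD'p, ?_, ?_, fun x => (hδ₁ x).symm, ?_⟩
  · rw [injective_iff_map_eq_one]
    intro x hx
    apply Subtype.ext
    refine hinj x x.2 ?_
    rw [← hδ₁ x]
    change ((δ x : T) : T ⧸ N) = 1
    rw [hx]; rfl
  · ext d
    constructor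
    · rintro ⟨x, rfl⟩
      exact hδ₀ x
    · intro hd
      have h1 : (⟨(d : T ⧸ N), by rw [hEdef]; exact ⟨d, hd, rfl⟩⟩ : E) ∈
          (Q : Subgroup H₁).map f := by rw [hQf]; trivial
      obtain ⟨x, hx, hx'⟩ := h1
      have h2 : (x : H) ∈ D' := by rw [hD']; exact ⟨x, hx, rfl⟩
      have h3 : π (x : H) = (d : T ⧸ N) := congrArg Subtype.val hx'
      refine ⟨⟨x, h2⟩, hDinj _ (hδ₀ _) _ hd ?_⟩
      rw [hδ₁]
      exact h3
  · rw [hidx]; exact Q.not_dvd_index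

end Lift

section Step

variable {k : Type u} [Field k] {p : ℕ} [Fact p.Prime] [CharP k p]
variable {T H : Type} [Group T] [Group H] [Finite T] [Finite H]
variable {N : Subgroup T} [N.Normal] {c : MonoidAlgebra k T} {i : MonoidAlgebra k T}
variable {hi : IsIdempotentElem i} {φ : H →* hi.Cornerˣ} {ε : MonoidAlgebra k H}
variable {s : hi.Corner →ₗ[k] MonoidAlgebra k H} {π : H →* T ⧸ N}

theorem TwD.s_mul (h : TwD p N c hi φ ε s π) (x y : hi.Corner) : s x * s y = s (x * y) := by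
  rw [s_mul_left h.cen h.sl h.ls, h.ls]

theorem TwD.s_conj (h : TwD p N c hi φ ε s π) (z : H) (y : hi.Corner) :
    cj k H z (s y) = s ((φ z : hi.Corner) * y * ((φ z)⁻¹ : hi.Cornerˣ)) := by
  rw [cj_eq, s_mul_left h.cen h.sl h.ls, s_mul_right h.cen h.sl h.ls, liftU_single, liftU_single,
    one_smul, one_smul, map_inv]

theorem TwD.step (h : TwD p N c hi φ ε s π) (hc : IsBlockOf N c) (hcT : ∀ g, cj k T g c = c)
    (hN : ¬ p ∣ Nat.card N) {D : Subgroup T} (hD : IsPGroup p D) {a b i₁ : MonoidAlgebra k T}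
    (hb : IsBlock b) (hbc : b * c = b) (ha : a ∈ Fix (cj k T) D) (hba : b = tr (cj k T) D ⊤ a)
    (hii : i₁ * i₁ = i₁) (hiN : i₁ ∈ Fix (cj k T) N) (hiD : i₁ ∈ Fix (cj k T) D)
    (hic : i₁ * c = i₁) (hbr : br D (i₁ * b) ≠ 0) {β ι : hi.Corner} (hβ : β.1 = i * b)
    (hι : ι.1 = i * i₁) :
    ∃ (D' : Subgroup H) (δ : D' →* T) (a' : MonoidAlgebra k H), IsPGroup p D' ∧
      Function.Injective δ ∧ δ.range = D ∧ (∀ x : D', π (x : H) = ((δ x : T) : T ⧸ N)) ∧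
      a' ∈ Fix (cj k H) D' ∧ s β = tr (cj k H) D' ⊤ a' ∧ s ι * s ι = s ι ∧
      s ι ∈ Fix (cj k H) D' ∧ br D' (s ι * s β) ≠ 0 := by
  have hiI : i * i = i := hi
  obtain ⟨D', δ, hle, hD'p, hδi, hδr, hδπ, hp'⟩ := exists_lift_pgroup hN h.sur h.kp hD
  obtain ⟨H₁, hH₁⟩ : ∃ H₁, H₁ = (D.map (QuotientGroup.mk' N)).comap π := ⟨_, rfl⟩
  rw [← hH₁] at hle hp'
  have hbF : b ∈ Fix (cj k T) ⊤ := (isBlock_iff.mp hb).mem.2
  have hcomm : i * i₁ = i₁ * i := commute_of_mem h.mem hiN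
  have hιι : ι * ι = ι := by
    apply corner_ext
    change ι.1 * ι.1 = ι.1
    rw [hι, mul_assoc, ← mul_assoc i₁, ← hcomm, mul_assoc i, hii, ← mul_assoc, hiI]
  have hιβ : (ι * β).1 = i * (i₁ * b) := by
    change ι.1 * β.1 = _
    rw [hι, hβ, mul_assoc, ← mul_assoc i₁, ← hcomm, mul_assoc i, ← mul_assoc i i, hiI]
  -- the trace condition
  obtain ⟨x, hx⟩ : ∃ x, x = tr (cj k T) D (D ⊔ N) a := ⟨_, rfl⟩
  have hxF : x ∈ Fix (cj k T) (D ⊔ N) := by rw [hx]; exact tr_mem_Fix ha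
  have hbx : b = tr (cj k T) (D ⊔ N) ⊤ x := by
    rw [hx, tr_tr ha le_sup_left le_top]; exact hba
  obtain ⟨hF, hT⟩ := trace_transfer (hi := hi) h.mem h.cen h.sl h.ls h.sur h.supp hxF (β := β)
    (by rw [hβ, ← hbx])
  rw [← hH₁] at hT
  have hF' : s (mkCorner hi x) ∈ Fix (cj k H) H₁ := by rw [hH₁]; exact hF
  have hne : ((D'.relIndex H₁ : ℕ) : k) ≠ 0 := by
    rw [Ne, CharP.cast_eq_zero_iff k p]
    exact hp'
  have hιD : s ι ∈ Fix (cj k H) D' := by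
    intro z hz
    rw [h.s_conj]
    congr 1
    apply corner_ext
    change vl hi (φ z) * ι.1 * vl hi (φ z)⁻¹ = ι.1
    have h1 := h.supp z
    rw [hδπ ⟨z, hz⟩] at h1
    rw [hι, conj_hom h.mem hiN h1]
    congr 1
    apply hiD
    rw [← hδr]
    exact ⟨_, rfl⟩
  refine ⟨D', δ, ((D'.relIndex H₁ : ℕ) : k)⁻¹ • s (mkCorner hi x), hD'p, hδi, hδr, hδπ,
    Subalgebra.smul_mem _ (Fix_mono _ hle hF') _, ?_, by rw [h.s_mul, hιι], hιD, ?_⟩
  · rw [hT]
    have h1 : ((D'.relIndex H₁ : ℕ) : k)⁻¹ • s (mkCorner hi x) ∈ Fix (cj k H) D' :=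
      Subalgebra.smul_mem _ (Fix_mono _ hle hF') _
    rw [← tr_tr h1 hle le_top, tr_smul, tr_of_mem_Fix hF', smul_smul, inv_mul_cancel₀ hne,
      one_smul]
  · intro h0
    apply hbr
    obtain ⟨F, hF1, hF2⟩ := h.exists_map hc hcT hN
    have h1 : F (s ι * s β) = i₁ * b := by
      rw [h.s_mul]
      refine hF2 (i₁ * b) ?_ ?_ _ hιβ
      · exact Subalgebra.mul_mem _ hiN (Fix_mono _ le_top hbF)
      · rw [mul_assoc, hbc]
    have hsβ : s β ∈ Fix (cj k H) D' := by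
      rw [hT]
      exact Fix_mono _ le_top (tr_mem_Fix hF')
    have hr : D'.subtype.range = D' := Subgroup.range_subtype D'
    have h2 := br_transport (p := p) (α := D'.subtype) (β := δ) D'.subtype_injective hδi hD'p F
      (fun x y => hF1 y x (δ x) (hδπ x)) (y := s ι * s β)
      (by rw [hr]; exact Subalgebra.mul_mem _ hιD hsβ) (by rw [hr]; exact h0)
    rw [hδr, h1] at h2
    exact h2

end Step

end Vale.Agent.P180.R2.H667
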