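import Vale.Agent.P180.R2.H667.Wd3

set_option linter.all false

/-!
P180: the block algebras of `G` and of `Γ` agree.
-/

namespace Vale.Agent.P180.R2.H667

open Vale.Agent.P180 Vale.Agent.P180.KP

universe u

section WD

variable {k : Type u} [Field k] {G Γ : Type} [Group G] [Group Γ] [Finite G] [Finite Γ]
variable {X Y : Subgroup G} [X.Normal] {e : MonoidAlgebra k G} {hi : IsIdempotentElem e}
variable {φ : Γ →* hi.Cornerˣ} {q : Γ →* G} {j : G →* Γ} {m : ℕ}

theorem WD.ext (h : WD X Y hi φ q j m) {x y : Γ} (h1 : q x = q y)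
    (h2 : vl hi (φ x) = vl hi (φ y)) : x = y := by
  have h3 : φ x = φ y := vl_ext hi h2
  have h4 : x * y⁻¹ = 1 := h.inj _ (by rw [map_mul, map_inv, h1, mul_inv_cancel])
    (by rw [map_mul, map_inv, h3, mul_inv_cancel])
  exact mul_inv_eq_one.mp h4

theorem single_comm_Fix {g : G} {x : MonoidAlgebra k G} (hg : g ∈ X) (hx : x ∈ Fix (cj k G) X) :
    MonoidAlgebra.single g 1 * x = x * MonoidAlgebra.single g 1 := mem_Fix_cj_iff.mp hx g hg

theorem WD.comm_X (h : WD X Y hi φ q j m) {w : Γ} (hw : q w = 1) {x : G} (hx : x ∈ X) :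
    w * j x = j x * w := by
  apply h.ext
  · rw [map_mul, map_mul, hw, one_mul, mul_one]
  · rw [map_mul, map_mul, vl_mul, vl_mul, h.φj, mul_assoc, i_vl, ← mul_assoc,
      ← single_comm_Fix hx (h.fix w hw), mul_assoc, vl_i]

/-- conjugation by `j g` on the kernel of `q` -/
theorem WD.vl_conj (h : WD X Y hi φ q j m) (g : G) (w : Γ) :
    vl hi (φ (j g * w * (j g)⁻¹)) = cj k G g (vl hi (φ w)) := by
  rw [← map_inv, map_mul, map_mul, vl_mul, vl_mul, h.φj, h.φj, cj_eq, mul_assoc _ e, i_vl,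
    h.cen (MonoidAlgebra.single g⁻¹ 1), ← mul_assoc, mul_assoc _ _ e, vl_i]

theorem WD.q_conj (h : WD X Y hi φ q j m) (g : G) {w : Γ} (hw : q w = 1) :
    q (j g * w * (j g)⁻¹) = 1 := by
  rw [map_mul, map_mul, hw, mul_one, map_inv, mul_inv_cancel]

theorem WD.conj_eq (h : WD X Y hi φ q j m) {w w' : Γ} (hw : q w = 1) (hw' : q w' = 1) {g : G}
    (hg : SuppIn (cst X (g : G ⧸ X)) (vl hi (φ w))) : j g * w' * (j g)⁻¹ = w * w' * w⁻¹ := by
  apply h.ext
  · rw [h.q_conj g hw', map_mul, map_mul, map_inv, hw, hw', mul_one, mul_inv_cancel]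
  · rw [h.vl_conj, map_mul, map_mul, vl_mul, vl_mul, map_inv]
    set u := vl hi (φ w) with hu
    set u' := vl hi (φ w)⁻¹ with hu'
    set v := vl hi (φ w') with hv'
    have huu : u * u' = e := vl_vl_inv hi _
    have h1 : MonoidAlgebra.single g⁻¹ (1 : k) * u ∈ SubAlg k X := by
      rw [← supp_one_iff]
      have h2 : SuppIn (cst X ((g⁻¹ : G) : G ⧸ X)) (MonoidAlgebra.single g⁻¹ (1 : k)) :=
        SuppIn.single (show g⁻¹ ∈ cst X ((g⁻¹ : G) : G ⧸ X) from rfl) 1
      have h3 := supp_mul h2 hg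
      rwa [QuotientGroup.mk_inv, inv_mul_cancel] at h3
    have h2 : MonoidAlgebra.single g⁻¹ (1 : k) * u * v = v * (MonoidAlgebra.single g⁻¹ (1 : k) * u) :=
      commute_of_mem h1 (h.fix w' hw')
    have h3 : cj k G g v * u = u * v := by
      rw [cj_eq, mul_assoc, mul_assoc, ← h2, ← mul_assoc, ← mul_assoc,
        MonoidAlgebra.single_mul_single, mul_inv_cancel, one_mul, ← MonoidAlgebra.one_def, one_mul]
    have h4 : cj k G g v * e = cj k G g v := by
      have h5 : cj k G g e = e := by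
        rw [cj_eq, h.cen, mul_assoc, MonoidAlgebra.single_mul_single, mul_inv_cancel, one_mul,
          ← MonoidAlgebra.one_def, mul_one]
      conv_lhs => rw [← h5]
      rw [← map_mul, vl_i]
    rw [← h3, mul_assoc, huu, h4]

/-- the map of group algebras -/
noncomputable def J (k : Type u) [Field k] (j : G →* Γ) :
    MonoidAlgebra k G →ₐ[k] MonoidAlgebra k Γ :=
  MonoidAlgebra.mapDomainAlgHom k k j

theorem J_single (g : G) (c : k) :
    J k j (MonoidAlgebra.single g c) = MonoidAlgebra.single (j g) c := by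
  simp [J]

/-- a property of all elements of the group algebra -/
theorem ma_induction {R : Type*} [Field R] {H : Type*} [Group H] {P : MonoidAlgebra R H → Prop}
    (x : MonoidAlgebra R H) (h0 : P 0) (hadd : ∀ a b, P a → P b → P (a + b))
    (hs : ∀ x (c : R), P (MonoidAlgebra.single x c)) : P x := by
  refine SuppIn.induction (S := Set.univ) (fun _ _ => trivial) h0 hadd fun y _ c => ?_
  rw [MonoidAlgebra.smul_single', mul_one]
  exact hs y c

theorem WD.J_mul (h : WD X Y hi φ q j m) {w w' : Γ} (hw : q w = 1) (hw' : q w' = 1) :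
    J k j (vl hi (φ w)) * MonoidAlgebra.single w' 1 =
      MonoidAlgebra.single (w * w' * w⁻¹) 1 * J k j (vl hi (φ w)) := by
  obtain ⟨y, hy, hs⟩ := h.supp w hw
  refine SuppIn.induction (P := fun a => J k j a * MonoidAlgebra.single w' 1 =
      MonoidAlgebra.single (w * w' * w⁻¹) 1 * J k j a) hs (by simp) ?_ ?_
  · intro a b ha hb
    rw [map_add, add_mul, mul_add, ha, hb]
  · intro x hx c
    have hx1 : (x : G ⧸ X) = y := hx
    rw [← hx1] at hs
    rw [MonoidAlgebra.smul_single', mul_one, J_single, MonoidAlgebra.single_mul_single,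
      MonoidAlgebra.single_mul_single, ← h.conj_eq hw hw' hs, inv_mul_cancel_right, mul_comm]

/-- the units `κ_w` -/
noncomputable def ka (φ : Γ →* hi.Cornerˣ) (j : G →* Γ) (w : Γ) : MonoidAlgebra k Γ :=
  MonoidAlgebra.single w⁻¹ 1 * J k j (vl hi (φ w))

theorem WD.ka_mul (h : WD X Y hi φ q j m) {w w' : Γ} (hw : q w = 1) (hw' : q w' = 1) :
    ka φ j w * ka φ j w' = ka φ j (w * w') := by
  have hw'' : q w'⁻¹ = 1 := by rw [map_inv, hw', inv_one]
  unfold ka
  rw [mul_assoc, ← mul_assoc (J k j _), h.J_mul hw hw'', mul_assoc, ← mul_assoc,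
    MonoidAlgebra.single_mul_single, ← map_mul (J k j), ← vl_mul, ← map_mul φ, one_mul]
  congr 2
  group

theorem WD.ka_single (h : WD X Y hi φ q j m) {w w' : Γ} (hw : q w = 1) (hw' : q w' = 1) :
    ka φ j w * MonoidAlgebra.single w' 1 = MonoidAlgebra.single w' (1 : k) * ka φ j w := by
  unfold ka
  rw [mul_assoc, h.J_mul hw hw', ← mul_assoc, ← mul_assoc, MonoidAlgebra.single_mul_single,
    MonoidAlgebra.single_mul_single]
  congr 2
  group

theorem WD.single_ka (h : WD X Y hi φ q j m) (g : G) (w : Γ) :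
    MonoidAlgebra.single (j g) 1 * ka φ j w =
      ka φ j (j g * w * (j g)⁻¹) * MonoidAlgebra.single (j g) (1 : k) := by
  unfold ka
  rw [h.vl_conj, mul_assoc _ _ (MonoidAlgebra.single (j g) (1 : k)), ← J_single (k := k) (j := j),
    ← map_mul, cj_mul_single, map_mul, J_single, ← mul_assoc, ← mul_assoc,
    MonoidAlgebra.single_mul_single, MonoidAlgebra.single_mul_single]
  congr 2
  group

theorem WD.ka_one (h : WD X Y hi φ q j m) : ka φ j (1 : Γ) = J k j e := by
  unfold ka
  rw [map_one, vl_one, inv_one, ← MonoidAlgebra.one_def, one_mul]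

open scoped Classical in
/-- the averaged idempotent -/
noncomputable def kb (φ : Γ →* hi.Cornerˣ) (q : Γ →* G) (j : G →* Γ) : MonoidAlgebra k Γ :=
  letI := Fintype.ofFinite q.ker
  ((Nat.card q.ker : ℕ) : k)⁻¹ • ∑ w : q.ker, ka φ j w.1

theorem WD.card_ker {p : ℕ} [Fact (Nat.Prime p)] (h : WD X Y hi φ q j m) (hm : ¬ p ∣ m) :
    ¬ p ∣ Nat.card q.ker := by
  intro hp
  obtain ⟨w, hw⟩ := exists_prime_orderOf_dvd_card' p hp
  apply hm
  rw [← hw]
  apply orderOf_dvd_of_pow_eq_one
  exact Subtype.ext (h.pow w.1 w.2)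

variable {p : ℕ} [Fact p.Prime] [CharP k p]

theorem WD.card_ne (h : WD X Y hi φ q j m) (hm : ¬ p ∣ m) : ((Nat.card q.ker : ℕ) : k) ≠ 0 := by
  rw [Ne, CharP.cast_eq_zero_iff k p]
  exact h.card_ker hm

theorem WD.ka_kb (h : WD X Y hi φ q j m) {w : Γ} (hw : q w = 1) :
    ka φ j w * kb φ q j = kb φ q j := by
  classical
  letI := Fintype.ofFinite q.ker
  unfold kb
  rw [mul_smul_comm, Finset.mul_sum]
  congr 1
  refine Fintype.sum_equiv (Equiv.mulLeft (⟨w, hw⟩ : q.ker)) _ _ fun v => ?_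
  exact h.ka_mul hw v.2

theorem WD.kb_kb (h : WD X Y hi φ q j m) (hm : ¬ p ∣ m) :
    kb φ q j * kb φ q j = kb φ q j := by
  classical
  letI := Fintype.ofFinite q.ker
  conv_lhs => enter [1]; unfold kb
  rw [smul_mul_assoc, Finset.sum_mul, Finset.sum_congr rfl fun w _ => h.ka_kb w.2,
    Finset.sum_const, Finset.card_univ, ← Nat.card_eq_fintype_card, ← Nat.cast_smul_eq_nsmul k,
    smul_smul, inv_mul_cancel₀ (h.card_ne (p := p) hm), one_smul]

theorem WD.kb_single_ker (h : WD X Y hi φ q j m) {w : Γ} (hw : q w = 1) :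
    kb φ q j * MonoidAlgebra.single w 1 = MonoidAlgebra.single w (1 : k) * kb φ q j := by
  classical
  letI := Fintype.ofFinite q.ker
  unfold kb
  rw [smul_mul_assoc, mul_smul_comm, Finset.sum_mul, Finset.mul_sum]
  congr 1
  exact Finset.sum_congr rfl fun v _ => h.ka_single v.2 hw

theorem WD.kb_single_j (h : WD X Y hi φ q j m) (g : G) :
    MonoidAlgebra.single (j g) (1 : k) * kb φ q j = kb φ q j * MonoidAlgebra.single (j g) 1 := by
  classical
  letI := Fintype.ofFinite q.ker
  unfold kb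
  rw [smul_mul_assoc, mul_smul_comm, Finset.sum_mul, Finset.mul_sum]
  congr 1
  have hn : q.ker.Normal := inferInstance
  refine Fintype.sum_equiv (MulAut.conjNormal (H := q.ker) (j g)).toEquiv _ _ fun v => ?_
  exact h.single_ka g v.1

theorem WD.dec (h : WD X Y hi φ q j m) (x : Γ) : q (x * (j (q x))⁻¹) = 1 := by
  rw [map_mul, map_inv, h.qj, mul_inv_cancel]

theorem WD.kb_cen (h : WD X Y hi φ q j m) (x : MonoidAlgebra k Γ) :
    kb φ q j * x = x * kb φ q j := by
  refine ma_induction (P := fun x => kb φ q j * x = x * kb φ q j) x (by simp) ?_ ?_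
  · intro a b ha hb
    rw [mul_add, add_mul, ha, hb]
  · intro x c
    have h1 : MonoidAlgebra.single x c = c • (MonoidAlgebra.single (x * (j (q x))⁻¹) (1 : k) *
        MonoidAlgebra.single (j (q x)) 1) := by
      rw [MonoidAlgebra.single_mul_single, inv_mul_cancel_right, one_mul,
        MonoidAlgebra.smul_single', mul_one]
    rw [h1, mul_smul_comm, smul_mul_assoc, ← mul_assoc, h.kb_single_ker (h.dec x), mul_assoc,
      ← h.kb_single_j, mul_assoc]

theorem WD.J_kb (h : WD X Y hi φ q j m) {w : Γ} (hw : q w = 1) :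
    J k j (vl hi (φ w)) * kb φ q j = MonoidAlgebra.single w (1 : k) * kb φ q j := by
  have h1 : J k j (vl hi (φ w)) = MonoidAlgebra.single w (1 : k) * ka φ j w := by
    unfold ka
    rw [← mul_assoc, MonoidAlgebra.single_mul_single, mul_inv_cancel, one_mul,
      ← MonoidAlgebra.one_def, one_mul]
  rw [h1, mul_assoc, h.ka_kb hw]

theorem WD.Je_kb (h : WD X Y hi φ q j m) : J k j e * kb φ q j = kb φ q j := by
  rw [← h.ka_one, h.ka_kb (map_one q)]

/-- the section -/
noncomputable def sW (φ : Γ →* hi.Cornerˣ) (q : Γ →* G) (j : G →* Γ) :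
    hi.Corner →ₗ[k] MonoidAlgebra k Γ where
  toFun y := J k j y.1 * kb φ q j
  map_add' x y := by
    change J k j (x.1 + y.1) * _ = _
    rw [map_add, add_mul]
  map_smul' c x := by
    rw [corner_smul_val, map_smul, smul_mul_assoc]
    rfl

theorem sW_apply (y : hi.Corner) : sW φ q j y = J k j y.1 * kb φ q j := rfl

theorem WD.s_lift (h : WD X Y hi φ q j m) (x : MonoidAlgebra k Γ) :
    sW φ q j (liftU φ x) = kb φ q j * x := by
  refine ma_induction (P := fun x => sW φ q j (liftU φ x) = kb φ q j * x) x (by simp) ?_ ?_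
  · intro a b ha hb
    rw [map_add, map_add, ha, hb, mul_add]
  · intro x c
    rw [liftU_single, map_smul, h.kb_cen]
    have h1 : MonoidAlgebra.single x c * kb φ q j = c • (MonoidAlgebra.single x (1 : k) * kb φ q j) := by
      rw [← smul_mul_assoc, MonoidAlgebra.smul_single', mul_one]
    rw [h1]
    congr 1
    have h2 : x = (x * (j (q x))⁻¹) * j (q x) := by group
    rw [sW_apply]
    have h3 : ((φ x : hi.Corner)).1 = vl hi (φ (x * (j (q x))⁻¹)) *
        MonoidAlgebra.single (q x) 1 * e := by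
      rw [mul_assoc, ← h.φj, ← vl_mul, ← map_mul, ← h2]
      rfl
    rw [h3, map_mul, map_mul, J_single, mul_assoc, h.Je_kb, mul_assoc, h.kb_single_j, ← mul_assoc,
      h.J_kb (h.dec x), mul_assoc, ← h.kb_single_j, ← mul_assoc, MonoidAlgebra.single_mul_single,
      ← h2, one_mul]

theorem WD.lift_J (h : WD X Y hi φ q j m) (x : MonoidAlgebra k G) :
    (liftU φ (J k j x)).1 = x * e := by
  refine ma_induction (P := fun x => (liftU φ (J k j x)).1 = x * e) x ?_ ?_ ?_
  · rw [map_zero, map_zero, zero_mul]; rfl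
  · intro a b ha hb
    rw [map_add, map_add, add_mul, ← ha, ← hb]
    rfl
  · intro x c
    rw [J_single, liftU_single, corner_smul_val]
    have := h.φj x
    change c • vl hi (φ (j x)) = _
    rw [this, ← smul_mul_assoc, MonoidAlgebra.smul_single', mul_one]

theorem WD.lift_ka (h : WD X Y hi φ q j m) (w : Γ) : liftU φ (ka φ j w) = 1 := by
  apply corner_ext
  unfold ka
  rw [map_mul, liftU_single, one_smul]
  change ((φ w⁻¹ : hi.Corner)).1 * (liftU φ (J k j (vl hi (φ w)))).1 = e
  rw [h.lift_J, vl_i, map_inv]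
  exact vl_inv_vl hi _

theorem WD.lift_kb (h : WD X Y hi φ q j m) (hm : ¬ p ∣ m) : liftU φ (kb φ q j) = 1 := by
  classical
  letI := Fintype.ofFinite q.ker
  unfold kb
  rw [map_smul, map_sum, Finset.sum_congr rfl fun w _ => h.lift_ka w.1,
    Finset.sum_const, Finset.card_univ, ← Nat.card_eq_fintype_card, ← Nat.cast_smul_eq_nsmul k,
    smul_smul, inv_mul_cancel₀ (h.card_ne (p := p) hm), one_smul]

theorem WD.lift_s (h : WD X Y hi φ q j m) (hm : ¬ p ∣ m) (y : hi.Corner) :
    liftU φ (sW φ q j y) = y := by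
  rw [sW_apply, map_mul, h.lift_kb (p := p) hm, mul_one]
  apply corner_ext
  rw [h.lift_J]
  exact corner_right hi y

theorem WD.kb_center (h : WD X Y hi φ q j m) :
    kb φ q j ∈ Subalgebra.center k (MonoidAlgebra k Γ) :=
  Subalgebra.mem_center_iff.mpr fun x => (h.kb_cen x).symm

end WD

end Vale.Agent.P180.R2.H667
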