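import Vale.Agent.P180.Int.Mor
import Vale.Agent.P180.Int.LL
import Vale.Agent.P180.R2.H667.Wd4

set_option linter.all false

/-!
P180: roots of unity of the group algebra lift to `O`.
-/

namespace Vale.Agent.P180.R2.H667

open IsLocalRing
open Vale.Agent.P180 Vale.Agent.P180.I
open Vale.Agent.P180 (cst)

section Teich

variable {O : Type*} [CommRing O] [IsLocalRing O] {G : Type*} [Group G]

theorem dv_pow_sub {n : ℕ} {a b : MonoidAlgebra O G} (h : Dv n (a - b)) (i : ℕ) :
    Dv n (a ^ i - b ^ i) := by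
  induction i with
  | zero => rw [pow_zero, pow_zero, sub_self]; exact Dv.zero n
  | succ i ih =>
    have h1 : a ^ (i + 1) - b ^ (i + 1) = a ^ i * (a - b) + (a ^ i - b ^ i) * b := by
      rw [pow_succ, pow_succ, mul_sub, sub_mul]; abel
    rw [h1]
    exact (h.mul_left _).add (ih.mul_right _)

theorem idem_pow {A : Type*} [Ring A] {x : A} (hx : x * x = x) {n : ℕ} (hn : n ≠ 0) :
    x ^ n = x := by
  obtain ⟨n, rfl⟩ := Nat.exists_eq_succ_of_ne_zero hn
  induction n with
  | zero => rw [pow_one]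
  | succ n ih => rw [pow_succ, ih (Nat.succ_ne_zero n), hx]

theorem pow_I {A : Type*} [Ring A] {I u : A} (h : u * I = u) {n : ℕ} (hn : n ≠ 0) :
    u ^ n * I = u ^ n := by
  obtain ⟨n, rfl⟩ := Nat.exists_eq_succ_of_ne_zero hn
  rw [pow_succ, mul_assoc, h]

theorem I_pow {A : Type*} [Ring A] {I u : A} (h : I * u = u) {n : ℕ} (hn : n ≠ 0) :
    I * u ^ n = u ^ n := by
  obtain ⟨n, rfl⟩ := Nat.exists_eq_succ_of_ne_zero hn
  rw [pow_succ', ← mul_assoc, h]

variable {p : ℕ} [Fact p.Prime] [CharP (ResidueField O) p]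

/-- `p`-th powers -/
theorem dv_pow_p {I y : MonoidAlgebra O G} (hI : I * I = I) (h1 : I * y = y) (h2 : y * I = y)
    {n : ℕ} (hn : n ≠ 0) (h : Dv n (y - I)) : Dv (n + 1) (y ^ p - I) := by
  have hp0 : p ≠ 0 := (Fact.out : p.Prime).ne_zero
  have hc : Commute y I := by
    change y * I = I * y
    rw [h1, h2]
  have h3 := hc.mul_geom_sum₂ p
  rw [idem_pow hI hp0] at h3
  rw [← h3]
  refine h.mul ?_
  rw [← rd_eq_zero_iff, map_sum]
  have hrd : rd y = rd I := by
    have h4 := rd_eq_zero_iff.mpr (h.mono (Nat.one_le_iff_ne_zero.mpr hn))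
    rwa [map_sub, sub_eq_zero] at h4
  have hcp : ((p : ℕ) : MonoidAlgebra (ResidueField O) G) = 0 := by
    have h5 : ((p : ℕ) : MonoidAlgebra (ResidueField O) G) =
        algebraMap (ResidueField O) _ ((p : ℕ) : ResidueField O) := by rw [map_natCast]
    rw [h5, CharP.cast_eq_zero, map_zero]
  have h6 : ∀ i ∈ Finset.range p, rd (y ^ i * I ^ (p - 1 - i)) = rd I ^ (p - 1) := by
    intro i hi
    rw [map_mul, map_pow, map_pow, hrd, ← pow_add]
    congr 1
    have := Finset.mem_range.mp hi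
    omega
  rw [Finset.sum_congr rfl h6, Finset.sum_const, Finset.card_range, nsmul_eq_mul, hcp, zero_mul]

theorem dv_pow_pn {I y : MonoidAlgebra O G} (hI : I * I = I) (h1 : I * y = y) (h2 : y * I = y)
    (h : rd y = rd I) (n : ℕ) : Dv (n + 1) (y ^ p ^ n - I) := by
  induction n with
  | zero =>
    rw [pow_zero, pow_one, zero_add, ← rd_eq_zero_iff, map_sub, h, sub_self]
  | succ n ih =>
    have hp : p ^ n ≠ 0 := pow_ne_zero _ (Fact.out : p.Prime).ne_zero
    rw [pow_succ, pow_mul]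
    exact dv_pow_p hI (I_pow h1 hp) (pow_I h2 hp) (Nat.succ_ne_zero n) ih

variable [IsAdicComplete (maximalIdeal O) O] [Finite G]

theorem teich {I u : MonoidAlgebra O G} (hI : I * I = I) (h1 : I * u = u) (h2 : u * I = u)
    {m : ℕ} (hm : ¬ p ∣ m) (hum : rd u ^ m = rd I) :
    ∃ (v : MonoidAlgebra O G) (N : ℕ → ℕ), (∀ n, Dv n (v - u ^ (1 + m * N n))) ∧ v ^ m = I ∧
      rd v = rd u ∧ I * v = v ∧ v * I = v := by
  have hpp : p.Prime := Fact.out
  have hm0 : m ≠ 0 := by rintro rfl; exact hm (dvd_zero p)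
  have hcop : Nat.Coprime p m := (Nat.Prime.coprime_iff_not_dvd hpp).mpr hm
  obtain ⟨r, hrdef⟩ : ∃ r, r = Nat.totient m := ⟨_, rfl⟩
  have hr : 0 < r := by rw [hrdef]; exact Nat.totient_pos.mpr (Nat.pos_of_ne_zero hm0)
  have hpr : p ^ r ≡ 1 [MOD m] := by rw [hrdef]; exact Nat.ModEq.pow_totient hcop
  have hpr1 : 1 ≤ p ^ r := Nat.one_le_iff_ne_zero.mpr (pow_ne_zero _ hpp.ne_zero)
  have hN : ∀ n, ∃ N, p ^ (r * n) = 1 + m * N := by
    intro n
    have h3 : p ^ (r * n) ≡ 1 [MOD m] := by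
      rw [pow_mul]
      have := hpr.pow n
      rwa [one_pow] at this
    have h4 : 1 ≤ p ^ (r * n) := Nat.one_le_iff_ne_zero.mpr (pow_ne_zero _ hpp.ne_zero)
    obtain ⟨N, hN⟩ := (Nat.modEq_iff_dvd' h4).mp h3.symm
    exact ⟨N, by omega⟩
  choose N hN using hN
  obtain ⟨c, hc⟩ := (Nat.modEq_iff_dvd' hpr1).mp hpr.symm
  have hc1 : p ^ r = 1 + m * c := by omega
  have hc0 : c ≠ 0 := by
    rintro rfl
    rw [mul_zero, add_zero] at hc1
    have := Nat.one_lt_pow hr.ne' hpp.one_lt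
    omega
  set x := u ^ m with hx
  have hx1 : I * x = x := I_pow h1 hm0
  have hx2 : x * I = x := pow_I h2 hm0
  have hxr : rd x = rd I := by rw [hx, map_pow, hum]
  have hpn : ∀ n, p ^ (r * n) ≠ 0 := fun n => pow_ne_zero _ hpp.ne_zero
  obtain ⟨v, hv⟩ := exists_lim (fun n => u ^ p ^ (r * n)) (fun n => by
    have h3 : u ^ p ^ (r * (n + 1)) = u ^ p ^ (r * n) * (x ^ p ^ (r * n)) ^ c := by
      rw [hx, ← pow_mul, ← pow_mul, ← pow_add]
      congr 1
      rw [mul_add, mul_one, pow_add, hc1]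
      ring
    have h4 : u ^ p ^ (r * n) = u ^ p ^ (r * n) * I ^ c := by
      rw [idem_pow hI hc0, pow_I h2 (hpn n)]
    have h5 : u ^ p ^ (r * (n + 1)) - u ^ p ^ (r * n) =
        u ^ p ^ (r * n) * ((x ^ p ^ (r * n)) ^ c - I ^ c) := by
      rw [mul_sub, ← h3, ← h4]
    rw [h5]
    refine Dv.mul_left _ (dv_pow_sub ?_ c)
    refine (dv_pow_pn hI hx1 hx2 hxr (r * n)).mono ?_
    have : n ≤ r * n := Nat.le_mul_of_pos_left n hr
    omega)
  refine ⟨v, N, fun n => by rw [← hN]; exact hv n, ?_, ?_, ?_, ?_⟩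
  · rw [← sub_eq_zero]
    apply Dv.eq_zero
    intro n
    have h3 : v ^ m - I = (v ^ m - (u ^ p ^ (r * n)) ^ m) + (x ^ p ^ (r * n) - I) := by
      rw [← pow_mul, mul_comm, pow_mul]; abel
    rw [h3]
    refine (dv_pow_sub (hv n) m).add ((dv_pow_pn hI hx1 hx2 hxr (r * n)).mono ?_)
    have : n ≤ r * n := Nat.le_mul_of_pos_left n hr
    omega
  · have h3 := rd_eq_zero_iff.mpr (hv 1)
    rw [map_sub, sub_eq_zero] at h3
    rw [h3, hN, pow_add, pow_one, pow_mul, map_mul, map_pow, hxr]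
    by_cases h0 : N 1 = 0
    · rw [h0, pow_zero, mul_one]
    · rw [← map_pow, idem_pow hI h0, ← map_mul, h2]
  · rw [← sub_eq_zero]
    apply Dv.eq_zero
    intro n
    have h3 : I * v - v = I * (v - u ^ p ^ (r * n)) - (v - u ^ p ^ (r * n)) := by
      rw [mul_sub, I_pow h1 (hpn n)]; abel
    rw [h3]
    exact ((hv n).mul_left _).sub (hv n)
  · rw [← sub_eq_zero]
    apply Dv.eq_zero
    intro n
    have h3 : v * I - v = (v - u ^ p ^ (r * n)) * I - (v - u ^ p ^ (r * n)) := by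
      rw [sub_mul, pow_I h2 (hpn n)]; abel
    rw [h3]
    exact ((hv n).mul_right _).sub (hv n)

/-- an `m`-th root of unity congruent to one is one -/
theorem teich_unique {I z : MonoidAlgebra O G} (hI : I * I = I) (h1 : I * z = z) (h2 : z * I = z)
    {m : ℕ} (hm : ¬ p ∣ m) (hz : rd z = rd I) (hzm : z ^ m = I) : z = I := by
  have hm0 : m ≠ 0 := by rintro rfl; exact hm (dvd_zero p)
  have hmk : ((m : ℕ) : ResidueField O) ≠ 0 := by
    rw [Ne, CharP.cast_eq_zero_iff (ResidueField O) p]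
    exact hm
  have hc : Commute z I := by
    change z * I = I * z
    rw [h1, h2]
  have h3 := hc.mul_geom_sum₂ m
  rw [idem_pow hI hm0, hzm, sub_self] at h3
  set S := ∑ i ∈ Finset.range m, z ^ i * I ^ (m - 1 - i) with hS
  have h6 : ∀ i ∈ Finset.range m, rd (z ^ i * I ^ (m - 1 - i)) = rd I ^ (m - 1) := by
    intro i hi
    rw [map_mul, map_pow, map_pow, hz, ← pow_add]
    congr 1
    have := Finset.mem_range.mp hi
    omega
  have hrI : rd I * rd I = rd I := by rw [← map_mul, hI]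
  have hSr : rd S * rd I = ((m : ℕ) : ResidueField O) • rd I := by
    rw [hS, map_sum, Finset.sum_congr rfl h6, Finset.sum_const, Finset.card_range,
      smul_mul_assoc, Nat.cast_smul_eq_nsmul]
    congr 1
    by_cases h0 : m - 1 = 0
    · rw [h0, pow_zero, one_mul]
    · rw [idem_pow hrI h0, hrI]
  have h7 : (z - I) * I = z - I := by rw [sub_mul, h2, hI]
  have h8 : ∀ n, Dv n (z - I) := by
    intro n
    induction n with
    | zero => exact Dv.all _
    | succ n ih =>
      -- `m (z - I) = (z - I) (m I - S I)`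
      have h9 : Dv 1 (((m : ℕ) : O) • I - S * I) := by
        rw [← rd_eq_zero_iff, map_sub, map_mul, hSr, rd_smul, map_natCast, sub_self]
      have h10 := ih.mul h9
      have h11 : (z - I) * (((m : ℕ) : O) • I - S * I) = ((m : ℕ) : O) • (z - I) := by
        rw [mul_sub, ← mul_assoc, h3, zero_mul, sub_zero, mul_smul_comm, h7]
      rw [h11] at h10
      obtain ⟨w, hw⟩ := unit_of_residue (r := ((m : ℕ) : O)) (by rwa [map_natCast])
      have h12 := h10.smul (m := 0) (r := ((w⁻¹ : Oˣ) : O)) (by simp)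
      rwa [zero_add, smul_smul, ← hw, Units.inv_mul, one_smul] at h12
  exact sub_eq_zero.mp (Dv.eq_zero h8)

end Teich

end Vale.Agent.P180.R2.H667
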