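import Vale.Agent.P180.Int.FR
import Vale.Agent.P180.R2.H667.Wd5

set_option linter.all false

/-!
P180: the homomorphism `φ` lifts to `O`.
-/

namespace Vale.Agent.P180.R2.H667

open IsLocalRing
open Vale.Agent.P180 Vale.Agent.P180.I
open Vale.Agent.P180 (cst)
open Vale.Agent.P180.KP (vl vl_mul vl_one i_vl vl_i vl_vl_inv vl_inv_vl vl_ext exists_vl)

universe u

section UO

variable {O : Type*} [CommRing O] {G : Type*} [Group G] [Finite G]
variable {X : Subgroup G} [X.Normal] {I : MonoidAlgebra O G}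

/-- homogeneous units centralising `O[X]`, of degree in `Y` -/
def UO (hI : IsIdempotentElem I) (hIX : Sp (X : Set G) I) (hIc : ∀ g, cg O g I = I)
    (Y : Subgroup G) : Subgroup (HO X hI hIX) where
  carrier := {u | dg u ∈ Y.map (QuotientGroup.mk' X) ∧ ∀ x ∈ X, cg O x (ho u) = ho u}
  one_mem' := ⟨by rw [map_one]; exact Subgroup.one_mem _, fun x _ => hIc x⟩
  mul_mem' := by
    rintro u v ⟨h1, h2⟩ ⟨h3, h4⟩
    exact ⟨by rw [map_mul]; exact Subgroup.mul_mem _ h1 h3, fun x hx => by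
      rw [ho_mul, map_mul, h2 x hx, h4 x hx]⟩
  inv_mem' := by
    rintro u ⟨h1, h2⟩
    refine ⟨by rw [map_inv]; exact Subgroup.inv_mem _ h1, fun x hx => ?_⟩
    calc cg O x (ho u⁻¹) = cg O x (ho u⁻¹ * I) := by rw [ho_i]
      _ = cg O x (ho u⁻¹) * I := by rw [map_mul, hIc]
      _ = cg O x (ho u⁻¹) * (ho u * ho u⁻¹) := by rw [ho_ho_inv]
      _ = cg O x (ho u⁻¹ * ho u) * ho u⁻¹ := by rw [map_mul, h2 x hx, mul_assoc]
      _ = ho u⁻¹ := by rw [ho_inv_ho, hIc, i_ho]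

variable {hI : IsIdempotentElem I} {hIX : Sp (X : Set G) I}

theorem UO_comm {z u : HO X hI hIX} (hz : dg z = 1) (hu : ∀ x ∈ X, cg O x (ho u) = ho u) :
    z * u = u * z := by
  apply ho_ext
  · rw [ho_mul, ho_mul]
    refine comm_of (S := X) ?_ hu
    have := sp_ho z
    rw [hz] at this
    exact sp_one_iff.mp this
  · rw [map_mul, map_mul, hz, one_mul, mul_one]

theorem UO_pow_mul {hIc : ∀ g, cg O g I = I} {Y : Subgroup G} {u v : HO X hI hIX}
    (hu : u ∈ UO hI hIX hIc Y) (hv' : v ∈ UO hI hIX hIc Y) :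
    (u * v) ^ X.relIndex Y = u ^ X.relIndex Y * v ^ X.relIndex Y := by
  let f : UO hI hIX hIc Y →* G ⧸ X := dg.comp (UO hI hIX hIc Y).subtype
  have hidx : f.ker.index ∣ X.relIndex Y := by
    rw [Subgroup.index_ker, relIndex_eq_card_map]
    apply Subgroup.card_dvd_of_le
    rintro _ ⟨w, rfl⟩
    exact w.2.1
  have hne : f.ker.index ≠ 0 := by
    intro h0
    rw [h0, zero_dvd_iff] at hidx
    exact Subgroup.index_ne_zero_of_finite (H := X.subgroupOf Y) hidx
  have h := central_pow f.ker (fun z hz w => Subtype.ext (UO_comm hz w.2.2)) hne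
    ⟨u, hu⟩ ⟨v, hv'⟩
  have h' : (u * v) ^ f.ker.index = u ^ f.ker.index * v ^ f.ker.index := congrArg Subtype.val h
  obtain ⟨c, hc⟩ := hidx
  have hc1 : Commute (u ^ f.ker.index) (v ^ f.ker.index) := by
    apply UO_comm
    · have h1 : (⟨u, hu⟩ : UO hI hIX hIc Y) ^ f.ker.index ∈ f.ker := Subgroup.pow_index_mem _ _
      exact h1
    · exact ((UO hI hIX hIc Y).pow_mem hv' _).2
  rw [hc, pow_mul, h', hc1.mul_pow, ← pow_mul, ← pow_mul]

theorem exists_gO (hI : IsIdempotentElem I) (hIX : Sp (X : Set G) I) (hIc : ∀ g, cg O g I = I)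
    (g : G) :
    ∃ u : HO X hI hIX, ho u = MonoidAlgebra.single g 1 * I ∧
      ho u⁻¹ = MonoidAlgebra.single g⁻¹ 1 * I ∧ dg u = (g : G ⧸ X) := by
  have hs : ∀ g : G, Sp (cst X (g : G ⧸ X)) (MonoidAlgebra.single g (1 : O) * I) := by
    intro g
    have h1 : Sp (cst X (g : G ⧸ X)) (MonoidAlgebra.single g (1 : O)) :=
      Sp.single (show g ∈ cst X (g : G ⧸ X) from rfl) 1
    have h2 := sp_mul_cst h1 (sp_one_iff.mpr hIX)
    rwa [mul_one] at h2
  have hee : I * I = I := hI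
  have hc : ∀ g : G, MonoidAlgebra.single g (1 : O) * I = I * MonoidAlgebra.single g 1 :=
    fun g => cg_eq_self_iff.mp (hIc g)
  have h1 : ∀ g : G, I * (MonoidAlgebra.single g (1 : O) * I) = MonoidAlgebra.single g 1 * I := by
    intro g
    rw [← mul_assoc, ← hc, mul_assoc, hee]
  have h2 : ∀ g : G, (MonoidAlgebra.single g (1 : O) * I) * I = MonoidAlgebra.single g 1 * I := by
    intro g
    rw [mul_assoc, hee]
  have h3 : ∀ g h : G, (MonoidAlgebra.single g (1 : O) * I) * (MonoidAlgebra.single h (1 : O) * I) =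
      MonoidAlgebra.single (g * h) 1 * I := by
    intro g h
    rw [mul_assoc, ← mul_assoc I, ← hc, mul_assoc (MonoidAlgebra.single h (1 : O)), hee,
      ← mul_assoc, MonoidAlgebra.single_mul_single, one_mul]
  refine exists_ho (h1 g) (h2 g) (h1 g⁻¹) (h2 g⁻¹) ?_ ?_ (hs g) ?_
  · rw [h3, mul_inv_cancel, ← MonoidAlgebra.one_def, one_mul]
  · rw [h3, inv_mul_cancel, ← MonoidAlgebra.one_def, one_mul]
  · have := hs g⁻¹
    rwa [QuotientGroup.mk_inv] at this

noncomputable def gO (hI : IsIdempotentElem I) (hIX : Sp (X : Set G) I)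
    (hIc : ∀ g, cg O g I = I) : G →* HO X hI hIX where
  toFun g := (exists_gO hI hIX hIc g).choose
  map_one' := by
    have h := (exists_gO hI hIX hIc 1).choose_spec
    apply ho_ext
    · rw [h.1, ho_one, ← MonoidAlgebra.one_def, one_mul]
    · rw [h.2.2, map_one]; rfl
  map_mul' x y := by
    have h := (exists_gO hI hIX hIc (x * y)).choose_spec
    have hx := (exists_gO hI hIX hIc x).choose_spec
    have hy := (exists_gO hI hIX hIc y).choose_spec
    have hee : I * I = I := hI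
    apply ho_ext
    · rw [h.1, ho_mul, hx.1, hy.1, mul_assoc, ← mul_assoc I, ← cg_eq_self_iff.mp (hIc y),
        mul_assoc _ I I, hee, ← mul_assoc, MonoidAlgebra.single_mul_single, one_mul]
    · rw [h.2.2, map_mul, hx.2.2, hy.2.2]; rfl

theorem ho_gO (hIc : ∀ g, cg O g I = I) (g : G) :
    ho (gO hI hIX hIc g) = MonoidAlgebra.single g 1 * I := (exists_gO hI hIX hIc g).choose_spec.1

theorem ho_gO_inv (hIc : ∀ g, cg O g I = I) (g : G) :
    ho (gO hI hIX hIc g)⁻¹ = MonoidAlgebra.single g⁻¹ 1 * I :=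
  (exists_gO hI hIX hIc g).choose_spec.2.1

theorem dg_gO (hIc : ∀ g, cg O g I = I) (g : G) :
    dg (gO hI hIX hIc g) = (g : G ⧸ X) := (exists_gO hI hIX hIc g).choose_spec.2.2

theorem ho_conj_gO (hIc : ∀ g, cg O g I = I) (g : G) (w : HO X hI hIX) :
    ho (gO hI hIX hIc g * w * (gO hI hIX hIc g)⁻¹) = cg O g (ho w) := by
  rw [ho_mul, ho_mul, ho_gO, ho_gO_inv, cg_eq, mul_assoc (MonoidAlgebra.single g 1) I, i_ho,
    cg_eq_self_iff.mp (hIc g⁻¹), ← mul_assoc, mul_assoc _ _ I, ho_i]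

theorem conj_mem_UO {hIc : ∀ g, cg O g I = I} {Y : Subgroup G} [Y.Normal] (g : G)
    {w : HO X hI hIX} (hw : w ∈ UO hI hIX hIc Y) :
    gO hI hIX hIc g * w * (gO hI hIX hIc g)⁻¹ ∈ UO hI hIX hIc Y := by
  refine ⟨?_, ?_⟩
  · rw [map_mul, map_mul, map_inv, dg_gO]
    have hn : (Y.map (QuotientGroup.mk' X)).Normal :=
      Subgroup.Normal.map inferInstance _ (QuotientGroup.mk'_surjective X)
    exact hn.conj_mem _ hw.1 _
  · intro x hx
    rw [ho_conj_gO]
    have h1 : g⁻¹ * x * g ∈ X := by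
      have hn : X.Normal := inferInstance
      have := hn.conj_mem x hx g⁻¹
      rwa [inv_inv] at this
    have h2 : ∀ (a b : G) (z : MonoidAlgebra O G), cg O a (cg O b z) = cg O (a * b) z := by
      intro a b z
      refine Sp.induction (P := fun z => cg O a (cg O b z) = cg O (a * b) z) (S := Set.univ)
        (fun _ _ => trivial) (by simp) ?_ ?_
      · intro c d hc hd
        rw [map_add, map_add, map_add, hc, hd]
      · intro y _ c
        rw [map_smul, map_smul, map_smul, cg_single, cg_single, cg_single]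
        congr 2
        group
    have h3 : x * g = g * (g⁻¹ * x * g) := by group
    rw [h2, h3, ← h2, hw.2 _ h1]

theorem ho_pow' (u : HO X hI hIX) {n : ℕ} (hn : n ≠ 0) : ho (u ^ n) = ho u ^ n := by
  obtain ⟨n, rfl⟩ := Nat.exists_eq_succ_of_ne_zero hn
  induction n with
  | zero => rw [pow_one, pow_one]
  | succ n ih => rw [pow_succ, ho_mul, ih (Nat.succ_ne_zero n), ← pow_succ]

theorem dg_eq_of {a b : G ⧸ X} {R : Type*} [CommRing R] {v : MonoidAlgebra R G} (hv : v ≠ 0)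
    (ha : Sp (cst X a) v) (hb : Sp (cst X b) v) : a = b := by
  by_contra hne
  apply hv
  apply MonoidAlgebra.coeff_injective
  ext x
  by_contra hx
  exact hne ((ha x hx).symm.trans (hb x hx))

theorem Sp_pow {R : Type*} [CommRing R] {a : G ⧸ X} {v : MonoidAlgebra R G}
    (h : Sp (cst X a) v) {n : ℕ} (hn : n ≠ 0) : Sp (cst X (a ^ n)) (v ^ n) := by
  obtain ⟨n, rfl⟩ := Nat.exists_eq_succ_of_ne_zero hn
  induction n with
  | zero => rw [pow_one, pow_one]; exact h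
  | succ n ih =>
    rw [pow_succ a, pow_succ v]
    exact sp_mul_cst (ih (Nat.succ_ne_zero n)) h

theorem cst_pow_relIndex {Y : Subgroup G} {y : G} (hy : y ∈ Y) :
    (y : G ⧸ X) ^ X.relIndex Y = 1 := by
  rw [relIndex_eq_card_map]
  have h : (⟨(y : G ⧸ X), ⟨y, hy, rfl⟩⟩ : Y.map (QuotientGroup.mk' X)) ^
      Nat.card (Y.map (QuotientGroup.mk' X)) = 1 := pow_card_eq_one'
  exact congrArg Subtype.val h

end UO

section Lift

variable {O : Type u} [CommRing O] [IsDomain O] [IsDiscreteValuationRing O]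
variable [IsAdicComplete (maximalIdeal O) O]
variable {p : ℕ} [Fact p.Prime] [CharP (ResidueField O) p]
variable {G Γ : Type} [Group G] [Group Γ] [Finite G] [Finite Γ]
variable {X Y : Subgroup G} [X.Normal] {I : MonoidAlgebra O G} {hI : IsIdempotentElem I}
variable {hIX : Sp (X : Set G) I}
variable {hi : IsIdempotentElem (rd I)}
variable {φ : Γ →* hi.Cornerˣ} {q : Γ →* G} {j : G →* Γ}

theorem sp_of_dv {S : Set G} {v : MonoidAlgebra O G} (f : ℕ → MonoidAlgebra O G)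
    (hf : ∀ n, Sp S (f n)) (h : ∀ n, Dv n (v - f n)) : Sp S v := by
  intro x hx
  by_contra hxS
  apply hx
  apply IsHausdorff.haus (I := maximalIdeal O) inferInstance
  intro n
  rw [SModEq.zero, smul_eq_mul, Ideal.mul_top]
  have h1 : (f n).coeff x = 0 := by
    by_contra h2
    exact hxS (hf n x h2)
  have h2 := h n x
  rwa [MonoidAlgebra.coeff_sub, Finsupp.sub_apply, h1, sub_zero] at h2

theorem fix_of_dv {x : G} {v : MonoidAlgebra O G} (f : ℕ → MonoidAlgebra O G)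
    (hf : ∀ n, cg O x (f n) = f n) (h : ∀ n, Dv n (v - f n)) : cg O x v = v := by
  rw [← sub_eq_zero]
  apply Dv.eq_zero
  intro n
  have h1 : cg O x v - v = cg O x (v - f n) - (v - f n) := by
    rw [map_sub, hf]; abel
  rw [h1]
  exact ((h n).cg x).sub (h n)

theorem vl_pow' {A : Type*} [Ring A] {i : A} {hi : IsIdempotentElem i} (u : hi.Cornerˣ) {n : ℕ}
    (hn : n ≠ 0) : vl hi (u ^ n) = vl hi u ^ n := by
  obtain ⟨n, rfl⟩ := Nat.exists_eq_succ_of_ne_zero hn
  induction n with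
  | zero => rw [pow_one, pow_one]
  | succ n ih => rw [pow_succ, vl_mul, ih (Nat.succ_ne_zero n), ← pow_succ]

theorem WD.exists_uo (hIc : ∀ g, cg O g I = I) (h : WD X Y hi φ q j (X.relIndex Y))
    (hp : ¬ p ∣ X.relIndex Y) {w : Γ} (hw : q w = 1) :
    ∃ u ∈ UO hI hIX hIc Y, u ^ X.relIndex Y = 1 ∧ rd (ho u) = vl hi (φ w) := by
  obtain ⟨y, hy, hs⟩ := h.supp w hw
  have hm0 : X.relIndex Y ≠ 0 := by intro h0; rw [h0] at hp; exact hp (dvd_zero p)
  obtain ⟨a₀, ha1, ha2, ha3⟩ := exists_rd_inv (O := O) (vl hi (φ w))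
  have hIc' : ∀ x : MonoidAlgebra O G, x * I = I * x := fun x =>
    comm_of (S := Set.univ) (fun _ _ => trivial) fun g _ => hIc g
  have hII : I * I = I := hI
  have ha : rd (I * a₀) = vl hi (φ w) := by rw [map_mul, ha1, i_vl]
  have hpow : rd (I * a₀) ^ X.relIndex Y = rd I := by
    rw [ha, ← vl_pow' _ hm0, ← map_pow, h.pow w hw, map_one, vl_one]
  obtain ⟨v, N, hv1, hv2, hv3, hv4, hv5⟩ := teich (p := p) (u := I * a₀) hII
    (by rw [← mul_assoc, hII]) (by rw [mul_assoc, hIc', ← mul_assoc, hII]) hp hpow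
  have hsI : Sp (cst X (y : G ⧸ X)) (I * a₀) := by
    have := sp_mul_cst (sp_one_iff.mpr hIX) (ha2 _ hs)
    rwa [one_mul] at this
  have hsv : Sp (cst X (y : G ⧸ X)) v := by
    refine sp_of_dv _ (fun n => ?_) hv1
    have h3 := Sp_pow hsI (n := 1 + X.relIndex Y * N n) (by omega)
    rwa [pow_add, pow_one, pow_mul, cst_pow_relIndex hy, one_pow, mul_one] at h3
  have hfv : ∀ x ∈ X, cg O x v = v := by
    intro x hx
    refine fix_of_dv _ (fun n => ?_) hv1
    rw [map_pow, map_mul, hIc, ha3 x]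
    rw [cg_eq_cj]
    exact h.fix w hw x hx
  have h1 : v * (v ^ (X.relIndex Y - 1) * I) = I := by
    rw [← mul_assoc, ← pow_succ', Nat.sub_add_cancel (Nat.one_le_iff_ne_zero.mpr hm0), hv2, hII]
  have h2 : (v ^ (X.relIndex Y - 1) * I) * v = I := by
    rw [mul_assoc, hv4, ← pow_succ, Nat.sub_add_cancel (Nat.one_le_iff_ne_zero.mpr hm0), hv2]
  have hsv' : Sp (cst X (y : G ⧸ X)⁻¹) (v ^ (X.relIndex Y - 1) * I) := by
    have h4 : (y : G ⧸ X)⁻¹ = (y : G ⧸ X) ^ (X.relIndex Y - 1) := by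
      rw [inv_eq_iff_mul_eq_one, ← pow_succ',
        Nat.sub_add_cancel (Nat.one_le_iff_ne_zero.mpr hm0), cst_pow_relIndex hy]
    rw [h4]
    by_cases h0 : X.relIndex Y - 1 = 0
    · rw [h0, pow_zero, pow_zero, one_mul]; exact sp_one_iff.mpr hIX
    · have := sp_mul_cst (Sp_pow hsv h0) (sp_one_iff.mpr hIX)
      rwa [mul_one] at this
  obtain ⟨u, hu1, -, hu3⟩ := exists_ho (hi := hI) (hN := hIX) hv4 hv5 (c' := v ^ (X.relIndex Y - 1) * I)
    (by rw [← hIc', mul_assoc, hII]) (by rw [mul_assoc, hII]) h1 h2 hsv hsv'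
  refine ⟨u, ⟨by rw [hu3]; exact ⟨y, hy, rfl⟩, fun x hx => by rw [hu1]; exact hfv x hx⟩, ?_, ?_⟩
  · apply ho_ext
    · rw [ho_pow' u hm0, hu1, hv2, ho_one]
    · rw [map_pow, hu3, cst_pow_relIndex hy, map_one]
  · rw [hu1, hv3, ha]

theorem uo_unique {hIc : ∀ g, cg O g I = I} (hI0 : rd I ≠ 0) (hp : ¬ p ∣ X.relIndex Y)
    {u u' : HO X hI hIX} (hu : u ∈ UO hI hIX hIc Y) (hu' : u' ∈ UO hI hIX hIc Y)
    (h1 : u ^ X.relIndex Y = 1) (h2 : u' ^ X.relIndex Y = 1) (h : rd (ho u) = rd (ho u')) :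
    u = u' := by
  have hm0 : X.relIndex Y ≠ 0 := by intro h0; rw [h0] at hp; exact hp (dvd_zero p)
  have h0 : rd (ho u) ≠ 0 := by
    intro h3
    have h4 : rd (ho u) * rd (ho u⁻¹) = rd I := by rw [← map_mul, ho_ho_inv]
    rw [h3, zero_mul] at h4
    exact hI0 h4.symm
  have hdg : dg u = dg u' := by
    refine dg_eq_of h0 (sp_ho u).rd ?_
    rw [h]
    exact (sp_ho u').rd
  have hz1 : (u'⁻¹ * u) ^ X.relIndex Y = 1 := by
    rw [UO_pow_mul ((UO hI hIX hIc Y).inv_mem hu') hu, inv_pow, h1, h2, inv_one, mul_one]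
  have hz2 : rd (ho (u'⁻¹ * u)) = rd I := by
    rw [ho_mul, map_mul, h, ← map_mul, ho_inv_ho]
  have hz3 : ho (u'⁻¹ * u) = I := by
    refine teich_unique (p := p) hI (i_ho _) (ho_i _) hp hz2 ?_
    rw [← ho_pow' _ hm0, hz1, ho_one]
  have hz4 : u'⁻¹ * u = 1 := ho_ext (by rw [hz3, ho_one])
    (by rw [map_mul, map_inv, hdg, inv_mul_cancel, map_one])
  exact (inv_mul_eq_one.mp hz4).symm

theorem WD.exists_lift [Y.Normal] (hIX : Sp (X : Set G) I) (hIc : ∀ g, cg O g I = I)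
    (h : WD X Y hi φ q j (X.relIndex Y)) (hp : ¬ p ∣ X.relIndex Y) :
    ∃ Φ : Γ →* hI.Cornerˣ, ∀ x, rd (vl hI (Φ x)) = vl hi (φ x) := by
  have hm0 : X.relIndex Y ≠ 0 := by intro h0; rw [h0] at hp; exact hp (dvd_zero p)
  have hrg : ∀ g, rd (ho (gO hI hIX hIc g)) = vl hi (φ (j g)) := by
    intro g
    rw [ho_gO, map_mul, rd_single, map_one, h.φj]
  have hrgi : ∀ g, rd (ho (gO hI hIX hIc g)⁻¹) = vl hi (φ (j g))⁻¹ := by
    intro g
    rw [ho_gO_inv, map_mul, rd_single, map_one, ← h.φj, map_inv, map_inv]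
  let P : Γ → HO X hI hIX → Prop := fun x u =>
    u * (gO hI hIX hIc (q x))⁻¹ ∈ UO hI hIX hIc Y ∧
      (u * (gO hI hIX hIc (q x))⁻¹) ^ X.relIndex Y = 1 ∧ rd (ho u) = vl hi (φ x)
  have hex : ∀ x, ∃ u, P x u := by
    intro x
    obtain ⟨u, hu1, hu2, hu3⟩ := h.exists_uo (hIX := hIX) (hI := hI) hIc hp (h.dec x)
    refine ⟨u * gO hI hIX hIc (q x), ?_, ?_, ?_⟩
    · rw [mul_inv_cancel_right]; exact hu1
    · rw [mul_inv_cancel_right]; exact hu2
    · rw [ho_mul, map_mul, hu3, hrg, ← vl_mul, ← map_mul, inv_mul_cancel_right]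
  have huq : ∀ x u u', P x u → P x u' → u = u' := by
    rintro x u u' ⟨h1, h2, h3⟩ ⟨h4, h5, h6⟩
    have h7 := uo_unique h.ne hp h1 h4 h2 h5 (by
      rw [ho_mul, ho_mul, map_mul, map_mul, h3, h6])
    exact mul_right_cancel h7
  have hP1 : P 1 1 := by
    refine ⟨?_, ?_, ?_⟩
    · rw [map_one, map_one, inv_one, mul_one]; exact Subgroup.one_mem _
    · rw [map_one, map_one, inv_one, mul_one, one_pow]
    · rw [ho_one, map_one, vl_one]
  have hPm : ∀ x y u v, P x u → P y v → P (x * y) (u * v) := by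
    rintro x y u v ⟨h1, h2, h3⟩ ⟨h4, h5, h6⟩
    have h7 : u * v * (gO hI hIX hIc (q (x * y)))⁻¹ = (u * (gO hI hIX hIc (q x))⁻¹) *
        (gO hI hIX hIc (q x) * (v * (gO hI hIX hIc (q y))⁻¹) * (gO hI hIX hIc (q x))⁻¹) := by
      rw [map_mul, map_mul]; group
    have h8 := conj_mem_UO (q x) h4
    refine ⟨?_, ?_, ?_⟩
    · rw [h7]; exact Subgroup.mul_mem _ h1 h8
    · rw [h7, UO_pow_mul h1 h8, h2, conj_pow, h5, mul_one, mul_inv_cancel, mul_one]
    · rw [ho_mul, map_mul, h3, h6, ← vl_mul, ← map_mul]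
  choose Ψ hΨ using hex
  refine ⟨{ toFun := fun x => (Ψ x).1.1, map_one' := ?_, map_mul' := ?_ }, fun x => (hΨ x).2.2⟩
  · rw [huq 1 _ _ (hΨ 1) hP1]; rfl
  · intro x y
    rw [huq _ _ _ (hΨ (x * y)) (hPm x y _ _ (hΨ x) (hΨ y))]
    rfl

end Lift

end Vale.Agent.P180.R2.H667
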