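import Vale.Agent.P180.R2.H47.Red
import Vale.Agent.P180.R2.H667.Wd6
import Vale.Agent.P180.R2.H667.Tw3
import Vale.Agent.P180.R2.H667.TwKx
import Vale.Agent.P180.R2.H667.TwOx

set_option linter.all false

/-!
P180: properties of blocks which pass backwards through the steps.
-/

namespace Vale.Agent.P180.R2.H667

open Vale.Agent.P180 Vale.Agent.P180.KP Vale.Agent.P180.H768.Gd Vale.Agent.P180.R2.H365

universe u

/-- a property of blocks which passes backwards through the steps -/
structure Cl (k : Type u) [Field k] (p : ℕ)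
    (P : ∀ (G : Type) [Group G], MonoidAlgebra k G → Prop) : Prop where
  fr : ∀ {G : Type} [Group G] [Finite G] {N : Subgroup G} [N.Normal] {e b : MonoidAlgebra k G},
    IsBlockOf N e → IsBlock b → b * e ≠ 0 → ∀ {b' : MonoidAlgebra k (stabE e)}, IsBlock b' →
    Vale.Agent.P180.incl k (stabE e) b' = b * e → P (stabE e) b' → P G b
  wd : ∀ {G Γ : Type} [Group G] [Group Γ] [Finite G] [Finite Γ] {X Y : Subgroup G} [X.Normal]
    [Y.Normal] {e : MonoidAlgebra k G} {hi : IsIdempotentElem e} {φ : Γ →* hi.Cornerˣ}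
    {q : Γ →* G} {j : G →* Γ}, WD X Y hi φ q j (X.relIndex Y) → ¬ p ∣ X.relIndex Y →
    ∀ {b : MonoidAlgebra k G}, IsBlock b → b * e = b → ∀ {β : hi.Corner}, β.1 = b →
    P Γ (sW φ q j β) → P G b
  tw : ∀ {T : Type} [Group T] [Finite T] {N : Subgroup T} [N.Normal], ¬ p ∣ Nat.card N →
    ∀ {c b : MonoidAlgebra k T}, IsBlockOf N c → (∀ g, cj k T g c = c) → IsBlock b →
    b * c = b → ∃ (H : Type) (_ : Group H) (_ : Finite H) (i : MonoidAlgebra k T)
      (hi : IsIdempotentElem i) (φ : H →* hi.Cornerˣ) (ε : MonoidAlgebra k H)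
      (s : hi.Corner →ₗ[k] MonoidAlgebra k H) (π : H →* T ⧸ N), TwD p N c hi φ ε s π ∧
      ∀ β : hi.Corner, β.1 = i * b → (P H (s β) → P T b)

section Block

variable {k : Type u} [Field k] {p : ℕ} [Fact p.Prime] [CharP k p]

theorem WD.isPCI {G Γ : Type} [Group G] [Group Γ] [Finite G] [Finite Γ] {X Y : Subgroup G}
    [X.Normal] {e : MonoidAlgebra k G} {hi : IsIdempotentElem e} {φ : Γ →* hi.Cornerˣ}
    {q : Γ →* G} {j : G →* Γ} {m : ℕ} (h : WD X Y hi φ q j m)
    {b : MonoidAlgebra k G} (hb : IsBlock b) (hbe : b * e = b) {β : hi.Corner} (hβ : β.1 = b) :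
    IsPCI k β := by
  have hbB := isBlock_iff.mp hb
  have hbc : ∀ x, x * b = b * x := fun x => commute_of_mem (SubAlg_top x) hbB.mem.2
  have hee : e * e = e := hi
  refine isPCI_corner hi hee h.cen hee ⟨1, fun _ => 1, fun _ => 1, ?_⟩ hbc hb.idem hbe hb.ne_zero
    ?_ β (by rw [hβ, hbc, hbe])
  · rw [Fin.sum_univ_one, one_mul, mul_one]
  · intro c hc hcc hcb
    exact hb.primitive c (Subalgebra.mem_center_iff.mpr hc) hcc hcb

theorem WD.isBlock {G Γ : Type} [Group G] [Group Γ] [Finite G] [Finite Γ] {X Y : Subgroup G}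
    [X.Normal] {e : MonoidAlgebra k G} {hi : IsIdempotentElem e} {φ : Γ →* hi.Cornerˣ}
    {q : Γ →* G} {j : G →* Γ} {m : ℕ} (h : WD X Y hi φ q j m) (hm : ¬ p ∣ m)
    {b : MonoidAlgebra k G} (hb : IsBlock b) (hbe : b * e = b) {β : hi.Corner} (hβ : β.1 = b) :
    IsBlock (sW φ q j β) :=
  isBlock_s h.kb_center h.s_lift (h.lift_s (p := p) hm) (h.isPCI hb hbe hβ)

theorem TwD.isPCI {T H : Type} [Group T] [Group H] [Finite T] [Finite H] {N : Subgroup T}
    [N.Normal] {c : MonoidAlgebra k T} {i : MonoidAlgebra k T} {hi : IsIdempotentElem i}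
    {φ : H →* hi.Cornerˣ} {ε : MonoidAlgebra k H} {s : hi.Corner →ₗ[k] MonoidAlgebra k H}
    {π : H →* T ⧸ N} (h : TwD p N c hi φ ε s π) (hcT : ∀ g, cj k T g c = c)
    {b : MonoidAlgebra k T} (hb : IsBlock b) (hbc : b * c = b) {β : hi.Corner}
    (hβ : β.1 = i * b) (hcc : c * c = c) : IsPCI k β := by
  have hbB := isBlock_iff.mp hb
  have hbc' : ∀ x, x * b = b * x := fun x => commute_of_mem (SubAlg_top x) hbB.mem.2
  obtain ⟨n, u, v, -, -, huv⟩ := h.full
  refine isPCI_corner hi h.ie (fun x => commute_of_mem (SubAlg_top x)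
    (show c ∈ Fix (cj k T) ⊤ from fun g _ => hcT g)) hcc ⟨n, u, v, huv⟩ hbc' hb.idem hbc hb.ne_zero
    ?_ β hβ
  intro c' hc' hcc' hcb
  exact hb.primitive c' (Subalgebra.mem_center_iff.mpr hc') hcc' hcb

theorem TwD.isBlock {T H : Type} [Group T] [Group H] [Finite T] [Finite H] {N : Subgroup T}
    [N.Normal] {c : MonoidAlgebra k T} {i : MonoidAlgebra k T} {hi : IsIdempotentElem i}
    {φ : H →* hi.Cornerˣ} {ε : MonoidAlgebra k H} {s : hi.Corner →ₗ[k] MonoidAlgebra k H}
    {π : H →* T ⧸ N} (h : TwD p N c hi φ ε s π) (hcT : ∀ g, cj k T g c = c)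
    {b : MonoidAlgebra k T} (hb : IsBlock b) (hbc : b * c = b) {β : hi.Corner}
    (hβ : β.1 = i * b) (hcc : c * c = c) : IsBlock (s β) :=
  isBlock_s h.cen h.sl h.ls (h.isPCI hcT hb hbc hβ hcc)

end Block

section Conv

variable {k : Type u} [Field k] {p : ℕ} [Fact p.Prime] [CharP k p]

theorem CB_bot {T : Type} [Group T] [Finite T] {N : Subgroup T} [N.Normal]
    (hN : ¬ p ∣ Nat.card N) {c : MonoidAlgebra k T} (hc : IsBlockOf N c)
    {C : Type} [CommGroup C] {κ : C →* T} (hκ : Function.Injective κ) (hκr : κ.range = ⊥) :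
    CB N κ c := by
  have hmem : ∀ y, κ y = 1 := fun y => by
    have : κ y ∈ κ.range := ⟨y, rfl⟩
    rw [hκr] at this
    exact Subgroup.mem_bot.mp this
  refine ⟨hκ, fun y => by rw [hmem]; exact N.one_mem, fun y n _ => by
    rw [hmem, one_mul, mul_one], hc, ?_⟩
  refine ⟨((Nat.card N : ℕ) : k)⁻¹ • c, Subalgebra.smul_mem _ hc.mem.1 _, ?_⟩
  rw [hκr, tr_smul, tr_of_mem_Fix hc.mem.2, Subgroup.relIndex_bot_left, smul_smul,
    inv_mul_cancel₀, one_smul]
  rw [Ne, CharP.cast_eq_zero_iff k p]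
  exact hN

theorem TwD.of {T H : Type} [Group T] [Group H] [Finite T] [Finite H] {N : Subgroup T}
    [N.Normal] {c : MonoidAlgebra k T} {i : MonoidAlgebra k T} {hi : IsIdempotentElem i}
    {φ : H →* hi.Cornerˣ} {ε : MonoidAlgebra k H} {s : hi.Corner →ₗ[k] MonoidAlgebra k H}
    {π : H →* T ⧸ N} {C : Type} [CommGroup C] [Finite C] {κ : C →* T}
    (hκ : Function.Injective κ) (hκr : κ.range = ⊥) (hci : CIdem N κ c i) {Z : Subgroup H}
    (hε : ε ∈ Subalgebra.center k (MonoidAlgebra k H)) (hs1 : ∀ x, s (liftU φ x) = ε * x)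
    (hs2 : ∀ y, liftU φ (s y) = y) (hπ : Function.Surjective π)
    (hφ : ∀ h, SuppIn (cst N (π h)) (vl hi (φ h))) (hZ : ∀ z ∈ Z, ∀ h, z * h = h * z)
    (hp : ¬ p ∣ Nat.card Z) (hZπ : Z ≤ π.ker) (hZi : Z.index = Nat.card C * N.index) :
    TwD p N c hi φ ε s π := by
  have hmem : ∀ y, κ y = 1 := fun y => by
    have : κ y ∈ κ.range := ⟨y, rfl⟩
    rw [hκr] at this
    exact Subgroup.mem_bot.mp this
  have hsub : ∀ y : C, y = 1 := fun y => hκ (by rw [hmem, map_one])
  have hcard : Nat.card C = 1 := by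
    rw [Nat.card_eq_one_iff_unique]
    exact ⟨⟨fun a b => by rw [hsub a, hsub b]⟩, ⟨1⟩⟩
  have hkerZ : Z = π.ker := by
    have h1 : π.ker.index = N.index := by
      rw [Subgroup.index_ker, MonoidHom.range_eq_top.mpr hπ]
      exact Nat.card_congr Subgroup.topEquiv.toEquiv
    refine Subgroup.eq_of_le_of_card_ge hZπ ?_
    have h2 := Z.card_mul_index
    have h3 := π.ker.card_mul_index
    rw [hZi, hcard, one_mul] at h2
    rw [h1, ← h2] at h3
    exact le_of_eq (Nat.eq_of_mul_eq_mul_right (Nat.pos_of_ne_zero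
      Subgroup.index_ne_zero_of_finite) h3)
  exact
    { mem := hci.mem
      ie := hci.ie
      ne := by
        intro h0
        exact one_ne_zero (hci.faithful 1 (by rw [h0, mul_zero]))
      rank := by
        intro y hy
        obtain ⟨l, hl⟩ := hci.corner y hy
        refine ⟨aug k C l, ?_⟩
        rw [hl]
        have h1 : kap k κ l = aug k C l • 1 := by
          refine ma_induction (P := fun l => kap k κ l = aug k C l • 1) l
            (by rw [map_zero, map_zero, zero_smul]) ?_ ?_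
          · intro a b ha hb
            rw [map_add, map_add, add_smul, ha, hb]
          · intro x r
            rw [aug_single, MonoidAlgebra.one_def, MonoidAlgebra.smul_single', mul_one]
            have : kap k κ (MonoidAlgebra.single x r) = MonoidAlgebra.single (κ x) r := by
              simp [kap]
            rw [this, hmem]
        rw [h1, smul_mul_assoc, one_mul]
      full := hci.full
      cen := hε
      sl := hs1
      ls := hs2
      sur := hπ
      supp := hφ
      kc := fun z hz => hZ z (by rw [hkerZ]; exact hz)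
      kp := by rw [← hkerZ]; exact hp }

end Conv

section Field

/-- the data of the twisted step -/
theorem exists_TwD {k : Type u} [Field k] [IsAlgClosed k] {p : ℕ} [Fact p.Prime] [CharP k p]
    {T : Type} [Group T] [Finite T] {N : Subgroup T} [N.Normal] (hN : ¬ p ∣ Nat.card N)
    {c : MonoidAlgebra k T} (hc : IsBlockOf N c) (hcT : ∀ g, cj k T g c = c) :
    ∃ (H : Type) (_ : Group H) (_ : Finite H) (i : MonoidAlgebra k T)
      (hi : IsIdempotentElem i) (φ : H →* hi.Cornerˣ) (ε : MonoidAlgebra k H)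
      (s : hi.Corner →ₗ[k] MonoidAlgebra k H) (π : H →* T ⧸ N), TwD p N c hi φ ε s π := by
  obtain ⟨C, _, κ, α, hκ, hκr, hα⟩ := exists_CC (Y := (⊥ : Subgroup T)) (N := N) bot_le
    (fun y hy n _ => by rw [Subgroup.mem_bot.mp hy, one_mul, mul_one])
  haveI : Finite C := Finite.of_injective _ hκ
  have hCp : IsPGroup p C := by
    have h1 : IsPGroup p κ.range := by rw [hκr]; exact IsPGroup.of_bot
    exact h1.of_equiv (κ.ofInjective hκ).symm
  obtain ⟨i, hi, hci, H, _, _, φ, ε, s, π, Z, hε, hs1, hs2, -, hπ, hφ, hZc, hpZ, hZπ, hZi⟩ :=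
    exists_twisted_x (CB_bot hN hc hκ hκr) hCp (fun g _ => hcT g) hα
  exact ⟨H, inferInstance, inferInstance, i, hi, φ, ε, s, π,
    TwD.of hκ hκr hci hε hs1 hs2 hπ hφ hZc hpZ hZπ hZi⟩

/-- The property of `b` to be Morita equivalent over `k` to a member of a family of blocks. -/
theorem cl_field (k : Type u) [Field k] [IsAlgClosed k] (p : ℕ) [Fact p.Prime] [CharP k p]
    {J : Type} (H : J → Type) [∀ j, Group (H j)] (c : ∀ j, MonoidAlgebra k (H j))
    (hc : ∀ j, IsBlock (c j)) :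
    Cl k p (fun G _ b => ∀ hb : IsBlock b, ∃ j, IsMoritaEquivalent k hb.Alg (hc j).Alg) where
  fr := by
    intro G _ _ N _ e b he hb hbe b' hb' hbb' h hb0
    exact (H47.clo_field k p H c hc).fr he hb hbe hb' hbb' h hb0
  wd := by
    intro G Γ _ _ _ _ X Y _ _ e hi φ q j' h hp b hb hbe β hβ hP hb0
    have hbB := isBlock_iff.mp hb
    have hbc : ∀ x, x * b = b * x := fun x => commute_of_mem (SubAlg_top x) hbB.mem.2
    have heb : e * b = b := by rw [hbc, hbe]
    obtain ⟨j, hj⟩ := hP (h.isBlock hp hb hbe hβ)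
    refine ⟨j, IsMoritaEquivalent.trans k ?_ hj⟩
    have hββ : β = subIdem hi heb hbe := corner_ext hβ
    subst hββ
    have h2 : IsMoritaEquivalent k hb.idem.Corner (subIdem_idem hi hb.idem heb hbe).Corner :=
      IsMoritaEquivalent.of_algEquiv k (cornerCornerEquiv hi hb.idem heb hbe).symm
    refine IsMoritaEquivalent.trans k h2 ?_
    exact IsMoritaEquivalent.of_algEquiv k (cornerEquiv h.kb_center h.s_lift
      (h.lift_s (p := p) hp) (subIdem_idem hi hb.idem heb hbe) (h.isBlock hp hb hbe hβ).idem).symm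
  tw := by
    intro T _ _ N _ hN c₀ b hc₀ hcT hb hbc
    obtain ⟨H', _, _, i, hi, φ, ε, s, π, h⟩ := exists_TwD hN hc₀ hcT
    refine ⟨H', inferInstance, inferInstance, i, hi, φ, ε, s, π, h, ?_⟩
    intro β hβ hP hb0
    have hcc : c₀ * c₀ = c₀ := hc₀.idem
    obtain ⟨j, hj⟩ := hP (h.isBlock hcT hb hbc hβ hcc)
    refine ⟨j, IsMoritaEquivalent.trans k ?_ hj⟩
    have hbB := isBlock_iff.mp hb
    have hbc' : ∀ x, x * b = b * x := fun x => commute_of_mem (SubAlg_top x) hbB.mem.2
    have hbb : b * b = b := hb.idem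
    have hib : IsIdempotentElem (i * b) := by
      change i * b * (i * b) = i * b
      rw [mul_assoc, ← mul_assoc b i b, ← hbc' i, mul_assoc i b b, hbb, ← mul_assoc, hi.eq]
    have hi1 : i * (i * b) = i * b := by rw [← mul_assoc, hi.eq]
    have hi2 : (i * b) * i = i * b := by rw [mul_assoc, ← hbc', ← mul_assoc, hi.eq]
    have hββ : β = subIdem hi hi1 hi2 := corner_ext hβ
    subst hββ
    have h1 : IsMoritaEquivalent k hb.idem.Corner hib.Corner := by
      apply isMoritaEquivalent_corner_corner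
      · rw [← mul_assoc, ← hbc', mul_assoc, hbb]
      · rw [mul_assoc, hbb]
      · obtain ⟨n, x, y, -, -, hxy⟩ := h.full
        refine ⟨n, x, y, ?_⟩
        conv_rhs => rw [← hbc, hxy, Finset.mul_sum]
        refine Finset.sum_congr rfl fun l _ => ?_
        rw [hbc' i, ← mul_assoc, hbc' (x l)]
        simp only [mul_assoc]
    refine IsMoritaEquivalent.trans k h1 ?_
    have h2 : IsMoritaEquivalent k hib.Corner (subIdem_idem hi hib hi1 hi2).Corner :=
      IsMoritaEquivalent.of_algEquiv k (cornerCornerEquiv hi hib hi1 hi2).symm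
    refine IsMoritaEquivalent.trans k h2 ?_
    exact IsMoritaEquivalent.of_algEquiv k (cornerEquiv h.cen h.sl h.ls
      (subIdem_idem hi hib hi1 hi2) (h.isBlock hcT hb hbc hβ hcc).idem).symm

end Field

section Integral

open IsLocalRing
open Vale.Agent.P180.I (EO EO_fr EO_twisted Sp cg rd exists_idem_IB)

/-- The property of `b` that its lift is Morita equivalent over `O` to a member of a family. -/
theorem cl_integral (O : Type u) [CommRing O] [IsDomain O] [IsDiscreteValuationRing O]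
    [IsAdicComplete (maximalIdeal O) O] [IsAlgClosed (ResidueField O)]
    (p : ℕ) [Fact p.Prime] [CharP (ResidueField O) p]
    {J : Type} (H : J → Type) [∀ j, Group (H j)]
    (c : ∀ j, MonoidAlgebra (ResidueField O) (H j)) :
    Cl (ResidueField O) p (fun G _ b => ∃ j, EO O b (c j)) where
  fr := by
    intro G _ _ N _ e b he hb hbe b' hb' hbb' h
    obtain ⟨j, hj⟩ := h
    exact ⟨j, (EO_fr he hb hbe hb' hbb').trans hj⟩
  wd := by
    intro G Γ _ _ _ _ X Y _ _ e hi φ q j' h hp b hb hbe β hβ hP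
    obtain ⟨j, hj⟩ := hP
    have hbB := isBlock_iff.mp hb
    have hbc : ∀ x, x * b = b * x := fun x => commute_of_mem (SubAlg_top x) hbB.mem.2
    have hee : e * e = e := hi
    have hge : ∀ g, cj (ResidueField O) G g e = e := fun g => by
      rw [cj_eq, h.cen, mul_assoc, MonoidAlgebra.single_mul_single, mul_inv_cancel, one_mul,
        ← MonoidAlgebra.one_def, mul_one]
    obtain ⟨I, hIX, hIc, hII, rfl⟩ := exists_idem_IB (O := O) (N := X) (D := Set.univ)
      (f := e) h.mem (fun d _ => by rw [I.cg_eq_cj]; exact hge d) hee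
    have hIc' : ∀ g, cg O g I = I := fun g => hIc g trivial
    obtain ⟨Φ, hΦ⟩ := h.exists_lift (hI := hII) hIX hIc' hp
    refine ⟨j, (EO_twisted h.kb_center h.s_lift (h.lift_s (p := p) hp) hΦ hbc hb.idem
      (by rw [hβ, hbc, hbe]) ?_).trans hj⟩
    refine ⟨1, fun _ => 1, fun _ => 1, ?_⟩
    rw [Fin.sum_univ_one, one_mul, mul_one, hbc, hbe]
  tw := by
    intro T _ _ N _ hN c₀ b hc₀ hcT hb hbc
    obtain ⟨C, _, κ, α, hκ, hκr, hα⟩ := exists_CC (Y := (⊥ : Subgroup T)) (N := N) bot_le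
      (fun y hy n _ => by rw [Subgroup.mem_bot.mp hy, one_mul, mul_one])
    haveI : Finite C := Finite.of_injective _ hκ
    have hCp : IsPGroup p C := by
      have h1 : IsPGroup p κ.range := by rw [hκr]; exact IsPGroup.of_bot
      exact h1.of_equiv (κ.ofInjective hκ).symm
    obtain ⟨I, hI, hi, hIN, hci, H', _, _, φ, ε, s, π, Z, hε, hs1, hs2, -, hπ, hφ, hZc, hpZ, hZπ,
      hZi, Φ, hΦ⟩ := exists_twistedO_x (O := O) (CB_bot hN hc₀ hκ hκr) hCp (fun g _ => hcT g) hα
    refine ⟨H', inferInstance, inferInstance, rd I, hi, φ, ε, s, π,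
      TwD.of hκ hκr hci hε hs1 hs2 hπ hφ hZc hpZ hZπ hZi, ?_⟩
    rintro β hβ ⟨j, hj⟩
    have hbB := isBlock_iff.mp hb
    have hbc' : ∀ x, x * b = b * x := fun x => commute_of_mem (SubAlg_top x) hbB.mem.2
    have hbb : b * b = b := hb.idem
    refine ⟨j, (EO_twisted hε hs1 hs2 hΦ hbc' hbb hβ ?_).trans hj⟩
    obtain ⟨n, x, y, -, -, hxy⟩ := hci.full
    refine ⟨n, x, y, ?_⟩
    conv_rhs => rw [← hbc, hxy, Finset.mul_sum]
    refine Finset.sum_congr rfl fun l _ => ?_
    rw [hbc' (rd I), ← mul_assoc, hbc' (x l)]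
    simp only [mul_assoc]

end Integral

end Vale.Agent.P180.R2.H667
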