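import Vale.Agent.P180.Int.Defs

set_option linter.all false

/-!
P180: definitions for the relative theorem (sources of bounded dimension inside a normal subgroup).
-/

namespace Vale.Agent.P180.R2.H667

open Vale.Agent.P180

universe u

/-- `G` has normal subgroups `X = N 0 ≤ N 1 ≤ ... ≤ N l = G` such that every factor
`N (j+1) / N j` is a `p`-group, or has order prime to `p`, or has order at most `c j`, where the
numbers `c j ≥ 1` have a product at most `m`. (So `m = 1` means that `G / X` is `p`-solvable.) -/
def HasTop (p m : ℕ) {G : Type*} [Group G] (X : Subgroup G) : Prop :=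
  ∃ (l : ℕ) (N : ℕ → Subgroup G) (c : ℕ → ℕ), N 0 = X ∧ N l = ⊤ ∧
    (∀ j ≤ l, (N j).Normal) ∧
    (∀ j < l, N j ≤ N (j + 1) ∧ 1 ≤ c j ∧
      ((∀ x ∈ N (j + 1), ∃ e : ℕ, x ^ p ^ e ∈ N j) ∨
        ¬ p ∣ (N j).relIndex (N (j + 1)) ∨ (N j).relIndex (N (j + 1)) ≤ c j)) ∧
    ∏ j ∈ Finset.range l, c j ≤ m

/-- The space `i (kX) i`, spanned by the elements `i x i`, `x ∈ X`. -/
noncomputable def relCorner {k : Type u} [Field k] {G : Type} [Group G] (X : Subgroup G)
    (i : MonoidAlgebra k G) : Submodule k (MonoidAlgebra k G) :=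
  Submodule.span k {y | ∃ x ∈ X, y = i * MonoidAlgebra.single x 1 * i}

/-- There are a normal subgroup `X` of `G` with `HasTop p n X`, a `p`-subgroup `D` of `G` of order
at most `n` such that `kGb` is a direct summand of a module induced from the diagonal of `D` (for
example, a defect group of `b`) and an idempotent `i` of `kX` (not necessarily below `b` or below a
block of `kX`) which commutes with the elements of `D` such that `i b` has a non-zero image under
the Brauer homomorphism at `D` and the dimension of `i (kX) i` is at most `n`. -/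
def RelSource (p n : ℕ) {k : Type u} [Field k] {G : Type} [Group G] (b : MonoidAlgebra k G) :
    Prop :=
  ∃ (X D : Subgroup G) (i : MonoidAlgebra k G), X.Normal ∧ HasTop p n X ∧
    IsPGroup p D ∧ Nat.card D ≤ n ∧ IsSummandOfInducedR b D ∧
    (∀ x, i.coeff x ≠ 0 → x ∈ X) ∧ i * i = i ∧
    (∀ x ∈ D, MonoidAlgebra.single x 1 * i = i * MonoidAlgebra.single x 1) ∧
    (∃ x, (∀ y ∈ D, y * x = x * y) ∧ (i * b).coeff x ≠ 0) ∧
    Module.finrank k (relCorner X i) ≤ n

end Vale.Agent.P180.R2.H667
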