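import Vale.Agent.P180.R2.H799.Full

set_option linter.all false

/-!
P180: the elements of a group acting on a block algebra of a normal subgroup as inner automorphisms.
-/

namespace Vale.Agent.P180.R2.H667

open Vale.Agent.P180 Vale.Agent.P180.H768.Gd

section Ge

variable {k : Type*} [Field k] {G : Type*} [Group G]

/-- `g` acts on `kXe` as an inner automorphism: the component of `g` of the centraliser of `kX`
in `kGe` contains a unit. -/
def InE (X : Subgroup G) (e : MonoidAlgebra k G) (g : G) : Prop :=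
  ∃ u v : MonoidAlgebra k G, SuppIn (cst X (g : G ⧸ X)) u ∧ SuppIn (cst X ((g⁻¹ : G) : G ⧸ X)) v ∧
    u ∈ Fix (cj k G) X ∧ v ∈ Fix (cj k G) X ∧ u * e = u ∧ v * e = v ∧ u * v = e ∧ v * u = e

variable {X : Subgroup G} [X.Normal] {e : MonoidAlgebra k G}

theorem cst_cj {g x : G} {u : MonoidAlgebra k G} (hu : SuppIn (cst X (x : G ⧸ X)) u) :
    SuppIn (cst X ((g * x * g⁻¹ : G) : G ⧸ X)) (cj k G g u) := by
  refine hu.conj g fun s hs => ?_
  change ((g * s * g⁻¹ : G) : G ⧸ X) = ((g * x * g⁻¹ : G) : G ⧸ X)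
  have h1 : (s : G ⧸ X) = (x : G ⧸ X) := hs
  rw [QuotientGroup.mk_mul, QuotientGroup.mk_mul, h1, ← QuotientGroup.mk_mul,
    ← QuotientGroup.mk_mul]

theorem fix_cj {g : G} {u : MonoidAlgebra k G} (hu : u ∈ Fix (cj k G) X) :
    cj k G g u ∈ Fix (cj k G) X := by
  refine conj_mem_Fix hu g fun h hh => ?_
  have := (inferInstance : X.Normal).conj_mem h hh g⁻¹
  rwa [inv_inv] at this

/-- The group of the elements acting on `kXe` as inner automorphisms. -/
def Ge (he : IsBlockOf X e) : Subgroup G where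
  carrier := {g | InE X e g}
  one_mem' := by
    have h1 : SuppIn (cst X ((1 : G) : G ⧸ X)) e := by
      rw [QuotientGroup.mk_one]
      exact mem_SubAlg_iff_cst.mp he.mem.1
    refine ⟨e, e, h1, ?_, he.mem.2, he.mem.2, he.idem, he.idem, he.idem, he.idem⟩
    rw [inv_one]
    exact h1
  mul_mem' := by
    rintro g h ⟨u, v, hu, hv, hu1, hv1, hu3, hv3, huv, hvu⟩
      ⟨u', v', hu', hv', hu1', hv1', hu3', hv3', huv', hvu'⟩
    have hue : e * u = u := by
      rw [← huv, mul_assoc, hvu, hu3]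
    have hve : e * v = v := by rw [← hvu, mul_assoc, huv, hv3]
    have hue' : e * u' = u' := by rw [← huv', mul_assoc, hvu', hu3']
    have hve' : e * v' = v' := by rw [← hvu', mul_assoc, huv', hv3']
    refine ⟨u * u', v' * v, ?_, ?_, Subalgebra.mul_mem _ hu1 hu1', Subalgebra.mul_mem _ hv1' hv1,
      by rw [mul_assoc, hu3'], by rw [mul_assoc, hv3], ?_, ?_⟩
    · rw [QuotientGroup.mk_mul]
      exact mul_supp_cst hu hu'
    · rw [mul_inv_rev, QuotientGroup.mk_mul]
      exact mul_supp_cst hv' hv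
    · rw [mul_assoc, ← mul_assoc u', huv', hve, huv]
    · rw [mul_assoc, ← mul_assoc v, hvu, hue', hvu']
  inv_mem' := by
    rintro g ⟨u, v, hu, hv, hu1, hv1, hu3, hv3, huv, hvu⟩
    exact ⟨v, u, hv, by rw [inv_inv]; exact hu, hv1, hu1, hv3, hu3, hvu, huv⟩

theorem mem_Ge (he : IsBlockOf X e) {g : G} : g ∈ Ge he ↔ InE X e g := Iff.rfl

theorem Ge_normal (he : IsBlockOf X e) (heG : ∀ g, cj k G g e = e) : (Ge he).Normal := by
  constructor
  rintro h ⟨u, v, hu, hv, hu1, hv1, hu3, hv3, huv, hvu⟩ g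
  refine ⟨cj k G g u, cj k G g v, cst_cj hu, ?_, fix_cj hu1, fix_cj hv1, ?_, ?_, ?_, ?_⟩
  · have h1 : (g * h * g⁻¹)⁻¹ = g * h⁻¹ * g⁻¹ := by group
    rw [h1]
    exact cst_cj hv
  · conv_lhs => rhs; rw [← heG g]
    rw [← map_mul, hu3]
  · conv_lhs => rhs; rw [← heG g]
    rw [← map_mul, hv3]
  · rw [← map_mul, huv, heG]
  · rw [← map_mul, hvu, heG]

theorem le_Ge (he : IsBlockOf X e) : X ≤ Ge he := by
  intro x hx
  have h1 : ((x : G) : G ⧸ X) = 1 := (QuotientGroup.eq_one_iff x).mpr hx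
  have h2 : ((x⁻¹ : G) : G ⧸ X) = 1 := (QuotientGroup.eq_one_iff _).mpr (X.inv_mem hx)
  refine ⟨e, e, ?_, ?_, he.mem.2, he.mem.2, he.idem, he.idem, he.idem, he.idem⟩
  · rw [h1]; exact mem_SubAlg_iff_cst.mp he.mem.1
  · rw [h2]; exact mem_SubAlg_iff_cst.mp he.mem.1

end Ge

end Vale.Agent.P180.R2.H667
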