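import Mathlib

set_option linter.all false

/-!
P180: normal series whose factors are p-groups, groups of order prime to p, or of bounded order.
-/

namespace Vale.Agent.P180.R2.H667

section Ly

variable {p : ℕ} {G : Type*} [Group G]

/-- The factor `Q / X` is a `p`-group, or of order prime to `p`, or of order at most `c`. -/
def Ly (p : ℕ) (X Q : Subgroup G) (c : ℕ) : Prop :=
  1 ≤ c ∧ ((∀ x ∈ Q, ∃ n, x ^ p ^ n ∈ X) ∨ (¬ p ∣ X.relIndex Q) ∨ X.relIndex Q ≤ c)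

/-- `X` is the bottom of a normal series of `G` all of whose factors are `p`-groups or of order
prime to `p` or of bounded order, the product of the bounds being at most `m`. -/
inductive Tw (p : ℕ) : Subgroup G → ℕ → Prop
  | top {m : ℕ} : 1 ≤ m → Tw p ⊤ m
  | step {X Q : Subgroup G} {c m m' : ℕ} : X ≤ Q → Q.Normal → Ly p X Q c → Tw p Q m' →
      c * m' ≤ m → Tw p X m

theorem Tw.mono {X : Subgroup G} {m m' : ℕ} (h : Tw p X m) (hm : m ≤ m') : Tw p X m' := by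
  cases h with
  | top h => exact Tw.top (h.trans hm)
  | step h1 h2 h3 h4 h5 => exact Tw.step h1 h2 h3 h4 (h5.trans hm)

theorem Tw.pos {X : Subgroup G} {m : ℕ} (h : Tw p X m) : 1 ≤ m := by
  induction h with
  | top h => exact h
  | step h1 h2 h3 h4 h5 ih =>
    exact (Nat.one_le_iff_ne_zero.mpr (Nat.mul_ne_zero (by have := h3.1; omega) (by omega))).trans h5

theorem relIndex_dvd_right {X K Q : Subgroup G} [X.Normal] (hKQ : K ≤ Q) :
    X.relIndex K ∣ X.relIndex Q := by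
  have h1 : (X.subgroupOf Q).Normal := inferInstance
  have h2 := Subgroup.relIndex_dvd_index_of_normal (X.subgroupOf Q) (K.subgroupOf Q)
  rwa [Subgroup.relIndex_subgroupOf hKQ] at h2

variable [Finite G]

theorem rel_ne_zero {X Q : Subgroup G} : X.relIndex Q ≠ 0 :=
  Subgroup.index_ne_zero_of_finite (H := X.subgroupOf Q)

theorem Ly.comap {H : Type*} [Group H] [Finite H] (f : H →* G) {X Q : Subgroup G} [X.Normal]
    (hXQ : X ≤ Q) {c : ℕ} (h : Ly p X Q c) : Ly p (X.comap f) (Q.comap f) c := by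
  have hd : (X.comap f).relIndex (Q.comap f) ∣ X.relIndex Q := by
    rw [Subgroup.relIndex_comap]
    apply relIndex_dvd_right
    rintro _ ⟨x, hx, rfl⟩
    exact hx
  refine ⟨h.1, ?_⟩
  rcases h.2 with h | h | h
  · left
    intro x hx
    obtain ⟨n, hn⟩ := h (f x) hx
    exact ⟨n, by rw [Subgroup.mem_comap, map_pow]; exact hn⟩
  · right; left
    exact fun h' => h (h'.trans hd)
  · right; right
    exact (Nat.le_of_dvd (Nat.pos_of_ne_zero rel_ne_zero) hd).trans h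

theorem Tw.comap {H : Type*} [Group H] [Finite H] (f : H →* G) {X : Subgroup G} (hX : X.Normal)
    {m : ℕ} (h : Tw p X m) : Tw p (X.comap f) m := by
  induction h with
  | top h => exact Tw.top h
  | step h1 h2 h3 h4 h5 ih =>
    exact Tw.step (Subgroup.comap_mono h1) (h2.comap f) (h3.comap f h1) (ih h2) h5

theorem Ly.inf {X Q : Subgroup G} [X.Normal] (H : Subgroup G) (hXQ : X ≤ Q) (hXH : X ≤ H)
    [H.Normal] [Q.Normal] {c : ℕ} (h : Ly p X Q c) :
    ∃ c₁ c₂, Ly p X (Q ⊓ H) c₁ ∧ Ly p (Q ⊓ H) Q c₂ ∧ c₁ * c₂ ≤ c := by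
  have hX : X ≤ Q ⊓ H := le_inf hXQ hXH
  have hmul : X.relIndex (Q ⊓ H) * (Q ⊓ H).relIndex Q = X.relIndex Q :=
    Subgroup.relIndex_mul_relIndex _ _ _ hX inf_le_left
  rcases h.2 with h' | h' | h'
  · refine ⟨1, 1, ⟨le_rfl, Or.inl fun x hx => h' x hx.1⟩, ⟨le_rfl, Or.inl fun x hx => ?_⟩, by
      simpa using h.1⟩
    obtain ⟨n, hn⟩ := h' x hx
    exact ⟨n, hX hn⟩
  · refine ⟨1, 1, ⟨le_rfl, Or.inr (Or.inl fun hd => h' (hd.trans ?_))⟩,
      ⟨le_rfl, Or.inr (Or.inl fun hd => h' (hd.trans ?_))⟩, by simpa using h.1⟩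
    · exact ⟨_, hmul.symm⟩
    · exact ⟨_, by rw [mul_comm]; exact hmul.symm⟩
  · refine ⟨X.relIndex (Q ⊓ H), (Q ⊓ H).relIndex Q,
      ⟨Nat.one_le_iff_ne_zero.mpr rel_ne_zero, Or.inr (Or.inr le_rfl)⟩,
      ⟨Nat.one_le_iff_ne_zero.mpr rel_ne_zero, Or.inr (Or.inr le_rfl)⟩, ?_⟩
    rw [hmul]; exact h'

theorem Ly.iso {X Q Q₁ Q₂ : Subgroup G} (hQ₁ : Q₁.Normal) (hX : Q₁ ⊓ Q = X) (hQ : Q ≤ Q₂)
    {c : ℕ} (h : Ly p Q₁ Q₂ c) : Ly p X Q c := by
  have h1 : X.relIndex Q = Q₁.relIndex Q := by rw [← hX, Subgroup.inf_relIndex_right]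
  have hd : X.relIndex Q ∣ Q₁.relIndex Q₂ := by rw [h1]; exact relIndex_dvd_right hQ
  refine ⟨h.1, ?_⟩
  rcases h.2 with h | h | h
  · left
    intro x hx
    obtain ⟨n, hn⟩ := h x (hQ hx)
    exact ⟨n, by rw [← hX]; exact ⟨hn, Q.pow_mem hx _⟩⟩
  · right; left
    exact fun h' => h (h'.trans hd)
  · right; right
    exact (Nat.le_of_dvd (Nat.pos_of_ne_zero rel_ne_zero) hd).trans h

theorem Ly.sup {X Q Q₁ Q₂ : Subgroup G} (hQ : Q.Normal) (hX : Q₁ ⊓ Q = X)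
    (hQ₂ : Q₂ = Q₁ ⊔ Q) {c : ℕ} (h : Ly p X Q₁ c) : Ly p Q Q₂ c := by
  have h1 : Q.relIndex Q₂ = X.relIndex Q₁ := by
    rw [hQ₂, Subgroup.relIndex_sup_right, ← hX, Subgroup.inf_relIndex_left]
  refine ⟨h.1, ?_⟩
  rcases h.2 with h | h | h
  · left
    intro x hx
    rw [hQ₂, Subgroup.mem_sup_of_normal_right] at hx
    obtain ⟨a, ha, b, hb, rfl⟩ := hx
    obtain ⟨n, hn⟩ := h a ha
    refine ⟨n, ?_⟩
    have hn' : a ^ p ^ n ∈ Q := by rw [← hX] at hn; exact hn.2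
    rw [← QuotientGroup.eq_one_iff] at hn' ⊢
    rw [QuotientGroup.mk_pow, QuotientGroup.mk_mul, (QuotientGroup.eq_one_iff b).mpr hb, mul_one,
      ← QuotientGroup.mk_pow]
    exact hn'
  · right; left
    rwa [h1]
  · right; right
    rwa [h1]

/-- A normal subgroup above `X` contains one layer. -/
theorem Tw.exists_layer {X : Subgroup G} {m : ℕ} (h : Tw p X m) : X.Normal → ∀ H : Subgroup G,
    H.Normal → X ≤ H → X ≠ H → ∃ (Q : Subgroup G) (c m' : ℕ), Q.Normal ∧ X ≤ Q ∧ Q ≤ H ∧ Q ≠ X ∧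
      Ly p X Q c ∧ Tw p Q m' ∧ c * m' ≤ m := by
  induction h with
  | top h =>
    intro _ H _ hXH hne
    exact absurd (top_le_iff.mp hXH).symm hne
  | @step X Q₁ c m m₁ h1 h2 h3 h4 h5 ih =>
    intro hXn H hHn hXH hne
    by_cases hQH : Q₁ ⊓ H = X
    · -- go up
      have hne₁ : Q₁ ≠ H ⊔ Q₁ := by
        intro he
        apply hne
        have : H ≤ Q₁ := by rw [he]; exact le_sup_left
        rw [← hQH, inf_eq_right.mpr this]
      obtain ⟨Q₂, c₂, m₂, hn₂, h6, h7, h8, h9, h10, h11⟩ := ih h2 (H ⊔ Q₁)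
        (Subgroup.sup_normal H Q₁) le_sup_right hne₁
      have hQ₂ : Q₂ = Q₁ ⊔ (Q₂ ⊓ H) := by
        apply le_antisymm
        · intro x hx
          obtain ⟨a, ha, b, hb, hab⟩ := Subgroup.mem_sup_of_normal_right.mp (h7 hx)
          rw [sup_comm, Subgroup.mem_sup_of_normal_right]
          refine ⟨a, ⟨?_, ha⟩, b, hb, hab⟩
          have : a = x * b⁻¹ := by rw [← hab, mul_inv_cancel_right]
          rw [this]
          exact Q₂.mul_mem hx (Q₂.inv_mem (h6 hb))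
        · exact sup_le h6 inf_le_left
      have hXQ : Q₁ ⊓ (Q₂ ⊓ H) = X := by
        rw [← inf_assoc, inf_eq_left.mpr h6, hQH]
      have hL2 : Ly p X (Q₂ ⊓ H) c₂ := h9.iso h2 hXQ inf_le_left
      have hL1 : Ly p (Q₂ ⊓ H) Q₂ c := h3.sup (Subgroup.normal_inf_normal Q₂ H) hXQ hQ₂
      refine ⟨Q₂ ⊓ H, c₂, c * m₂, Subgroup.normal_inf_normal Q₂ H, ?_, inf_le_right, ?_, hL2,
        Tw.step inf_le_left hn₂ hL1 h10 le_rfl, ?_⟩
      · rw [← hXQ]; exact inf_le_right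
      · intro he
        apply h8
        rw [hQ₂, he, sup_eq_left.mpr h1]
      · calc c₂ * (c * m₂) = c * (c₂ * m₂) := by ring
          _ ≤ c * m₁ := Nat.mul_le_mul_left _ h11
          _ ≤ m := h5
    · obtain ⟨c₁, c₂, hc1, hc2, hc⟩ := h3.inf H h1 hXH
      refine ⟨Q₁ ⊓ H, c₁, c₂ * m₁, Subgroup.normal_inf_normal Q₁ H, le_inf h1 hXH, inf_le_right,
        hQH, hc1, Tw.step inf_le_left h2 hc2 h4 le_rfl, ?_⟩
      calc c₁ * (c₂ * m₁) = (c₁ * c₂) * m₁ := by ring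
        _ ≤ c * m₁ := Nat.mul_le_mul_right _ hc
        _ ≤ m := h5

end Ly

end Vale.Agent.P180.R2.H667
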