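import Vale.Agent.P180.R2.H667.St4
import Vale.Agent.P180.R2.H667.Blk
import Vale.Agent.P180.R2.H667.Climb
import Vale.Agent.P180.R2.H667.Top
import Vale.Agent.P180.R2.H954.U1f

set_option linter.all false

/-!
P180: the main induction of the relative theorem.
-/

namespace Vale.Agent.P180.R2.H667

open Vale.Agent.P180 Vale.Agent.P180.H768.Gd Vale.Agent.P180.R2.H365
open Vale.Agent.P180.R2.H799

open scoped Nat

universe u

/-- a small corner generating the block relatively to a `p`-subgroup -/
def SmC (n C : ℕ) (k : Type u) [Field k] (G : Type) [Group G] [Finite G]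
    (b : MonoidAlgebra k G) : Prop :=
  ∃ (P : Subgroup G) (i : MonoidAlgebra k G) (hi : IsIdempotentElem i), Nat.card P ≤ n ∧
    i ∈ Fix (cj k G) P ∧ b * i = i ∧
    (∃ (m : ℕ) (u v : Fin m → MonoidAlgebra k G), (∀ l, u l ∈ Fix (cj k G) P) ∧
      (∀ l, v l ∈ Fix (cj k G) P) ∧ b = tr (cj k G) P ⊤ (∑ l, u l * i * v l)) ∧
    Module.finrank k hi.Corner ≤ C

section

variable {k : Type u} [Field k] [IsAlgClosed k] {p : ℕ} [Fact p.Prime] [CharP k p]
variable {G : Type} [Group G] [Finite G]

/-- the terminal case -/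
theorem terminal {X D : Subgroup G} [X.Normal] {e a b i : MonoidAlgebra k G} {n M : ℕ}
    (he : IsBlockOf X e) (heG : ∀ g, cj k G g e = e) (hGe : Ge he = X) (hD : IsPGroup p D)
    (hDn : Nat.card D ≤ n) (hb : IsBlock b) (hbe : b * e = b) (ha : a ∈ Fix (cj k G) D)
    (hba : b = tr (cj k G) D ⊤ a) (hiX : i ∈ SubAlg k X) (hiD : i ∈ Fix (cj k G) D)
    (hii : i * i = i) (hie : i * e = i) (hbr : br D (i * b) ≠ 0)
    (hM : Module.finrank k (NN (SubAlg k X) i i) ≤ M) :
    SmC n (n ! * n ! * (M * M)) k G b := by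
  have heF : e ∈ Fix (cj k G) ⊤ := fun g _ => heG g
  have hbB := isBlock_iff.mp hb
  have hbF : b ∈ Fix (cj k G) ⊤ := hbB.mem.2
  have hbc : ∀ x, x * b = b * x := fun x => commute_of_mem (SubAlg_top x) hbF
  have heb : e * b = b := by rw [hbc, hbe]
  obtain ⟨z, hz, hzP, hez⟩ := exists_tr_inf he heF hb.idem (by rw [heb]; exact hb.ne_zero) ha hba
  have hP : IsPGroup p (X ⊓ D : Subgroup G) := hD.to_le inf_le_right
  have hbr1 := br_inf_ne_zero (X := X) hD heF hbF heb hiD hbr
  have hbre : br (X ⊓ D) e ≠ 0 := by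
    intro h0
    apply hbr1
    rw [br_mul hP (Fix_mono _ inf_le_right hiD) (Fix_mono _ le_top heF), h0, mul_zero]
  have hidx := H954.exists_index_le hP inf_le_left he heG hz hzP hez hbre
  rw [hGe] at hidx
  have hcardP : Nat.card (X ⊓ D : Subgroup G) ≤ n :=
    (Nat.card_le_card_of_injective _ (Subgroup.inclusion_injective
      (inf_le_right : X ⊓ D ≤ D))).trans hDn
  have hidx' : X.index ≤ n ! * n ! :=
    hidx.trans (Nat.mul_le_mul (Nat.factorial_le hcardP) (Nat.factorial_le hcardP))
  have hfull := exists_full hD he heF hb.idem heb ha hba hiX hiD hii hbr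
  have hei : e * i = i := by rw [← commute_of_mem hiX he.mem.2, hie]
  have hbi : IsIdempotentElem (b * i) := by
    change b * i * (b * i) = b * i
    have hbb : b * b = b := hb.idem
    rw [mul_assoc, ← mul_assoc i b, hbc, mul_assoc b i i, hii, ← mul_assoc, hbb]
  obtain ⟨w, hwD, hwb, hbw⟩ := gen hbB hD ha hba hiD hii hbr
  refine ⟨D, b * i, hbi, hDn, Subalgebra.mul_mem _ (Fix_mono _ le_top hbF) hiD, ?_, ?_, ?_⟩
  · have hbb : b * b = b := hb.idem
    rw [← mul_assoc, hbb]
  · refine ⟨1, fun _ => 1, fun _ => w, fun _ => Subalgebra.one_mem _, fun _ => hwD, ?_⟩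
    rw [Fin.sum_univ_one, one_mul, ← hbc i, mul_assoc, ← hbc w, hwb]
    exact hbw
  · refine finrank_corner_le (Z := ⊥) (X := X) hb.idem hbB.mem ?_ ?_ he.idem he.mem heF heb hii hiX
      hfull ?_ hbi
    · intro z hz
      refine ⟨1, ?_⟩
      rw [Subgroup.mem_bot.mp hz, ← MonoidAlgebra.one_def, one_mul, one_smul]
    · rw [bot_sup_eq]; exact hidx'
    · rw [hei]; exact hM

/-- stable blocks below a normal subgroup with quotient a `p`-group -/
theorem p_layer {X Q D : Subgroup G} [X.Normal] [Q.Normal] {e a b : MonoidAlgebra k G}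
    (he : IsBlockOf X e) (heG : ∀ g, cj k G g e = e) (hXQ : X ≤ Q)
    (hp : ∀ x ∈ Q, ∃ n, x ^ p ^ n ∈ X) (hb : IsBlock b) (hbe : b * e = b)
    (ha : a ∈ Fix (cj k G) D) (hba : b = tr (cj k G) D ⊤ a) :
    X.relIndex Q * Q.relIndex D ≤ X.relIndex D := by
  have heF : e ∈ Fix (cj k G) ⊤ := fun g _ => heG g
  have hbF : b ∈ Fix (cj k G) ⊤ := (isBlock_iff.mp hb).mem.2
  have heb : e * b = b := by rw [commute_of_mem (SubAlg_top e) hbF, hbe]
  obtain ⟨e', he'⟩ := exists_incl Q (he.mem.1.mono hXQ)
  have hinj := incl_injective (k := k) Q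
  have he'B : IsBlockOf (X.subgroupOf Q) e' := by
    rw [isBlockOf_subgroupOf_iff hXQ, he']; exact he
  have he'F : e' ∈ Fix (cj k Q) ⊤ := by
    intro g _
    apply hinj
    rw [incl_cj, he', heG]
  have hp' : ∀ g : Q, ∃ n, g ^ p ^ n ∈ X.subgroupOf Q := fun g => by
    obtain ⟨n, hn⟩ := hp g g.2
    exact ⟨n, hn⟩
  have htop : (⊤ : Subgroup Q).map Q.subtype = Q := by
    rw [← MonoidHom.range_eq_map, Subgroup.range_subtype]
  have heQ : IsBlockOf Q e := by
    have h1 := (isBlockOf_map_iff Q ⊤ e').mpr (block_top hp' he'B he'F)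
    rwa [htop, he'] at h1
  obtain ⟨z, hz, hzP, hez⟩ := exists_tr_inf heQ heF hb.idem (by rw [heb]; exact hb.ne_zero) ha hba
  obtain ⟨z', rfl⟩ := exists_incl Q hz
  have hmapP : ((Q ⊓ D).subgroupOf Q).map Q.subtype = Q ⊓ D :=
    Subgroup.map_subgroupOf_eq_of_le inf_le_left
  have hz'F : z' ∈ Fix (cj k Q) ((Q ⊓ D).subgroupOf Q) := by
    rw [← incl_mem_Fix_iff, hmapP]; exact hzP
  have hez' : e' = tr (cj k Q) ((Q ⊓ D).subgroupOf Q) ⊤ z' := by
    apply hinj
    rw [he', incl_tr Q _ hz'F, hmapP]
    exact hez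
  have hsup := sup_eq_top hp' he'B he'F hz'F hez'
  have hQ : Q ⊓ D ⊔ X = Q := by
    have h1 := congrArg (Subgroup.map Q.subtype) hsup
    rw [Subgroup.map_sup, hmapP, Subgroup.map_subgroupOf_eq_of_le hXQ, htop] at h1
    exact h1
  have h1 : X.relIndex Q = X.relIndex (Q ⊓ D) := by
    conv_lhs => rw [← hQ]
    rw [Subgroup.relIndex_sup_right]
  have h2 : (X ⊓ D).relIndex (Q ⊓ D) * (Q ⊓ D).relIndex D = (X ⊓ D).relIndex D :=
    Subgroup.relIndex_mul_relIndex _ _ _ (inf_le_inf_right D hXQ) inf_le_right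
  rw [Subgroup.inf_relIndex_right, Subgroup.inf_relIndex_right] at h2
  have h3 : (X ⊓ D).relIndex (Q ⊓ D) = X.relIndex (Q ⊓ D) := by
    have h4 : X ⊓ D ⊓ (Q ⊓ D) = X ⊓ (Q ⊓ D) := by
      apply le_antisymm
      · exact le_inf (inf_le_left.trans inf_le_left) inf_le_right
      · exact le_inf (le_inf inf_le_left (inf_le_right.trans inf_le_right)) inf_le_right
    rw [← Subgroup.inf_relIndex_right (X ⊓ D), h4, Subgroup.inf_relIndex_right]
  rw [h3, ← h1] at h2
  exact h2.le

end

/-- **The main induction.** -/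
theorem main_ind {k : Type u} [Field k] [IsAlgClosed k] {p : ℕ} [Fact p.Prime] [CharP k p]
    {P : ∀ (G : Type) [Group G], MonoidAlgebra k G → Prop} (hP : Cl k p P) {n M : ℕ}
    (hend : ∀ (G : Type) [Group G] [Finite G] (b : MonoidAlgebra k G), IsBlock b →
      SmC n (n ! * n ! * (M * M)) k G b → P G b) (N : ℕ) :
    ∀ (G : Type) [Group G] [Finite G] (X D : Subgroup G) (a b i : MonoidAlgebra k G) (m : ℕ),
      X.Normal → IsPGroup p D → Nat.card D ≤ n → IsBlock b → a ∈ Fix (cj k G) D →
      b = tr (cj k G) D ⊤ a → i ∈ SubAlg k X → i ∈ Fix (cj k G) D → i * i = i →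
      br D (i * b) ≠ 0 → Tw p X m →
      Module.finrank k (NN (SubAlg k X) i i) * m * X.relIndex D ≤ M → X.index ≤ N → P G b := by
  induction N with
  | zero =>
    intro G _ _ X D a b i m _ _ _ _ _ _ _ _ _ _ _ _ h0
    exact absurd (Nat.le_zero.mp h0) Subgroup.index_ne_zero_of_finite
  | succ N ih =>
    -- the case of a stable block
    have inner : ∀ (G : Type) [Group G] [Finite G] (X D : Subgroup G)
        (a b i e : MonoidAlgebra k G) (m : ℕ),
        X.Normal → IsPGroup p D → Nat.card D ≤ n → IsBlock b → a ∈ Fix (cj k G) D →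
        b = tr (cj k G) D ⊤ a → i ∈ SubAlg k X → i ∈ Fix (cj k G) D → i * i = i →
        br D (i * b) ≠ 0 → Tw p X m → IsBlockOf X e → (∀ g, cj k G g e = e) → i * e = i →
        b * e = b →
        Module.finrank k (NN (SubAlg k X) i i) * m * X.relIndex D ≤ M →
        X.index ≤ N + 1 → P G b := by
      intro G _ _ X D a b i e m hX hD hDn hb ha hba hiX hiD hii hbr hTw he heG hie hbe hM hN
      have hm1 : 1 ≤ m := hTw.pos
      have hr1 : 1 ≤ X.relIndex D := Nat.one_le_iff_ne_zero.mpr rel_ne_zero
      by_cases hGe : Ge he = X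
      · refine hend G b hb (terminal he heG hGe hD hDn hb hbe ha hba hiX hiD hii hie hbr ?_)
        refine le_trans ?_ hM
        rw [mul_assoc]
        exact Nat.le_mul_of_pos_right _ (Nat.mul_pos hm1 hr1)
      · have hGn := Ge_normal he heG
        obtain ⟨Q, c, m', hQn, hXQ, hQG, hne, ⟨hc1, hly⟩, hTw', hcm⟩ :=
          hTw.exists_layer hX (Ge he) hGn (le_Ge he) (fun h => hGe h.symm)
        have hm'1 : 1 ≤ m' := hTw'.pos
        have hm'm : m' ≤ m := le_trans (Nat.le_mul_of_pos_left _ hc1) hcm
        have hlt : Q.index < X.index := by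
          have h1 := Subgroup.relIndex_mul_index hXQ
          have h2 : X.relIndex Q ≠ 1 := by
            intro h3
            exact hne (le_antisymm (Subgroup.relIndex_eq_one.mp h3) hXQ)
          have h3 : X.relIndex Q ≠ 0 := rel_ne_zero
          have h4 : 0 < Q.index := Nat.pos_of_ne_zero Subgroup.index_ne_zero_of_finite
          rw [← h1]
          have h5 : 2 * Q.index ≤ X.relIndex Q * Q.index := Nat.mul_le_mul_right _ (by omega)
          omega
        have hQN : Q.index ≤ N := by omega
        have hclimb := finrank_climb he hXQ hQG hiX hie hii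
        have hQX : Q.relIndex D ≤ X.relIndex D :=
          Nat.le_of_dvd (Nat.pos_of_ne_zero rel_ne_zero)
            (Subgroup.relIndex_dvd_of_le_left D hXQ)
        rcases hly with hly | hly | hly
        · -- a `p`-group
          have h1 := p_layer he heG hXQ hly hb hbe ha hba
          refine ih G Q D a b i m' hQn hD hDn hb ha hba (hiX.mono hXQ) hiD hii hbr hTw' ?_ hQN
          calc Module.finrank k (NN (SubAlg k Q) i i) * m' * Q.relIndex D
              ≤ (X.relIndex Q * Module.finrank k (NN (SubAlg k X) i i)) * m * Q.relIndex D :=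
                Nat.mul_le_mul_right _ (Nat.mul_le_mul hclimb hm'm)
            _ = Module.finrank k (NN (SubAlg k X) i i) * m * (X.relIndex Q * Q.relIndex D) := by
                ring
            _ ≤ Module.finrank k (NN (SubAlg k X) i i) * m * X.relIndex D :=
                Nat.mul_le_mul_left _ h1
            _ ≤ M := hM
        · -- a `p'`-group
          obtain ⟨H, _, _, f, D', a', b', i', hD', hD'n, hD'f, hb', ha', hba', hii', hiX', hiD',
            hbr', hdim, hPP⟩ := step_U2 hP he heG hXQ hQG hly hD hb hbe ha hba hii hiX hie hiD hbr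
          apply hPP
          refine ih H (Q.comap f) D' a' b' i' m' inferInstance hD' (by rw [hD'n]; exact hDn) hb'
            ha' hba' hiX' hiD' hii' hbr' (hTw'.comap f hQn) ?_ ?_
          · rw [Subgroup.relIndex_comap, hD'f]
            calc Module.finrank k (NN (SubAlg k (Q.comap f)) i' i') * m' * Q.relIndex D
                ≤ Module.finrank k (NN (SubAlg k X) i i) * m * X.relIndex D :=
                  Nat.mul_le_mul (Nat.mul_le_mul hdim hm'm) hQX
              _ ≤ M := hM
          · rw [Subgroup.index_comap]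
            refine le_trans ?_ hQN
            exact Nat.le_of_dvd (Nat.pos_of_ne_zero Subgroup.index_ne_zero_of_finite)
              (Subgroup.relIndex_dvd_index_of_normal Q _)
        · -- a bounded layer
          refine ih G Q D a b i m' hQn hD hDn hb ha hba (hiX.mono hXQ) hiD hii hbr hTw' ?_ hQN
          calc Module.finrank k (NN (SubAlg k Q) i i) * m' * Q.relIndex D
              ≤ (c * Module.finrank k (NN (SubAlg k X) i i)) * m' * X.relIndex D :=
                Nat.mul_le_mul (Nat.mul_le_mul_right _ (hclimb.trans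
                  (Nat.mul_le_mul_right _ hly))) hQX
            _ = Module.finrank k (NN (SubAlg k X) i i) * (c * m') * X.relIndex D := by ring
            _ ≤ Module.finrank k (NN (SubAlg k X) i i) * m * X.relIndex D :=
                Nat.mul_le_mul_right _ (Nat.mul_le_mul_left _ hcm)
            _ ≤ M := hM
    -- reduction to the stable case
    intro G _ _ X D a b i m hX hD hDn hb ha hba hiX hiD hii hbr hTw hM hN
    have hbF : b ∈ Fix (cj k G) ⊤ := (isBlock_iff.mp hb).mem.2
    have hbc : ∀ x, x * b = b * x := fun x => commute_of_mem (SubAlg_top x) hbF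
    obtain ⟨e, he, heD, hbre⟩ := exists_stable (N := X) hD (u := i * b)
      (Subalgebra.mul_mem _ hiD (Fix_mono _ le_top hbF)) hbr
    rw [mul_assoc] at hbre
    obtain ⟨b', hb', hb'e, a', ha', hba'⟩ := fr_data he hb hD heD ha hba hiD hbre
    have hDT : D ≤ stabE e := fun d hd => by rw [mem_stabE]; exact heD d hd
    have hXT : X ≤ stabE e := le_stabE he
    have hinj := incl_injective (k := k) (stabE e)
    have hee : e * e = e := he.idem.eq
    have hie : i * e = e * i := commute_of_mem hiX he.mem.2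
    have hmapX : (X.subgroupOf (stabE e)).map (stabE e).subtype = X :=
      Subgroup.map_subgroupOf_eq_of_le hXT
    have hmapD : (D.subgroupOf (stabE e)).map (stabE e).subtype = D :=
      Subgroup.map_subgroupOf_eq_of_le hDT
    obtain ⟨e', he'⟩ := exists_incl (stabE e) (he.mem.1.mono hXT)
    obtain ⟨i', hi'⟩ := exists_incl (stabE e) ((Subalgebra.mul_mem _ hiX he.mem.1).mono hXT)
    refine hP.fr he hb (fun h0 => hb'.ne_zero (hinj (by rw [hb'e, h0, map_zero]))) hb' hb'e ?_
    have hfin : FiniteDimensional k (MonoidAlgebra k G) :=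
      Module.Finite.equiv (MonoidAlgebra.coeffLinearEquiv k (M := G) (S := k)).symm
    refine inner (stabE e) (X.subgroupOf (stabE e)) (D.subgroupOf (stabE e)) a' b' i' e' m
      inferInstance (hD.of_equiv (Subgroup.subgroupOfEquivOfLe hDT).symm) ?_ hb' ha' hba' ?_ ?_ ?_
      ?_ ?_ ?_ ?_ ?_ ?_ ?_ ?_
    · rw [Nat.card_congr (Subgroup.subgroupOfEquivOfLe hDT).toEquiv]; exact hDn
    · rw [← incl_mem_SubAlg_iff, hmapX, hi']
      exact Subalgebra.mul_mem _ hiX he.mem.1
    · rw [← incl_mem_Fix_iff, hmapD, hi']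
      exact Subalgebra.mul_mem _ hiD (fun d hd => heD d hd)
    · apply hinj
      rw [map_mul, hi', mul_assoc, ← mul_assoc e, ← hie, mul_assoc i, hee, ← mul_assoc, hii]
    · intro h0
      apply hbre
      have h1 := br_incl hDT (i' * b')
      rw [h0, map_zero, map_mul, hi', hb'e] at h1
      rw [h1]
      congr 1
      rw [mul_assoc, ← mul_assoc e, hbc e, mul_assoc b, hee]
    · have := hTw.comap (stabE e).subtype hX
      exact this
    · rw [isBlockOf_subgroupOf_iff hXT, he']; exact he
    · intro g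
      apply hinj
      rw [incl_cj, he']
      exact mem_stabE.mp g.2
    · apply hinj
      rw [map_mul, hi', he', mul_assoc, hee]
    · apply hinj
      rw [map_mul, hb'e, he', mul_assoc, hee]
    · -- the dimension
      have h1 : Module.finrank k (NN (SubAlg k (X.subgroupOf (stabE e))) i' i') ≤
          Module.finrank k (NN (SubAlg k X) i i) := by
        have hmem : ∀ x ∈ NN (SubAlg k (X.subgroupOf (stabE e))) i' i',
            incl k (stabE e) x ∈ NN (SubAlg k X) i i := by
          rintro x ⟨hx1, hx2, hx3⟩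
          rw [← incl_mem_SubAlg_iff, hmapX] at hx1
          refine ⟨hx1, ?_, ?_⟩
          · rw [← hx2, map_mul, hi', ← mul_assoc, ← mul_assoc, hii]
          · rw [← hx3, map_mul, hi', hie, mul_assoc, mul_assoc, hii]
        let Ψ : NN (SubAlg k (X.subgroupOf (stabE e))) i' i' →ₗ[k] NN (SubAlg k X) i i :=
          ((incl k (stabE e)).toLinearMap.comp
            (NN (SubAlg k (X.subgroupOf (stabE e))) i' i').subtype).codRestrict _
            (fun x => hmem x.1 x.2)
        exact LinearMap.finrank_le_finrank_of_injective (f := Ψ) (fun x y hxy =>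
          Subtype.ext (hinj (congrArg Subtype.val hxy)))
      rw [Subgroup.relIndex_subgroupOf hDT]
      exact (Nat.mul_le_mul_right _ (Nat.mul_le_mul_right _ h1)).trans hM
    · change X.relIndex (stabE e) ≤ N + 1
      exact (Nat.le_of_dvd (Nat.pos_of_ne_zero Subgroup.index_ne_zero_of_finite)
        (Subgroup.relIndex_dvd_index_of_normal X _)).trans hN

end Vale.Agent.P180.R2.H667
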