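import Vale.Agent.P180.R2.H667.Def
import Vale.Agent.P180.R2.H667.Fin
import Vale.Agent.P180.R2.H259.Dc

set_option linter.all false

/-!
P180: the relative theorem in terms of the definitions of `Def.lean`.
-/

namespace Vale.Agent.P180.R2.H667

open IsLocalRing
open Vale.Agent.P180 Vale.Agent.P180.H768.Gd Vale.Agent.P180.R2.H365 Vale.Agent.P180.R2.H259
open Vale.Agent.P180.I (isBlockR_iff)
open Vale.Agent.P180.R2.H799 (NN)

universe u

theorem tw_of_hasTop {p m : ℕ} {G : Type*} [Group G] {X : Subgroup G} (h : HasTop p m X) :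
    Tw p X m := by
  obtain ⟨l, N, c, h0, hl, hn, hs, hm⟩ := h
  have key : ∀ t, t ≤ l → Tw p (N (l - t)) (∏ j ∈ Finset.Ico (l - t) l, c j) := by
    intro t
    induction t with
    | zero =>
      intro _
      rw [Nat.sub_zero, hl, Finset.Ico_self, Finset.prod_empty]
      exact Tw.top le_rfl
    | succ t ih =>
      intro ht
      have h1 := ih (by omega)
      have e1 : l - (t + 1) + 1 = l - t := by omega
      have h2 := hs (l - (t + 1)) (by omega)
      rw [e1] at h2
      have h3 : ∏ j ∈ Finset.Ico (l - (t + 1)) l, c j =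
          c (l - (t + 1)) * ∏ j ∈ Finset.Ico (l - t) l, c j := by
        rw [Finset.prod_eq_prod_Ico_succ_bot (by omega), e1]
      rw [h3]
      exact Tw.step h2.1 (hn _ (by omega)) ⟨h2.2.1, h2.2.2⟩ h1 le_rfl
  have h1 := key l le_rfl
  rw [Nat.sub_self, h0, ← Finset.range_eq_Ico] at h1
  exact h1.mono hm

section

variable {k : Type u} [Field k] {G : Type} [Group G] [Finite G]

theorem NN_le_relCorner {X : Subgroup G} {i : MonoidAlgebra k G} :
    NN (SubAlg k X) i i ≤ relCorner X i := by
  classical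
  have _ := Fintype.ofFinite G
  rintro y ⟨hy, h1, h2⟩
  have h3 : y = i * y * i := by rw [h1, h2]
  have h4 : i * y * i = ∑ x, y.coeff x • (i * sg k x * i) := by
    conv_lhs => rw [sum_sg y, Finset.mul_sum, Finset.sum_mul]
    exact Finset.sum_congr rfl fun x _ => by rw [mul_smul_comm, smul_mul_assoc]
  rw [h3, h4]
  refine Submodule.sum_mem _ fun x _ => ?_
  by_cases hx : y.coeff x = 0
  · rw [hx, zero_smul]
    exact Submodule.zero_mem _
  · exact Submodule.smul_mem _ _ (Submodule.subset_span ⟨x, hy x hx, rfl⟩)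

theorem finrank_NN_le {X : Subgroup G} {i : MonoidAlgebra k G} :
    Module.finrank k (NN (SubAlg k X) i i) ≤ Module.finrank k (relCorner X i) := by
  have hfin : FiniteDimensional k (MonoidAlgebra k G) :=
    Module.Finite.equiv (MonoidAlgebra.coeffLinearEquiv k (M := G) (S := k)).symm
  exact Submodule.finrank_mono NN_le_relCorner

theorem smT_of_rel {p n : ℕ} [Fact p.Prime] [IsAlgClosed k] [CharP k p] {b : MonoidAlgebra k G}
    (hb : IsBlockR b) (h : RelSource p n b) : SmT p n n n k G b := by
  obtain ⟨X, D, i, hX, hT, hD, hDn, hbD, hiX, hii, hiD, ⟨x, hx1, hx2⟩, hdim⟩ := h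
  have hb' := isBlockR_iff.mp hb
  obtain ⟨a, ha, hba⟩ := exists_trace hb' (hb'.isSummand hbD)
  refine ⟨X, D, a, i, hX, tw_of_hasTop hT, hD, hDn, ha, hba, hiX, mem_Fix_cj_iff.2 hiD, hii, ?_,
    finrank_NN_le.trans hdim⟩
  intro h
  apply hx2
  have h1 := congrArg (fun f : MonoidAlgebra k G => f.coeff x) h
  simp only [br_coeff, MonoidAlgebra.coeff_zero] at h1
  rwa [if_pos (Subgroup.mem_centralizer_iff.2 fun y hy => hx1 y hy)] at h1

/-- the corner of the average of `V` has dimension at most the number of double cosets -/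
theorem finrank_relCorner_av {X V : Subgroup G} (hVX : V ≤ X) :
    Module.finrank k (relCorner X (av k V)) ≤
      Nat.card (DoubleCoset.Quotient ((V.subgroupOf X : Subgroup X) : Set X)
        ((V.subgroupOf X : Subgroup X) : Set X)) := by
  classical
  have hq : ∀ g h : X, (DoubleCoset.setoid ((V.subgroupOf X : Subgroup X) : Set X)
      ((V.subgroupOf X : Subgroup X) : Set X)) g h →
      av k V * sg k (g : G) * av k V = av k V * sg k (h : G) * av k V := by
    intro g h hgh
    obtain ⟨v, hv, w, hw, rfl⟩ := DoubleCoset.rel_iff.1 hgh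
    have hv' : (v : G) ∈ V := hv
    have hw' : (w : G) ∈ V := hw
    have e1 : ((v * g * w : X) : G) = (v : G) * (g : G) * (w : G) := rfl
    rw [e1, map_mul, map_mul]
    have e2 : av k V * (sg k (v : G) * sg k (g : G) * sg k (w : G)) * av k V =
        av k V * sg k (v : G) * sg k (g : G) * (sg k (w : G) * av k V) := by
      simp only [mul_assoc]
    rw [e2, av_mul_sg V hv', sg_mul_av V hw']
  let f : DoubleCoset.Quotient ((V.subgroupOf X : Subgroup X) : Set X)
      ((V.subgroupOf X : Subgroup X) : Set X) → MonoidAlgebra k G :=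
    Quotient.lift (fun g : X => av k V * sg k (g : G) * av k V) hq
  haveI : Finite (DoubleCoset.Quotient ((V.subgroupOf X : Subgroup X) : Set X)
      ((V.subgroupOf X : Subgroup X) : Set X)) := Quotient.finite _
  haveI := Fintype.ofFinite (DoubleCoset.Quotient ((V.subgroupOf X : Subgroup X) : Set X)
      ((V.subgroupOf X : Subgroup X) : Set X))
  have hspan : relCorner X (av k V) ≤ Submodule.span k (Set.range f) := by
    refine Submodule.span_le.2 ?_
    rintro _ ⟨x, hx, rfl⟩
    exact Submodule.subset_span ⟨Quotient.mk _ ⟨x, hx⟩, rfl⟩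
  have hfin : FiniteDimensional k (MonoidAlgebra k G) :=
    Module.Finite.equiv (MonoidAlgebra.coeffLinearEquiv k (M := G) (S := k)).symm
  have h1 := finrank_range_le_card (R := k) f
  rw [← Nat.card_eq_fintype_card] at h1
  exact (Submodule.finrank_mono hspan).trans h1

theorem relSource_of_dc {p n : ℕ} [Fact p.Prime] [CharP k p] {b : MonoidAlgebra k G}
    {X D V : Subgroup G} (hX : X.Normal) (hT : HasTop p n X) (hD : IsPGroup p D)
    (hDn : Nat.card D ≤ n) (hbD : IsSummandOfInducedR b D) (hVX : V ≤ X)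
    (hV : ¬ p ∣ Nat.card V) (hDV : ∀ x ∈ D, ∀ v ∈ V, x * v * x⁻¹ ∈ V)
    (hdc : Nat.card (DoubleCoset.Quotient ((V.subgroupOf X : Subgroup X) : Set X)
        ((V.subgroupOf X : Subgroup X) : Set X)) ≤ n)
    (hpr : (b.coeff.sum fun _ c => c) ≠ 0) (hbc : ∀ z, z * b = b * z) : RelSource p n b := by
  have hV' : ((Nat.card V : ℕ) : k) ≠ 0 := fun h => hV ((CharP.cast_eq_zero_iff k p _).1 h)
  have hfix : ∀ x ∈ D, sg k x * av k V = av k V * sg k x := by
    intro x hx
    refine av_conj V fun v => ⟨hDV x hx v, fun h => ?_⟩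
    have := hDV x⁻¹ (inv_mem hx) _ h
    simpa [mul_assoc] using this
  refine ⟨X, D, av k V, hX, hT, hD, hDn, hbD, ?_, (av_idem V hV').eq, hfix, ?_,
    (finrank_relCorner_av hVX).trans hdc⟩
  · have h1 : av k V ∈ SubAlg k X := by
      unfold av
      refine Subalgebra.smul_mem _ (Subalgebra.sum_mem _ fun v _ => ?_) _
      exact single_mem_SubAlg (hVX v.2) 1
    exact h1
  · refine exists_of_aug hD (fun x hx => ?_) ?_
    · rw [← sg_apply, ← mul_assoc, hfix x hx, mul_assoc, mul_assoc, ← hbc]
    · rw [map_mul, aug_av V hV', one_mul, aug_apply]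
      exact hpr

end

end Vale.Agent.P180.R2.H667
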