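import Vale.Agent.P180.R2.H667.Cls
import Vale.Agent.P180.R2.H799.Cross

set_option linter.all false

/-!
P180: the first step: defect data and the dimension.
-/

namespace Vale.Agent.P180.R2.H667

open Vale.Agent.P180 Vale.Agent.P180.KP Vale.Agent.P180.H768.Gd Vale.Agent.P180.R2.H365
open Vale.Agent.P180.R2.H799

universe u

section WD

variable {k : Type u} [Field k] {G Γ : Type} [Group G] [Group Γ] [Finite G] [Finite Γ]
variable {X Y : Subgroup G} [X.Normal] {e : MonoidAlgebra k G} {hi : IsIdempotentElem e}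
variable {φ : Γ →* hi.Cornerˣ} {q : Γ →* G} {j : G →* Γ} {m : ℕ}

/-- the section, defined on all of `k[G]` -/
noncomputable def SJ (φ : Γ →* hi.Cornerˣ) (q : Γ →* G) (j : G →* Γ) :
    MonoidAlgebra k G →ₗ[k] MonoidAlgebra k Γ :=
  (LinearMap.mulRight k (kb φ q j)).comp (J k j).toLinearMap

theorem SJ_apply (x : MonoidAlgebra k G) : SJ φ q j x = J k j x * kb φ q j := rfl

theorem sW_eq (y : hi.Corner) : sW φ q j y = SJ φ q j y.1 := rfl

theorem J_cj (g : G) (x : MonoidAlgebra k G) : J k j (cj k G g x) = cj k Γ (j g) (J k j x) := by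
  rw [cj_eq, cj_eq, map_mul, map_mul, J_single, J_single, map_inv]

theorem WD.kb_fix (h : WD X Y hi φ q j m) (x : Γ) : cj k Γ x (kb φ q j) = kb φ q j := by
  rw [cj_eq, ← h.kb_cen, mul_assoc, MonoidAlgebra.single_mul_single, mul_inv_cancel, one_mul,
    ← MonoidAlgebra.one_def, mul_one]

theorem WD.SJ_cj (h : WD X Y hi φ q j m) (g : G) (x : MonoidAlgebra k G) :
    SJ φ q j (cj k G g x) = cj k Γ (j g) (SJ φ q j x) := by
  rw [SJ_apply, SJ_apply, map_mul, h.kb_fix, J_cj]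

/-- the value map -/
noncomputable def TJ (φ : Γ →* hi.Cornerˣ) : MonoidAlgebra k Γ →ₗ[k] MonoidAlgebra k G where
  toFun x := (liftU φ x).1
  map_add' x y := by rw [map_add]; rfl
  map_smul' c x := by rw [map_smul, corner_smul_val]; rfl

theorem TJ_apply (x : MonoidAlgebra k Γ) : TJ φ x = (liftU φ x).1 := rfl

theorem TJ_mul (x y : MonoidAlgebra k Γ) : TJ φ (x * y) = TJ φ x * TJ φ y := by
  rw [TJ_apply, map_mul]; rfl

theorem WD.TJ_cj (h : WD X Y hi φ q j m) (g : G) (x : MonoidAlgebra k Γ) :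
    TJ φ (cj k Γ (j g) x) = cj k G g (TJ φ x) := by
  have h1 : e * TJ φ x = TJ φ x := corner_left hi _
  have h2 : TJ φ x * e = TJ φ x := corner_right hi _
  have h3 : TJ φ (MonoidAlgebra.single (j g) 1) = MonoidAlgebra.single g 1 * e := by
    rw [TJ_apply, liftU_single, one_smul]
    exact h.φj g
  have h4 : TJ φ (MonoidAlgebra.single (j g)⁻¹ 1) = MonoidAlgebra.single g⁻¹ 1 * e := by
    rw [TJ_apply, liftU_single, one_smul, ← map_inv]
    exact h.φj g⁻¹
  rw [cj_eq, cj_eq, TJ_mul, TJ_mul, h3, h4, mul_assoc (MonoidAlgebra.single g 1) e, h1,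
    h.cen (MonoidAlgebra.single g⁻¹ 1), ← mul_assoc, mul_assoc _ (TJ φ x) e, h2]

theorem WD.TJ_SJ {p : ℕ} [Fact p.Prime] [CharP k p] (h : WD X Y hi φ q j m) (hm : ¬ p ∣ m)
    (x : MonoidAlgebra k G) : TJ φ (SJ φ q j x) = x * e := by
  rw [SJ_apply, TJ_mul, TJ_apply, TJ_apply, h.lift_J, h.lift_kb (p := p) hm]
  change x * e * e = x * e
  rw [mul_assoc, hi.eq]

theorem WD.j_inj (h : WD X Y hi φ q j m) : Function.Injective j := fun a b hab => by
  rw [← h.qj a, ← h.qj b, hab]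

theorem WD.SJ_mul {p : ℕ} [Fact p.Prime] [CharP k p] (h : WD X Y hi φ q j m) (hm : ¬ p ∣ m)
    (x y : MonoidAlgebra k G) : SJ φ q j x * SJ φ q j y = SJ φ q j (x * y) := by
  rw [SJ_apply, SJ_apply, SJ_apply, mul_assoc, ← mul_assoc (kb φ q j), h.kb_cen, mul_assoc,
    h.kb_kb (p := p) hm, ← mul_assoc, map_mul]

theorem WD.J_comm (h : WD X Y hi φ q j m) {w : Γ} (hw : q w = 1) {x : MonoidAlgebra k G}
    (hx : x ∈ SubAlg k X) :
    MonoidAlgebra.single w (1 : k) * J k j x = J k j x * MonoidAlgebra.single w 1 := by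
  refine SuppIn.induction (P := fun x => MonoidAlgebra.single w (1 : k) * J k j x =
    J k j x * MonoidAlgebra.single w 1) hx (by simp) ?_ ?_
  · intro a b ha hb
    rw [map_add, mul_add, add_mul, ha, hb]
  · intro g hg c
    rw [map_smul, mul_smul_comm, smul_mul_assoc, J_single, MonoidAlgebra.single_mul_single,
      MonoidAlgebra.single_mul_single, h.comm_X hw hg]

theorem WD.stepA {p : ℕ} [Fact p.Prime] [CharP k p] (h : WD X Y hi φ q j m) (hm : ¬ p ∣ m)
    {D : Subgroup G} {a b i : MonoidAlgebra k G} (hD : IsPGroup p D) (hb : IsBlock b)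
    (hbe : b * e = b) (ha : a ∈ Fix (cj k G) D) (hba : b = tr (cj k G) D ⊤ a) (hii : i * i = i)
    (hiX : i ∈ SubAlg k X) (hie : i * e = i) (hiD : i ∈ Fix (cj k G) D)
    (hbr : br D (i * b) ≠ 0) :
    IsPGroup p (D.map j) ∧ (∃ a₀ ∈ Fix (cj k Γ) (D.map j),
      SJ φ q j b = tr (cj k Γ) (D.map j) ⊤ a₀) ∧ SJ φ q j i * SJ φ q j i = SJ φ q j i ∧
      SJ φ q j i ∈ Fix (cj k Γ) (D.map j) ∧ SJ φ q j i ∈ Fix (cj k Γ) q.ker ∧
      br (D.map j) (SJ φ q j i * SJ φ q j b) ≠ 0 := by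
  have hbB := isBlock_iff.mp hb
  have hbG : ∀ g, cj k G g b = b := fun g => hbB.mem.2 g (Subgroup.mem_top g)
  have hfix : ∀ x ∈ Fix (cj k G) D, SJ φ q j x ∈ Fix (cj k Γ) (D.map j) := by
    rintro x hx _ ⟨d, hd, rfl⟩
    rw [← h.SJ_cj, hx d hd]
  have heb : e * b = b := by rw [← h.cen, hbe]
  have hB : IsBlock (SJ φ q j b) :=
    h.isBlock (β := cornerOf hi b heb hbe) hm hb hbe rfl
  have hBF : SJ φ q j b ∈ Fix (cj k Γ) ⊤ := (isBlock_iff.mp hB).mem.2
  refine ⟨hD.map _, ?_, by rw [h.SJ_mul (p := p) hm, hii], hfix i hiD, ?_, ?_⟩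
  · -- the trace
    have h1 : SJ φ q j b = tr (cj k Γ) (D.map j) ((⊤ : Subgroup G).map j) (SJ φ q j a) := by
      rw [← tr_hom (ρ := cj k Γ) h.j_inj (hfix a ha),
        ← tr_equiv (SJ φ q j) (ρ := cj k G) (σ := (cj k Γ).comp j) (fun x y => h.SJ_cj x y), ← hba]
    have h2 : tr (cj k Γ) (D.map j) ⊤ (SJ φ q j a) = ((Nat.card q.ker : ℕ) : k) • SJ φ q j b := by
      rw [← tr_tr (hfix a ha) (Subgroup.map_mono le_top) (le_top : (⊤ : Subgroup G).map j ≤ ⊤),
        ← h1, tr_of_mem_Fix hBF, Subgroup.relIndex_top_right]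
      congr 2
      have h3 := ((⊤ : Subgroup G).map j).card_mul_index
      have h4 := q.ker.card_mul_index
      have h5 : Nat.card ((⊤ : Subgroup G).map j) = Nat.card G := by
        rw [Subgroup.card_map_of_injective h.j_inj]
        exact Subgroup.card_top
      have h6 : q.ker.index = Nat.card G := by
        rw [Subgroup.index_ker, MonoidHom.range_eq_top.mpr (fun g => ⟨j g, h.qj g⟩)]
        exact Subgroup.card_top
      rw [h5] at h3
      rw [h6, ← h3, mul_comm] at h4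
      exact (Nat.eq_of_mul_eq_mul_left Nat.card_pos h4).symm
    refine ⟨((Nat.card q.ker : ℕ) : k)⁻¹ • SJ φ q j a, Subalgebra.smul_mem _ (hfix a ha) _, ?_⟩
    rw [tr_smul, h2, smul_smul, inv_mul_cancel₀ (h.card_ne (p := p) hm), one_smul]
  · -- the kernel of `q`
    rw [mem_Fix_cj_iff]
    intro w hw
    rw [SJ_apply, ← mul_assoc, h.J_comm hw hiX, mul_assoc, ← h.kb_single_ker hw, mul_assoc]
  · intro h0
    apply hbr
    have h1 : (j.comp D.subtype).range = D.map j := by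
      rw [MonoidHom.range_comp, Subgroup.range_subtype]
    have h2 : D.subtype.range = D := Subgroup.range_subtype D
    have h3 := br_transport (p := p) (α := j.comp D.subtype) (β := D.subtype)
      (h.j_inj.comp D.subtype_injective) D.subtype_injective hD (TJ φ)
      (fun x y => h.TJ_cj x y) (y := SJ φ q j i * SJ φ q j b)
      (by rw [h1]; exact Subalgebra.mul_mem _ (hfix i hiD) (Fix_mono _ le_top hBF))
      (by rw [h1]; exact h0)
    rw [h2, TJ_mul, h.TJ_SJ (p := p) hm, h.TJ_SJ (p := p) hm, hie, hbe] at h3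
    exact h3

end WD

end Vale.Agent.P180.R2.H667
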