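import Vale.Agent.P180.R2.H667.Tw3
import Vale.Agent.P180.R2.H667.Wd4

set_option linter.all false

/-!
P180: the section of the twisted step is graded.
-/

namespace Vale.Agent.P180.R2.H667

open Vale.Agent.P180 Vale.Agent.P180.KP Vale.Agent.P180.H768.Gd Vale.Agent.P180.R2.H365

universe u

section Graded

variable {k : Type u} [Field k] {p : ℕ} [Fact p.Prime] [CharP k p]
variable {T H : Type} [Group T] [Group H] [Finite T] [Finite H]
variable {N : Subgroup T} [N.Normal] {c : MonoidAlgebra k T} {i : MonoidAlgebra k T}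
variable {hi : IsIdempotentElem i} {φ : H →* hi.Cornerˣ} {ε : MonoidAlgebra k H}
variable {s : hi.Corner →ₗ[k] MonoidAlgebra k H} {π : H →* T ⧸ N}

theorem comp_single' {G : Type*} [Group G] {K : Subgroup G} {v : G ⧸ K} {g : G} (r : k)
    (h : (g : G ⧸ K) = v) : comp K v (MonoidAlgebra.single g r) = MonoidAlgebra.single g r :=
  comp_of_supp K v (SuppIn.single (show g ∈ cst K v from h) r)

theorem comp_single_ne {G : Type*} [Group G] {K : Subgroup G} {v : G ⧸ K} {g : G} (r : k)
    (h : (g : G ⧸ K) ≠ v) : comp K v (MonoidAlgebra.single g r) = 0 :=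
  comp_of_supp_ne K h (SuppIn.single (show g ∈ cst K (g : G ⧸ K) from rfl) r)

theorem TwD.lift_comp (h : TwD p N c hi φ ε s π) (z : H) (x : MonoidAlgebra k H) :
    (liftU φ (comp π.ker (z : H ⧸ π.ker) x)).1 = comp N (π z) (liftU φ x).1 := by
  refine ma_induction (P := fun x => (liftU φ (comp π.ker (z : H ⧸ π.ker) x)).1 =
    comp N (π z) (liftU φ x).1) x ?_ ?_ ?_
  · rw [map_zero, map_zero]
    change (0 : MonoidAlgebra k T) = comp N (π z) (0 : MonoidAlgebra k T)
    rw [map_zero]
  · intro a b ha hb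
    rw [map_add, map_add, map_add]
    change (liftU φ _).1 + (liftU φ _).1 = comp N (π z) ((liftU φ a).1 + (liftU φ b).1)
    rw [ha, hb, map_add]
  · intro g r
    have h1 : (liftU φ (MonoidAlgebra.single g r)).1 = r • vl hi (φ g) := by
      rw [liftU_single, corner_smul_val]; rfl
    by_cases hg : (g : H ⧸ π.ker) = z
    · rw [comp_single' r hg, h1]
      have h2 : π g = π z := by
        rw [QuotientGroup.eq] at hg
        have h3 : π (g⁻¹ * z) = 1 := hg
        rw [map_mul, map_inv, inv_mul_eq_one] at h3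
        exact h3
      rw [comp_of_supp N (π z) ((by rw [← h2]; exact (h.supp g).smul r))]
    · rw [comp_single_ne r hg, h1, map_zero]
      have h2 : π g ≠ π z := by
        intro h3
        apply hg
        rw [QuotientGroup.eq]
        change π (g⁻¹ * z) = 1
        rw [map_mul, map_inv, h3, inv_mul_cancel]
      rw [comp_of_supp_ne N h2 ((h.supp g).smul r)]
      rfl

theorem TwD.s_one (h : TwD p N c hi φ ε s π) : s 1 = ε := by
  have h1 := h.sl 1
  rwa [map_one, mul_one] at h1

/-- the idempotent `ε` lies in the central subalgebra -/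
theorem TwD.eps_mem (h : TwD p N c hi φ ε s π) : ε ∈ SubAlg k π.ker := by
  classical
  have hcen : ∀ x : MonoidAlgebra k H, ε * x = x * ε := fun x =>
    ((Subalgebra.mem_center_iff.mp h.cen) x).symm
  have hker : ∀ y ∈ SubAlg k π.ker, ∀ x : MonoidAlgebra k H, x * y = y * x := by
    intro y hy x
    refine SuppIn.induction (P := fun y => x * y = y * x) hy (by rw [mul_zero, zero_mul]) ?_ ?_
    · intro a b ha hb
      rw [mul_add, add_mul, ha, hb]
    · intro g hg r
      rw [mul_smul_comm, smul_mul_assoc]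
      congr 1
      refine ma_induction (P := fun x => x * MonoidAlgebra.single g 1 =
        MonoidAlgebra.single g 1 * x) x (by rw [mul_zero, zero_mul]) ?_ ?_
      · intro a b ha hb
        rw [mul_add, add_mul, ha, hb]
      · intro g' r'
        rw [MonoidAlgebra.single_mul_single, MonoidAlgebra.single_mul_single, h.kc g hg, one_mul,
          mul_one]
  set ε₁ := comp π.ker 1 ε with hε₁
  have hε₁K : ε₁ ∈ SubAlg k π.ker := mem_SubAlg_iff_cst.mpr (comp_supp _ _ _)
  have hlε : liftU φ ε = 1 := by rw [← h.s_one, h.ls]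
  have hone : ((1 : hi.Corner)).1 = i := rfl
  have h1 : ε = ε * ε₁ := by
    have h2 : liftU φ ε₁ = 1 := by
      apply corner_ext
      have h3 := h.lift_comp 1 ε
      rw [map_one, hlε, hone, comp_of_supp N 1 (mem_SubAlg_iff_cst.mp h.mem)] at h3
      exact h3
    rw [← h.sl, h2, h.s_one]
  have h2 : ∀ z : H, π z ≠ 1 → ε₁ * comp π.ker (z : H ⧸ π.ker) ε = 0 := by
    intro z hz
    set x := comp π.ker (z : H ⧸ π.ker) ε with hx
    have h3 : liftU φ x = 0 := by
      apply corner_ext
      rw [hx, h.lift_comp, hlε, hone, comp_of_supp_ne N (Ne.symm hz)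
        (mem_SubAlg_iff_cst.mp h.mem)]
      rfl
    have h4 : ε * x = 0 := by rw [← h.sl, h3, map_zero]
    letI := Fintype.ofFinite (H ⧸ π.ker)
    have h5 : comp π.ker (z : H ⧸ π.ker) (ε * x) = ε₁ * x := by
      conv_lhs => rw [← sum_comp π.ker ε, Finset.sum_mul, map_sum]
      rw [Finset.sum_eq_single (1 : H ⧸ π.ker)]
      · refine comp_of_supp _ _ ?_
        have := mul_supp_cst (comp_supp π.ker (1 : H ⧸ π.ker) ε) (comp_supp π.ker (z : H ⧸ π.ker) ε)
        rwa [one_mul] at this
      · intro u _ hu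
        refine comp_of_supp_ne _ ?_ (mul_supp_cst (comp_supp π.ker u ε)
          (comp_supp π.ker (z : H ⧸ π.ker) ε))
        intro h6
        exact hu (mul_eq_right.mp h6)
      · intro h6
        exact absurd (Finset.mem_univ _) h6
    rw [← h5, h4, map_zero]
  have h3 : ∀ z : H, π z ≠ 1 → comp π.ker (z : H ⧸ π.ker) ε = 0 := by
    intro z hz
    conv_lhs => rw [h1, hker ε₁ hε₁K, comp_mul_left hε₁K]
    exact h2 z hz
  letI := Fintype.ofFinite (H ⧸ π.ker)
  have h4 : ε = ε₁ := by
    conv_lhs => rw [← sum_comp π.ker ε]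
    rw [Finset.sum_eq_single (1 : H ⧸ π.ker)]
    · intro u _ hu
      obtain ⟨z, rfl⟩ := QuotientGroup.mk_surjective u
      apply h3
      intro hz
      exact hu ((QuotientGroup.eq_one_iff z).mpr hz)
    · intro h6
      exact absurd (Finset.mem_univ _) h6
  rw [h4]
  exact hε₁K

variable {M : Subgroup H} [M.Normal] {M' : Subgroup T} [M'.Normal]

theorem TwD.lift_comp_M (h : TwD p N c hi φ ε s π) (hN : N ≤ M')
    (hM : ∀ (z : H) (t : T), π z = (t : T ⧸ N) → (z ∈ M ↔ t ∈ M')) (x : MonoidAlgebra k H) :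
    (liftU φ (comp M 1 x)).1 = comp M' 1 (liftU φ x).1 := by
  refine ma_induction (P := fun x => (liftU φ (comp M 1 x)).1 =
    comp M' 1 (liftU φ x).1) x ?_ ?_ ?_
  · rw [map_zero, map_zero]
    change (0 : MonoidAlgebra k T) = comp M' 1 (0 : MonoidAlgebra k T)
    rw [map_zero]
  · intro a b ha hb
    rw [map_add, map_add, map_add]
    change (liftU φ _).1 + (liftU φ _).1 = comp M' 1 ((liftU φ a).1 + (liftU φ b).1)
    rw [ha, hb, map_add]
  · intro g r
    have h1 : (liftU φ (MonoidAlgebra.single g r)).1 = r • vl hi (φ g) := by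
      rw [liftU_single, corner_smul_val]; rfl
    obtain ⟨t, ht⟩ := QuotientGroup.mk_surjective (π g)
    have h2 : SuppIn (cst M' (t : T ⧸ M')) (vl hi (φ g)) := by
      refine (h.supp g).mono ?_
      intro y hy
      have h3 : (y : T ⧸ N) = π g := hy
      rw [← ht, QuotientGroup.eq] at h3
      exact QuotientGroup.eq.mpr (hN h3)
    by_cases hg : g ∈ M
    · have h3 : t ∈ M' := (hM g t ht.symm).mp hg
      rw [comp_single' r ((QuotientGroup.eq_one_iff g).mpr hg), h1]
      rw [(QuotientGroup.eq_one_iff t).mpr h3] at h2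
      rw [comp_of_supp M' 1 (h2.smul r)]
    · have h3 : ¬ t ∈ M' := fun h4 => hg ((hM g t ht.symm).mpr h4)
      rw [comp_single_ne r (fun h4 => hg ((QuotientGroup.eq_one_iff g).mp h4)), h1, map_zero,
        comp_of_supp_ne M' (fun h4 => h3 ((QuotientGroup.eq_one_iff t).mp h4)) (h2.smul r)]
      rfl

theorem TwD.lift_mem (h : TwD p N c hi φ ε s π) (hN : N ≤ M')
    (hM : ∀ (z : H) (t : T), π z = (t : T ⧸ N) → (z ∈ M ↔ t ∈ M')) {x : MonoidAlgebra k H}
    (hx : x ∈ SubAlg k M) : (liftU φ x).1 ∈ SubAlg k M' := by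
  have h1 := h.lift_comp_M hN hM x
  rw [comp_of_supp M 1 (mem_SubAlg_iff_cst.mp hx)] at h1
  rw [h1]
  exact mem_SubAlg_iff_cst.mpr (comp_supp _ _ _)

theorem TwD.s_mem (h : TwD p N c hi φ ε s π) (hN : N ≤ M')
    (hM : ∀ (z : H) (t : T), π z = (t : T ⧸ N) → (z ∈ M ↔ t ∈ M')) {y : hi.Corner}
    (hy : y.1 ∈ SubAlg k M') : s y ∈ SubAlg k M := by
  have hK : π.ker ≤ M := by
    intro z hz
    exact (hM z 1 (by rw [show π z = 1 from hz]; rfl)).mpr M'.one_mem
  have h1 : liftU φ (comp M 1 (s y)) = y := by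
    apply corner_ext
    rw [h.lift_comp_M hN hM, h.ls, comp_of_supp M' 1 (mem_SubAlg_iff_cst.mp hy)]
  have h2 : s y = ε * comp M 1 (s y) := by rw [← h.sl, h1]
  rw [h2]
  exact Subalgebra.mul_mem _ (h.eps_mem.mono hK) (mem_SubAlg_iff_cst.mpr (comp_supp _ _ _))

end Graded

end Vale.Agent.P180.R2.H667
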