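import Vale.Agent.P180.R2.H667.St1
import Vale.Agent.P180.R2.H667.St2

set_option linter.all false

/-!
P180: the first step: the corner.
-/

namespace Vale.Agent.P180.R2.H667

open Vale.Agent.P180 Vale.Agent.P180.KP Vale.Agent.P180.H768.Gd Vale.Agent.P180.R2.H365
open Vale.Agent.P180.R2.H799

universe u

section WD

variable {k : Type u} [Field k] {G Γ : Type} [Group G] [Group Γ] [Finite G] [Finite Γ]
variable {X Y : Subgroup G} [X.Normal] {e : MonoidAlgebra k G} {hi : IsIdempotentElem e}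
variable {φ : Γ →* hi.Cornerˣ} {q : Γ →* G} {j : G →* Γ} {m : ℕ}

theorem WD.J_mem (h : WD X Y hi φ q j m) {S : Subgroup G} {x : MonoidAlgebra k G}
    (hx : x ∈ SubAlg k S) : J k j x ∈ SubAlg k (S.comap q) := by
  refine SuppIn.induction (P := fun x => J k j x ∈ SubAlg k (S.comap q)) hx ?_ ?_ ?_
  · rw [map_zero]; exact Subalgebra.zero_mem _
  · intro a b ha hb
    rw [map_add]; exact Subalgebra.add_mem _ ha hb
  · intro g hg c
    rw [map_smul, J_single]
    refine Subalgebra.smul_mem _ ?_ c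
    refine SuppIn.single ?_ 1
    change q (j g) ∈ S
    rw [h.qj]; exact hg

theorem WD.supp_mem (h : WD X Y hi φ q j m) (hXY : X ≤ Y) {w : Γ} (hw : q w = 1) :
    vl hi (φ w) ∈ SubAlg k Y := by
  obtain ⟨y, hy, hs⟩ := h.supp w hw
  refine hs.mono ?_
  intro x hx
  have h1 : (x : G ⧸ X) = y := hx
  rw [eq_comm, QuotientGroup.eq] at h1
  have h2 : x = y * (y⁻¹ * x) := by group
  rw [h2]
  exact Y.mul_mem hy (hXY h1)

theorem WD.kb_mem (h : WD X Y hi φ q j m) (hXY : X ≤ Y) :
    kb φ q j ∈ SubAlg k (Y.comap q) := by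
  classical
  unfold kb
  refine Subalgebra.smul_mem _ (Subalgebra.sum_mem _ fun w _ => ?_) _
  unfold ka
  refine Subalgebra.mul_mem _ (SuppIn.single ?_ 1) (h.J_mem (h.supp_mem hXY w.2))
  change q (w.1)⁻¹ ∈ Y
  rw [map_inv, show q w.1 = 1 from w.2, inv_one]
  exact Y.one_mem

theorem WD.SJ_mem (h : WD X Y hi φ q j m) (hXY : X ≤ Y) {x : MonoidAlgebra k G}
    (hx : x ∈ SubAlg k Y) : SJ φ q j x ∈ SubAlg k (Y.comap q) :=
  Subalgebra.mul_mem _ (h.J_mem hx) (h.kb_mem hXY)

/-- the blocks of the kernel of `q` are stable under the preimage of `Y` -/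
theorem WD.stab (h : WD X Y hi φ q j m) {c : MonoidAlgebra k Γ} (hc : c ∈ ZAlg k q.ker)
    {x : Γ} (hx : q x ∈ Y) : cj k Γ x c = c := by
  obtain ⟨w, hw, hs⟩ := h.sur (q x) hx
  have h1 : x = (x * (j (q x))⁻¹) * j (q x) := by group
  have h2 : cj k Γ (j (q x)) c = cj k Γ w c := by
    refine SuppIn.induction (P := fun c => cj k Γ (j (q x)) c = cj k Γ w c) hc.1 (by simp) ?_ ?_
    · intro a b ha hb
      rw [map_add, map_add, ha, hb]
    · intro v hv r
      rw [map_smul, map_smul]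
      congr 1
      have h3 := h.conj_eq hw (show q v = 1 from hv) hs
      rw [cj_eq, cj_eq, MonoidAlgebra.single_mul_single, MonoidAlgebra.single_mul_single,
        MonoidAlgebra.single_mul_single, MonoidAlgebra.single_mul_single, h3]
  rw [h1, map_mul_act, h2, hc.2 w hw, hc.2 _ (h.dec x)]

theorem WD.J_comm' (h : WD X Y hi φ q j m) {y : MonoidAlgebra k Γ} (hy : y ∈ SubAlg k q.ker)
    {x : MonoidAlgebra k G} (hx : x ∈ SubAlg k X) : y * J k j x = J k j x * y := by
  refine SuppIn.induction (P := fun y => y * J k j x = J k j x * y) hy (by simp) ?_ ?_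
  · intro a b ha hb
    rw [mul_add, add_mul, ha, hb]
  · intro g hg c
    rw [mul_smul_comm, smul_mul_assoc, h.J_comm hg hx]

theorem WD.corner (h : WD X Y hi φ q j m) {p : ℕ} [Fact p.Prime] [CharP k p] (hm : ¬ p ∣ m)
    {i₂ : MonoidAlgebra k Γ} (hi₂ : i₂ ∈ SubAlg k q.ker)
    (hrank : ∀ y ∈ SubAlg k q.ker, ∃ t : k, i₂ * y * i₂ = t • i₂) {i : MonoidAlgebra k G}
    (hiX : i ∈ SubAlg k X) (hii : i * i = i) {z : MonoidAlgebra k Γ}
    (hz : z ∈ SubAlg k (Y.comap q)) :
    ∃ x ∈ NN (SubAlg k X) i i, (i₂ * SJ φ q j i) * z * (i₂ * SJ φ q j i) = i₂ * SJ φ q j x := by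
  have hkb := h.kb_kb (p := p) hm
  have hcen : ∀ x : MonoidAlgebra k Γ, kb φ q j * x = x * kb φ q j := h.kb_cen
  refine SuppIn.induction (P := fun z => ∃ x ∈ NN (SubAlg k X) i i,
    (i₂ * SJ φ q j i) * z * (i₂ * SJ φ q j i) = i₂ * SJ φ q j x) hz ?_ ?_ ?_
  · exact ⟨0, Submodule.zero_mem _, by rw [mul_zero, zero_mul, map_zero, mul_zero]⟩
  · rintro a b ⟨x, hx, hx'⟩ ⟨y, hy, hy'⟩
    exact ⟨x + y, Submodule.add_mem _ hx hy, by rw [mul_add, add_mul, hx', hy', map_add, mul_add]⟩
  · intro g hg c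
    obtain ⟨w, hw, hs⟩ := h.sur (q g) hg
    have hw' := h.dec g
    -- the element of `k[X]`
    obtain ⟨x, hx⟩ : ∃ x, x = vl hi (φ w)⁻¹ * (MonoidAlgebra.single (q g) (1 : k) * e) := ⟨_, rfl⟩
    have hsi : SuppIn (cst X ((q g : G) : G ⧸ X)⁻¹) (vl hi (φ w)⁻¹) := by
      obtain ⟨y, hy, hs'⟩ := h.supp w⁻¹ (by rw [map_inv, hw, inv_one])
      rw [map_inv] at hs'
      have h1 : SuppIn (cst X ((q g : G ⧸ X) * (y : G ⧸ X))) e := by
        have := mul_supp_cst hs hs'
        rwa [vl_vl_inv] at this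
      have h2 : SuppIn (cst X (1 : G ⧸ X)) e := mem_SubAlg_iff_cst.mp h.mem
      have h3 : (q g : G ⧸ X) * (y : G ⧸ X) = 1 := by
        by_contra hne
        apply h.ne
        apply MonoidAlgebra.coeff_injective
        ext u
        by_contra hu
        exact hne ((h1 u hu).symm.trans (h2 u hu))
      rw [eq_inv_of_mul_eq_one_right h3] at hs'
      exact hs'
    have hxX : x ∈ SubAlg k X := by
      rw [mem_SubAlg_iff_cst, hx]
      have h1 : SuppIn (cst X ((q g : G) : G ⧸ X)) (MonoidAlgebra.single (q g) (1 : k)) :=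
        SuppIn.single (show q g ∈ cst X ((q g : G) : G ⧸ X) from rfl) 1
      have h2 := mul_supp_cst hsi (mul_supp_cst h1 (mem_SubAlg_iff_cst.mp h.mem))
      rwa [mul_one, inv_mul_cancel] at h2
    have hvx : vl hi (φ w) * x = MonoidAlgebra.single (q g) (1 : k) * e := by
      rw [hx, ← mul_assoc, vl_vl_inv, h.cen, ← mul_assoc, hi.eq]
    have hgk : MonoidAlgebra.single g (1 : k) * kb φ q j =
        MonoidAlgebra.single (g * (j (q g))⁻¹ * w) 1 * (J k j x * kb φ q j) := by
      have h1 : J k j (MonoidAlgebra.single (q g) 1) * kb φ q j =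
          MonoidAlgebra.single w 1 * (J k j x * kb φ q j) := by
        rw [← h.Je_kb, ← mul_assoc, ← map_mul, ← hvx, map_mul, mul_assoc, ← hcen, ← mul_assoc,
          h.J_kb hw, mul_assoc, h.Je_kb, hcen]
      have h2 : MonoidAlgebra.single g (1 : k) = MonoidAlgebra.single (g * (j (q g))⁻¹) 1 *
          J k j (MonoidAlgebra.single (q g) 1) := by
        rw [J_single, MonoidAlgebra.single_mul_single, inv_mul_cancel_right, one_mul]
      rw [h2, mul_assoc, h1, ← mul_assoc, MonoidAlgebra.single_mul_single, one_mul]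
    have hqg : g * (j (q g))⁻¹ * w ∈ q.ker := by
      change q (g * (j (q g))⁻¹ * w) = 1
      rw [map_mul, hw', hw, one_mul]
    have hsg : MonoidAlgebra.single (g * (j (q g))⁻¹ * w) (1 : k) ∈ SubAlg k q.ker :=
      SuppIn.single hqg 1
    obtain ⟨t, ht⟩ := hrank _ hsg
    have hiJ : i₂ * J k j i = J k j i * i₂ := h.J_comm' hi₂ hiX
    have hmain : (i₂ * SJ φ q j i) * MonoidAlgebra.single g (1 : k) * (i₂ * SJ φ q j i) =
        t • (i₂ * SJ φ q j (i * x * i)) := by
      have hsX : J k j i * MonoidAlgebra.single (g * (j (q g))⁻¹ * w) 1 =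
          MonoidAlgebra.single (g * (j (q g))⁻¹ * w) (1 : k) * J k j i :=
        (h.J_comm' hsg hiX).symm
      calc (i₂ * SJ φ q j i) * MonoidAlgebra.single g (1 : k) * (i₂ * SJ φ q j i)
          = i₂ * J k j i * (MonoidAlgebra.single g (1 : k) * kb φ q j) * i₂ * J k j i *
              kb φ q j := by
            rw [SJ_apply]
            simp only [mul_assoc]
            rw [← mul_assoc (kb φ q j) (MonoidAlgebra.single g 1), hcen (MonoidAlgebra.single g 1)]
            simp only [mul_assoc]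
        _ = i₂ * (J k j i * MonoidAlgebra.single (g * (j (q g))⁻¹ * w) 1) * J k j x *
              (i₂ * kb φ q j) * J k j i * kb φ q j := by
            rw [hgk, ← hcen i₂]
            simp only [mul_assoc]
        _ = i₂ * MonoidAlgebra.single (g * (j (q g))⁻¹ * w) 1 * (J k j i * (J k j x * i₂)) *
              (kb φ q j * J k j i) * kb φ q j := by
            rw [hsX]; simp only [mul_assoc]
        _ = (i₂ * MonoidAlgebra.single (g * (j (q g))⁻¹ * w) 1 * i₂) *
              (J k j i * J k j x * J k j i) * (kb φ q j * kb φ q j) := by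
            rw [← h.J_comm' hi₂ hxX, ← mul_assoc (J k j i) i₂, ← hiJ, hcen (J k j i)]
            simp only [mul_assoc]
        _ = t • (i₂ * SJ φ q j (i * x * i)) := by
            rw [ht, hkb, ← map_mul, ← map_mul, SJ_apply, smul_mul_assoc, smul_mul_assoc, mul_assoc]
    refine ⟨(c * t) • (i * x * i), Submodule.smul_mem _ _ (mul_mul_mem_NN hii hii hiX hiX hxX), ?_⟩
    rw [mul_smul_comm, smul_mul_assoc, hmain, smul_smul, map_smul, mul_smul_comm]

end WD

end Vale.Agent.P180.R2.H667
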