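import Vale.Agent.P180.R2.H667.St3
import Vale.Agent.P180.R2.H667.Br2

set_option linter.all false

/-!
P180: the step for a `p'`-group of inner automorphisms.
-/

namespace Vale.Agent.P180.R2.H667

open Vale.Agent.P180 Vale.Agent.P180.H768.Gd Vale.Agent.P180.R2.H365
open Vale.Agent.P180.R2.H799

universe u

theorem step_U2 {k : Type u} [Field k] [IsAlgClosed k] {p : ℕ} [Fact p.Prime] [CharP k p]
    {P : ∀ (G : Type) [Group G], MonoidAlgebra k G → Prop} (hP : Cl k p P)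
    {G : Type} [Group G] [Finite G] {X Y : Subgroup G} [X.Normal] [Y.Normal]
    {e : MonoidAlgebra k G} (he : IsBlockOf X e) (heG : ∀ g, cj k G g e = e) (hXY : X ≤ Y)
    (hY : Y ≤ Ge he) (hp : ¬ p ∣ X.relIndex Y) {D : Subgroup G} {a b i : MonoidAlgebra k G}
    (hD : IsPGroup p D) (hb : IsBlock b) (hbe : b * e = b) (ha : a ∈ Fix (cj k G) D)
    (hba : b = tr (cj k G) D ⊤ a) (hii : i * i = i) (hiX : i ∈ SubAlg k X) (hie : i * e = i)
    (hiD : i ∈ Fix (cj k G) D) (hbr : br D (i * b) ≠ 0) :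
    ∃ (H : Type) (_ : Group H) (_ : Finite H) (f : H →* G) (D' : Subgroup H)
      (a' b' i' : MonoidAlgebra k H), IsPGroup p D' ∧ Nat.card D' = Nat.card D ∧
      D'.map f = D ∧ IsBlock b' ∧ a' ∈ Fix (cj k H) D' ∧ b' = tr (cj k H) D' ⊤ a' ∧
      i' * i' = i' ∧ i' ∈ SubAlg k (Y.comap f) ∧ i' ∈ Fix (cj k H) D' ∧
      br D' (i' * b') ≠ 0 ∧
      Module.finrank k (NN (SubAlg k (Y.comap f)) i' i') ≤
        Module.finrank k (NN (SubAlg k X) i i) ∧ (P H b' → P G b) := by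
  obtain ⟨Γ, _, _, φ, q, j, h⟩ := exists_WD (p := p) he heG hXY hY hp
  obtain ⟨hD₀, ⟨a₀, ha₀, hba₀⟩, hi₀, hi₀D, hi₀N, hbr₀⟩ :=
    h.stepA (p := p) hp hD hb hbe ha hba hii hiX hie hiD hbr
  have heb : e * b = b := by rw [← h.cen, hbe]
  have hB : IsBlock (SJ φ q j b) :=
    h.isBlock (β := cornerOf he.idem b heb hbe) hp hb hbe rfl
  have hBF : SJ φ q j b ∈ Fix (cj k Γ) ⊤ := (isBlock_iff.mp hB).mem.2
  have hBc : ∀ x, x * SJ φ q j b = SJ φ q j b * x := fun x => commute_of_mem (SubAlg_top x) hBF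
  obtain ⟨D₀, hD₀def⟩ : ∃ D₀, D₀ = D.map j := ⟨_, rfl⟩
  rw [← hD₀def] at hD₀ ha₀ hba₀ hi₀D hbr₀
  obtain ⟨u, hu⟩ : ∃ u, u = SJ φ q j i := ⟨_, rfl⟩
  obtain ⟨b₁, hb₁⟩ : ∃ b₁, b₁ = SJ φ q j b := ⟨_, rfl⟩
  rw [← hb₁] at hB hBF hBc hba₀ hbr₀
  rw [← hu] at hi₀ hi₀D hi₀N hbr₀
  -- the stable block of the kernel
  obtain ⟨c, hc, hcD, hbrc⟩ := exists_stable (N := q.ker) hD₀ (u := u * b₁)
    (Subalgebra.mul_mem _ hi₀D (Fix_mono _ le_top hBF)) hbr₀
  rw [mul_assoc] at hbrc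
  obtain ⟨b₂, hb₂, hb₂c, a₂, ha₂, hba₂⟩ := fr_data hc hB hD₀ hcD ha₀ hba₀ hi₀D hbrc
  obtain ⟨T, hT⟩ : ∃ T, T = stabE c := ⟨_, rfl⟩
  have hDT : D₀ ≤ stabE c := fun d hd => by rw [mem_stabE]; exact hcD d hd
  have hYT : Y.comap q ≤ stabE c := fun x hx => by
    rw [mem_stabE]; exact h.stab hc.mem hx
  have hNY : q.ker ≤ Y.comap q := fun x hx => by
    change q x ∈ Y
    rw [show q x = 1 from hx]
    exact Y.one_mem
  have hNT : q.ker ≤ stabE c := hNY.trans hYT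
  have hcc : c * c = c := hc.idem.eq
  have huY : u ∈ SubAlg k (Y.comap q) := by rw [hu]; exact h.SJ_mem hXY (hiX.mono hXY)
  have hcY : c ∈ SubAlg k (Y.comap q) := hc.mem.1.mono hNY
  have huc : c * u = u * c := commute_of_mem hc.mem.1 hi₀N
  obtain ⟨c', hc'⟩ := exists_incl (stabE c) (hcY.mono hYT)
  obtain ⟨i₁, hi₁⟩ := exists_incl (stabE c) ((Subalgebra.mul_mem _ huY hcY).mono hYT)
  have hinj := incl_injective (k := k) (stabE c)
  have hc'B : IsBlockOf (q.ker.subgroupOf (stabE c)) c' := by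
    rw [isBlockOf_subgroupOf_iff hNT, hc']
    exact hc
  have hc'T : ∀ g, cj k (stabE c) g c' = c' := by
    intro g
    apply hinj
    rw [incl_cj, hc']
    exact mem_stabE.mp g.2
  have hb₂c' : b₂ * c' = b₂ := by
    apply hinj
    rw [map_mul, hb₂c, hc', mul_assoc, hcc]
  have hi₁i₁ : i₁ * i₁ = i₁ := by
    apply hinj
    rw [map_mul, hi₁, mul_assoc, ← mul_assoc c, huc, mul_assoc u, hcc, ← mul_assoc, hi₀]
  have hi₁c' : i₁ * c' = i₁ := by
    apply hinj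
    rw [map_mul, hi₁, hc', mul_assoc, hcc]
  have hmapN : (q.ker.subgroupOf (stabE c)).map (stabE c).subtype = q.ker :=
    Subgroup.map_subgroupOf_eq_of_le hNT
  have hmapD : (D₀.subgroupOf (stabE c)).map (stabE c).subtype = D₀ :=
    Subgroup.map_subgroupOf_eq_of_le hDT
  have hmapY : ((Y.comap q).subgroupOf (stabE c)).map (stabE c).subtype = Y.comap q :=
    Subgroup.map_subgroupOf_eq_of_le hYT
  have hi₁N : i₁ ∈ Fix (cj k (stabE c)) (q.ker.subgroupOf (stabE c)) := by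
    rw [← incl_mem_Fix_iff, hmapN, hi₁]
    exact Subalgebra.mul_mem _ hi₀N hc.mem.2
  have hi₁D : i₁ ∈ Fix (cj k (stabE c)) (D₀.subgroupOf (stabE c)) := by
    rw [← incl_mem_Fix_iff, hmapD, hi₁]
    exact Subalgebra.mul_mem _ hi₀D (fun d hd => hcD d hd)
  have hbr₁ : br (D₀.subgroupOf (stabE c)) (i₁ * b₂) ≠ 0 := by
    intro h0
    apply hbrc
    have h1 := br_incl hDT (i₁ * b₂)
    rw [h0, map_zero, map_mul, hi₁, hb₂c] at h1
    rw [h1]
    congr 1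
    rw [mul_assoc, ← mul_assoc c, hBc c, mul_assoc b₁, hcc]
  have hcardN : ¬ p ∣ Nat.card (q.ker.subgroupOf (stabE c)) := by
    rw [Nat.card_congr (Subgroup.subgroupOfEquivOfLe hNT).toEquiv]
    exact h.card_ker hp
  -- the twisted step
  obtain ⟨H, _, _, i₂, hi₂, φ', ε, s, π, hTw, hPtw⟩ := hP.tw hcardN hc'B hc'T hb₂ hb₂c'
  have hb₂F : b₂ ∈ Fix (cj k (stabE c)) ⊤ := (isBlock_iff.mp hb₂).mem.2
  have hb₂c'' : ∀ x, x * b₂ = b₂ * x := fun x => commute_of_mem (SubAlg_top x) hb₂F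
  have hi₂i₁ : i₂ * i₁ = i₁ * i₂ := commute_of_mem hTw.mem hi₁N
  obtain ⟨β, hβ⟩ : ∃ β : hi₂.Corner, β.1 = i₂ * b₂ :=
    ⟨cornerOf hi₂ (i₂ * b₂) (by rw [← mul_assoc, hi₂.eq])
      (by rw [mul_assoc, ← hb₂c'', ← mul_assoc, hi₂.eq]), rfl⟩
  obtain ⟨ι, hι⟩ : ∃ ι : hi₂.Corner, ι.1 = i₂ * i₁ :=
    ⟨cornerOf hi₂ (i₂ * i₁) (by rw [← mul_assoc, hi₂.eq])
      (by rw [mul_assoc, ← hi₂i₁, ← mul_assoc, hi₂.eq]), rfl⟩
  have hD₁ : IsPGroup p (D₀.subgroupOf (stabE c)) :=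
    hD₀.of_equiv (Subgroup.subgroupOfEquivOfLe hDT).symm
  obtain ⟨D', δ, a', hD', hδi, hδr, hδπ, ha', hba', hιι, hιD, hbr'⟩ :=
    hTw.step hc'B hc'T hcardN hD₁ hb₂ hb₂c' ha₂ hba₂ hi₁i₁ hi₁N hi₁D hi₁c' hbr₁ hβ hι
  -- the map to `G`
  obtain ⟨ℓ, hℓ⟩ : ∃ ℓ : (stabE c) ⧸ (q.ker.subgroupOf (stabE c)) →* G, ∀ t : stabE c,
      ℓ (t : (stabE c) ⧸ (q.ker.subgroupOf (stabE c))) = q t :=
    ⟨QuotientGroup.lift _ (q.comp (stabE c).subtype) (fun t ht => ht), fun t => rfl⟩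
  let f : H →* G := ℓ.comp π
  have hf : ∀ (z : H) (t : stabE c), π z = (t : (stabE c) ⧸ (q.ker.subgroupOf (stabE c))) →
      f z = q t := by
    intro z t hzt
    change ℓ (π z) = q t
    rw [hzt, hℓ]
  have hM : ∀ (z : H) (t : stabE c), π z = (t : (stabE c) ⧸ (q.ker.subgroupOf (stabE c))) →
      (z ∈ Y.comap f ↔ t ∈ (Y.comap q).subgroupOf (stabE c)) := by
    intro z t hzt
    rw [Subgroup.mem_comap, hf z t hzt, Subgroup.mem_subgroupOf, Subgroup.mem_comap]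
  have hNM : q.ker.subgroupOf (stabE c) ≤ (Y.comap q).subgroupOf (stabE c) :=
    Subgroup.comap_mono hNY
  have hi₁M : i₁ ∈ SubAlg k ((Y.comap q).subgroupOf (stabE c)) := by
    rw [← incl_mem_SubAlg_iff, hmapY, hi₁]
    exact Subalgebra.mul_mem _ huY hcY
  have hιM : ι.1 ∈ SubAlg k ((Y.comap q).subgroupOf (stabE c)) := by
    rw [hι]
    exact Subalgebra.mul_mem _ (hTw.mem.mono hNM) hi₁M
  -- the idempotent in `k[Γ]`
  obtain ⟨i₃, hi₃⟩ : ∃ i₃, i₃ = incl k (stabE c) i₂ := ⟨_, rfl⟩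
  have hi₃N : i₃ ∈ SubAlg k q.ker := by
    rw [hi₃, ← hmapN, incl_mem_SubAlg_iff]
    exact hTw.mem
  have hi₃r : ∀ y ∈ SubAlg k q.ker, ∃ t : k, i₃ * y * i₃ = t • i₃ := by
    intro y hy
    obtain ⟨y', rfl⟩ := exists_incl (stabE c) (hy.mono hNT)
    rw [← hmapN, incl_mem_SubAlg_iff] at hy
    obtain ⟨t, ht⟩ := hTw.rank y' hy
    exact ⟨t, by rw [hi₃, ← map_mul, ← map_mul, ht, map_smul]⟩
  have hιu : incl k (stabE c) ι.1 = i₃ * u := by
    rw [hι, map_mul, hi₁, ← hi₃, ← huc, ← mul_assoc]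
    have h1 : i₃ * c = i₃ := by
      calc i₃ * c = incl k (stabE c) i₂ * incl k (stabE c) c' := by rw [hi₃, hc']
        _ = incl k (stabE c) (i₂ * c') := (map_mul _ _ _).symm
        _ = i₃ := by rw [hTw.ie, hi₃]
    rw [h1]
  refine ⟨H, inferInstance, inferInstance, f, D', a', s β, s ι, hD', ?_, ?_,
    hTw.isBlock hc'T hb₂ hb₂c' hβ hc'B.idem.eq, ha', hba', hιι, hTw.s_mem hNM hM hιM, hιD,
    hbr', ?_, ?_⟩
  · -- cardinality
    have h1 : Nat.card D' = Nat.card δ.range := Nat.card_congr (MonoidHom.ofInjective hδi).toEquiv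
    rw [h1, hδr, Nat.card_congr (Subgroup.subgroupOfEquivOfLe hDT).toEquiv, hD₀def,
      Subgroup.card_map_of_injective h.j_inj]
  · -- the image
    ext d
    constructor
    · rintro ⟨z, hz, rfl⟩
      rw [hf z (δ ⟨z, hz⟩) (hδπ ⟨z, hz⟩)]
      have h1 : δ ⟨z, hz⟩ ∈ D₀.subgroupOf (stabE c) := by rw [← hδr]; exact ⟨_, rfl⟩
      have h2 : ((δ ⟨z, hz⟩ : stabE c) : Γ) ∈ D₀ := h1
      rw [hD₀def] at h2
      obtain ⟨d', hd', hd''⟩ := h2
      rw [← hd'', h.qj]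
      exact hd'
    · intro hd
      have h1 : j d ∈ D₀ := by rw [hD₀def]; exact ⟨d, hd, rfl⟩
      have h2 : (⟨j d, hDT h1⟩ : stabE c) ∈ δ.range := by
        rw [hδr]; exact h1
      obtain ⟨x, hx⟩ := h2
      refine ⟨x, x.2, ?_⟩
      rw [hf x (δ x) (hδπ x), hx, h.qj]
  · -- the dimension
    let L : MonoidAlgebra k G →ₗ[k] MonoidAlgebra k Γ :=
      (LinearMap.mulLeft k i₃).comp (SJ φ q j)
    have hfin : FiniteDimensional k (MonoidAlgebra k G) :=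
      Module.Finite.equiv (MonoidAlgebra.coeffLinearEquiv k (M := G) (S := k)).symm
    have hfin' : FiniteDimensional k (MonoidAlgebra k Γ) :=
      Module.Finite.equiv (MonoidAlgebra.coeffLinearEquiv k (M := Γ) (S := k)).symm
    let Ψ : MonoidAlgebra k H →ₗ[k] MonoidAlgebra k Γ :=
      (incl k (stabE c)).toLinearMap.comp (TJ φ')
    have hΨ : ∀ x, Ψ x = incl k (stabE c) (liftU φ' x).1 := fun x => rfl
    have hmem : ∀ x ∈ NN (SubAlg k (Y.comap f)) (s ι) (s ι),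
        Ψ x ∈ (NN (SubAlg k X) i i).map L := by
      intro x hx
      have h1 : x = s ι * x * s ι := by rw [hx.2.1, hx.2.2]
      have h2 : (liftU φ' x).1 = ι.1 * (liftU φ' x).1 * ι.1 := by
        conv_lhs => rw [h1, map_mul, map_mul, hTw.ls]
        rfl
      have h3 : (liftU φ' x).1 ∈ SubAlg k ((Y.comap q).subgroupOf (stabE c)) :=
        hTw.lift_mem hNM hM hx.1
      obtain ⟨y, hy, hy'⟩ := h.corner (p := p) hp hi₃N hi₃r hiX hii
        (z := incl k (stabE c) (liftU φ' x).1) (by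
          rw [← hmapY, incl_mem_SubAlg_iff]; exact h3)
      refine ⟨y, hy, ?_⟩
      rw [hΨ, h2, map_mul, map_mul, hιu]
      rw [← hu] at hy'
      exact hy'.symm
    let Ψ' : NN (SubAlg k (Y.comap f)) (s ι) (s ι) →ₗ[k] (NN (SubAlg k X) i i).map L :=
      (Ψ.comp (NN (SubAlg k (Y.comap f)) (s ι) (s ι)).subtype).codRestrict _
        (fun x => hmem x.1 x.2)
    have hΨ' : Function.Injective Ψ' := by
      rw [← LinearMap.ker_eq_bot, LinearMap.ker_eq_bot']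
      rintro ⟨x, hx⟩ h0
      apply Subtype.ext
      have h1 : Ψ x = 0 := congrArg Subtype.val h0
      rw [hΨ] at h1
      have h2 : (liftU φ' x).1 = 0 := hinj (by rw [h1, map_zero])
      have h3 : liftU φ' x = 0 := corner_ext h2
      have h4 : s ι * x = s (ι * liftU φ' x) := s_mul_right hTw.cen hTw.sl hTw.ls x ι
      rw [h3, mul_zero, map_zero, hx.2.1] at h4
      exact h4
    exact (LinearMap.finrank_le_finrank_of_injective hΨ').trans (Submodule.finrank_map_le _ _)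
  · -- the property
    intro hPH
    have h1 := hPtw β hβ hPH
    have h2 := hP.fr hc hB (fun h0 => hb₂.ne_zero (hinj (by rw [hb₂c, h0, map_zero]))) hb₂ hb₂c h1
    rw [hb₁] at h2
    exact hP.wd h hp hb hbe (β := cornerOf he.idem b heb hbe) rfl h2

end Vale.Agent.P180.R2.H667
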