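import Vale.Agent.P180.R2.H667.Tr1
import Vale.Agent.P180.R2.H667.Ge

set_option linter.all false

/-!
P180: the twisted step for a normal `p'`-subgroup: the equivariant map `k[H] → k[T]`.
-/

namespace Vale.Agent.P180.R2.H667

open Vale.Agent.P180 Vale.Agent.P180.KP

universe u

open scoped Classical in
/-- sum of the conjugates -/
noncomputable def nt {k : Type*} [Field k] {T : Type*} [Group T] [Finite T] (N : Subgroup T)
    (y : MonoidAlgebra k T) : MonoidAlgebra k T :=
  letI := Fintype.ofFinite N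
  ∑ n : N, cj k T (n : T) y

section Nt

variable {k : Type*} [Field k] {T : Type*} [Group T] [Finite T] {N : Subgroup T}

theorem nt_add (x y : MonoidAlgebra k T) : nt N (x + y) = nt N x + nt N y := by
  classical
  unfold nt
  simp only [map_add]
  exact Finset.sum_add_distrib

theorem nt_smul (c : k) (x : MonoidAlgebra k T) : nt N (c • x) = c • nt N x := by
  classical
  unfold nt
  simp only [map_smul]
  rw [Finset.smul_sum]

theorem nt_zero : nt N (0 : MonoidAlgebra k T) = 0 := by
  have := nt_smul (N := N) (0 : k) (0 : MonoidAlgebra k T)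
  rwa [zero_smul, zero_smul] at this

theorem nt_sum {ι : Type*} (s : Finset ι) (f : ι → MonoidAlgebra k T) :
    nt N (∑ i ∈ s, f i) = ∑ i ∈ s, nt N (f i) := by
  classical
  induction s using Finset.induction_on with
  | empty => rw [Finset.sum_empty, Finset.sum_empty, nt_zero]
  | insert a s ha ih => rw [Finset.sum_insert ha, Finset.sum_insert ha, nt_add, ih]

theorem nt_fix (x : MonoidAlgebra k T) : nt N x ∈ Fix (cj k T) N := by
  classical
  intro g hg
  unfold nt
  letI := Fintype.ofFinite N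
  rw [map_sum]
  refine Fintype.sum_equiv (Equiv.mulLeft (⟨g, hg⟩ : N)) _ _ fun n => ?_
  rw [← map_mul_act]
  rfl

theorem nt_mul {w : MonoidAlgebra k T} (hw : w ∈ Fix (cj k T) N) (x : MonoidAlgebra k T) :
    nt N (x * w) = nt N x * w := by
  classical
  unfold nt
  letI := Fintype.ofFinite N
  rw [Finset.sum_mul]
  exact Finset.sum_congr rfl fun n _ => by rw [map_mul, hw n n.2]

theorem nt_mul_left {w : MonoidAlgebra k T} (hw : w ∈ Fix (cj k T) N) (x : MonoidAlgebra k T) :
    nt N (w * x) = w * nt N x := by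
  classical
  unfold nt
  letI := Fintype.ofFinite N
  rw [Finset.mul_sum]
  exact Finset.sum_congr rfl fun n _ => by rw [map_mul, hw n n.2]

theorem nt_of_fix {w : MonoidAlgebra k T} (hw : w ∈ Fix (cj k T) N) :
    nt N w = ((Nat.card N : ℕ) : k) • w := by
  classical
  unfold nt
  letI := Fintype.ofFinite N
  rw [Finset.sum_congr rfl fun (n : N) _ => hw (n : T) n.2, Finset.sum_const, Finset.card_univ,
    ← Nat.card_eq_fintype_card, Nat.cast_smul_eq_nsmul]

theorem nt_cj {n : T} (hn : n ∈ N) (x : MonoidAlgebra k T) : nt N (cj k T n x) = nt N x := by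
  classical
  unfold nt
  letI := Fintype.ofFinite N
  refine Fintype.sum_equiv (Equiv.mulRight (⟨n, hn⟩ : N)) _ _ fun m => ?_
  rw [← map_mul_act]
  rfl

theorem nt_mem {x : MonoidAlgebra k T} (hx : x ∈ SubAlg k N) : nt N x ∈ SubAlg k N := by
  classical
  unfold nt
  letI := Fintype.ofFinite N
  refine Subalgebra.sum_mem _ fun n _ => ?_
  rw [cj_eq]
  exact Subalgebra.mul_mem _ (Subalgebra.mul_mem _ (SuppIn.single n.2 1) hx)
    (SuppIn.single (N.inv_mem n.2) 1)

theorem nt_comm {x y : MonoidAlgebra k T} (hx : x ∈ SubAlg k N) :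
    nt N (x * y) = nt N (y * x) := by
  refine SuppIn.induction (P := fun x => nt N (x * y) = nt N (y * x)) hx
    (by rw [zero_mul, mul_zero]) ?_ ?_
  · intro a b ha hb
    rw [add_mul, mul_add, nt_add, nt_add, ha, hb]
  · intro n hn c
    rw [smul_mul_assoc, mul_smul_comm, nt_smul, nt_smul]
    congr 1
    rw [← nt_cj hn (y * MonoidAlgebra.single n 1)]
    congr 1
    rw [cj_eq, mul_assoc, mul_assoc, MonoidAlgebra.single_mul_single, mul_inv_cancel, one_mul,
      ← MonoidAlgebra.one_def, mul_one]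

end Nt

/-- the data of the twisted step -/
structure TwD {k : Type u} [Field k] (p : ℕ) {T H : Type} [Group T] [Group H] [Finite T]
    [Finite H] (N : Subgroup T) [N.Normal] (c : MonoidAlgebra k T) {i : MonoidAlgebra k T}
    (hi : IsIdempotentElem i) (φ : H →* hi.Cornerˣ) (ε : MonoidAlgebra k H)
    (s : hi.Corner →ₗ[k] MonoidAlgebra k H) (π : H →* T ⧸ N) : Prop where
  mem : i ∈ SubAlg k N
  ie : i * c = i
  ne : i ≠ 0
  rank : ∀ y ∈ SubAlg k N, ∃ t : k, i * y * i = t • i
  full : ∃ (n : ℕ) (u v : Fin n → MonoidAlgebra k T), (∀ a, u a ∈ SubAlg k N) ∧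
    (∀ a, v a ∈ SubAlg k N) ∧ c = ∑ a, u a * i * v a
  cen : ε ∈ Subalgebra.center k (MonoidAlgebra k H)
  sl : ∀ x, s (liftU φ x) = ε * x
  ls : ∀ y, liftU φ (s y) = y
  sur : Function.Surjective π
  supp : ∀ h, SuppIn (cst N (π h)) (vl hi (φ h))
  kc : ∀ z, π z = 1 → ∀ h, z * h = h * z
  kp : ¬ p ∣ Nat.card π.ker

section TwD

variable {k : Type u} [Field k] {p : ℕ} [Fact p.Prime] [CharP k p]
variable {T H : Type} [Group T] [Group H] [Finite T] [Finite H]
variable {N : Subgroup T} [N.Normal] {c : MonoidAlgebra k T} {i : MonoidAlgebra k T}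
variable {hi : IsIdempotentElem i} {φ : H →* hi.Cornerˣ} {ε : MonoidAlgebra k H}
variable {s : hi.Corner →ₗ[k] MonoidAlgebra k H} {π : H →* T ⧸ N}

theorem TwD.nt_i (h : TwD p N c hi φ ε s π) (hc : IsBlockOf N c) (hN : ¬ p ∣ Nat.card N) :
    ∃ t : k, t ≠ 0 ∧ nt N i = t • c := by
  obtain ⟨n, u, v, hu, hv', hc'⟩ := h.full
  have hii : i * i = i := hi
  have hcc : c * c = c := hc.idem.eq
  have hcomm : ∀ x ∈ SubAlg k N, x * c = c * x := fun x hx => commute_of_mem hx hc.mem.2
  have hntc : nt N i * c = nt N i := by rw [← nt_mul hc.mem.2, h.ie]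
  -- the scalar
  obtain ⟨t, ht⟩ := h.rank _ (nt_mem h.mem)
  have hcen : nt N i ∈ Fix (cj k T) N := nt_fix i
  have h1 : i * nt N i = t • i := by
    rw [← ht, mul_assoc, ← commute_of_mem h.mem hcen, ← mul_assoc, hii]
  have h2 : nt N i = t • c := by
    rw [← hntc]
    conv_lhs => rw [hc']
    rw [Finset.mul_sum, hc', Finset.smul_sum]
    refine Finset.sum_congr rfl fun a _ => ?_
    have h3 := commute_of_mem (hu a) hcen
    rw [← mul_assoc, ← mul_assoc, ← h3, mul_assoc (u a), ← commute_of_mem h.mem hcen, h1,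
      mul_smul_comm, smul_mul_assoc]
  refine ⟨t, ?_, h2⟩
  rintro rfl
  rw [zero_smul] at h2
  have h4 : nt N c = 0 := by
    conv_lhs => rw [hc']
    rw [nt_sum]
    refine Finset.sum_eq_zero fun a _ => ?_
    obtain ⟨t', ht'⟩ := h.rank (v a * u a) (Subalgebra.mul_mem _ (hv' a) (hu a))
    have h5 : u a * i * v a = (u a * i) * (i * v a) := by
      rw [mul_assoc (u a) i (i * v a), ← mul_assoc i i, hii, mul_assoc]
    rw [h5, nt_comm (Subalgebra.mul_mem _ (hu a) h.mem)]
    have h6 : i * v a * (u a * i) = i * (v a * u a) * i := by simp only [mul_assoc]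
    rw [h6, ht', nt_smul, h2, smul_zero]
  rw [nt_of_fix hc.mem.2, smul_eq_zero] at h4
  rcases h4 with h4 | h4
  · rw [CharP.cast_eq_zero_iff k p] at h4
    exact hN h4
  · exact hc.ne_zero h4

/-- the equivariant map -/
theorem TwD.exists_map (h : TwD p N c hi φ ε s π) (hc : IsBlockOf N c)
    (hcT : ∀ g, cj k T g c = c) (hN : ¬ p ∣ Nat.card N) :
    ∃ F : MonoidAlgebra k H →ₗ[k] MonoidAlgebra k T,
      (∀ (x : MonoidAlgebra k H) (z : H) (g : T), π z = (g : T ⧸ N) →
        F (cj k H z x) = cj k T g (F x)) ∧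
      (∀ w ∈ Fix (cj k T) N, w * c = w → ∀ y : hi.Corner, y.1 = i * w → F (s y) = w) := by
  obtain ⟨t, ht0, ht⟩ := h.nt_i hc hN
  have hii : i * i = i := hi
  have hcomm : ∀ w ∈ Fix (cj k T) N, i * w = w * i := fun w hw => commute_of_mem h.mem hw
  have hcc : ∀ x : MonoidAlgebra k T, x * c = c * x := fun x =>
    commute_of_mem (SubAlg_top x) (show c ∈ Fix (cj k T) ⊤ from fun g _ => hcT g)
  let F : MonoidAlgebra k H →ₗ[k] MonoidAlgebra k T :=
    { toFun := fun x => t⁻¹ • nt N (liftU φ x).1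
      map_add' := by
        intro x y
        rw [map_add]
        change t⁻¹ • nt N ((liftU φ x).1 + (liftU φ y).1) = _
        rw [nt_add, smul_add]
      map_smul' := by
        intro r x
        rw [map_smul, corner_smul_val, nt_smul, smul_comm]
        rfl }
  -- values
  have hF1 : ∀ w ∈ Fix (cj k T) N, w * c = w → t⁻¹ • nt N (i * w) = w := by
    intro w hw hwc
    rw [nt_mul hw, ht, smul_mul_assoc, smul_smul, inv_mul_cancel₀ ht0, one_smul, ← hcc, hwc]
  -- all elements of the corner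
  have hF2 : ∀ y : hi.Corner, y.1 = i * (t⁻¹ • nt N y.1) ∧ (t⁻¹ • nt N y.1) * c = t⁻¹ • nt N y.1 := by
    classical
    intro y
    have hy1 : i * y.1 = y.1 := corner_left hi y
    have hy2 : y.1 * i = y.1 := corner_right hi y
    have hyc : y.1 * c = y.1 := by
      rw [← hy2, mul_assoc, h.ie]
    refine ⟨?_, ?_⟩
    · have h3 : ∀ n : N, ∃ r : k, i * MonoidAlgebra.single (n : T) 1 * i = r • i := fun n =>
        h.rank _ (SuppIn.single n.2 1)
      choose r hr using h3
      have h4 : ∀ x : MonoidAlgebra k T, i * x = x → x * i = x →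
          i * nt N x = x * (i * nt N i) := by
        intro x hx hx'
        unfold nt
        letI := Fintype.ofFinite N
        rw [Finset.mul_sum, Finset.mul_sum, Finset.mul_sum]
        refine Finset.sum_congr rfl fun n _ => ?_
        have h5 : i * cj k T (n : T) x = r n • (x * MonoidAlgebra.single (n : T)⁻¹ 1) := by
          rw [cj_eq]
          conv_lhs => rw [← hx]
          rw [← mul_assoc, ← mul_assoc, ← mul_assoc, hr, smul_mul_assoc, smul_mul_assoc, hx]
        have h6 : x * (i * cj k T (n : T) i) = r n • (x * MonoidAlgebra.single (n : T)⁻¹ 1) := by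
          rw [cj_eq, ← mul_assoc i, ← mul_assoc i, hr, smul_mul_assoc, mul_smul_comm, ← mul_assoc,
            hx']
        rw [h5, h6]
      have h5 := h4 y.1 hy1 hy2
      rw [ht, mul_smul_comm, h.ie, mul_smul_comm, hy2] at h5
      rw [mul_smul_comm, h5, smul_smul, inv_mul_cancel₀ ht0, one_smul]
    · rw [smul_mul_assoc, ← nt_mul hc.mem.2, hyc]
  refine ⟨F, ?_, ?_⟩
  · intro x z g hg
    obtain ⟨hy1, hy2⟩ := hF2 (liftU φ x)
    set w := t⁻¹ • nt N (liftU φ x).1 with hw
    have hwF : w ∈ Fix (cj k T) N := Subalgebra.smul_mem _ (nt_fix _) _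
    have h3 : (liftU φ (cj k H z x)).1 = i * cj k T g w := by
      rw [cj_eq, map_mul, map_mul, liftU_single, liftU_single, one_smul, one_smul, map_inv]
      change vl hi (φ z) * (liftU φ x).1 * vl hi (φ z)⁻¹ = _
      rw [hy1]
      refine conj_hom h.mem hwF ?_
      rw [← hg]
      exact h.supp z
    change t⁻¹ • nt N (liftU φ (cj k H z x)).1 = cj k T g w
    rw [h3, hF1 _ (fix_cj hwF)]
    conv_lhs => rw [← hcT g]
    rw [← map_mul, hy2]
  · intro w hw hwc y hy
    change t⁻¹ • nt N (liftU φ (s y)).1 = w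
    rw [h.ls, hy, hF1 w hw hwc]

end TwD

end Vale.Agent.P180.R2.H667
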