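import Vale.Agent.P180.R2.H667.Ge

set_option linter.all false

/-!
P180: the finite group of canonical homogeneous units centralising `kX`.
-/

namespace Vale.Agent.P180.R2.H667

open Vale.Agent.P180 Vale.Agent.P180.KP

section Central

open scoped IsMulCommutative in
theorem central_pow {U : Type*} [Group U] (K : Subgroup U) (hK : ∀ z ∈ K, ∀ u, z * u = u * z)
    (hfin : K.index ≠ 0) (u v : U) : (u * v) ^ K.index = u ^ K.index * v ^ K.index := by
  have _ : K.FiniteIndex := ⟨hfin⟩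
  have hle : K ≤ Subgroup.center U := fun z hz => by
    rw [Subgroup.mem_center_iff]
    intro g
    exact (hK z hz g).symm
  let ϕ : K →* Subgroup.center U := Subgroup.inclusion hle
  have key : ∀ (g : U) (k : ℕ) (g₀ : U), g₀⁻¹ * g ^ k * g₀ ∈ K → g₀⁻¹ * g ^ k * g₀ = g ^ k := by
    intro g k g₀ h
    have h1 := hK _ h g₀⁻¹
    have h2 : g₀⁻¹ * g ^ k * g₀ * g₀⁻¹ = g₀⁻¹ * (g₀⁻¹ * g ^ k * g₀) := h1
    rw [mul_inv_cancel_right, mul_assoc] at h2
    have h3 := mul_left_cancel h2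
    rw [mul_assoc]
    exact h3.symm
  have h := map_mul (MonoidHom.transfer ϕ) u v
  rw [MonoidHom.transfer_eq_pow ϕ u (key u), MonoidHom.transfer_eq_pow ϕ v (key v),
    MonoidHom.transfer_eq_pow ϕ (u * v) (key (u * v))] at h
  exact congrArg Subtype.val h

theorem exists_crt {m q : ℕ} (hm : Nat.Coprime m q) (hq : 0 < q) :
    ∃ N a b : ℕ, N = 1 + m * a ∧ N = q * b := by
  obtain ⟨N, h1, h2⟩ := Nat.chineseRemainder hm 1 0
  have h3 : q ∣ N := (Nat.modEq_zero_iff_dvd).mp h2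
  obtain ⟨b, hb⟩ := h3
  rcases Nat.lt_or_ge N 1 with h | h
  · have h0 : N = 0 := by omega
    rw [h0] at h1
    have hm1 : m ∣ 1 := by
      have := (Nat.modEq_iff_dvd' (by omega)).mp h1
      simpa using this
    have hm1' : m = 1 := Nat.dvd_one.mp hm1
    subst hm1'
    exact ⟨q, q - 1, 1, by omega, by omega⟩
  · obtain ⟨a, ha⟩ := (Nat.modEq_iff_dvd' h).mp h1.symm
    exact ⟨N, a, b, by omega, hb⟩

end Central

section Units

variable {k : Type*} [Field k] {G : Type*} [Group G] [Finite G]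
variable {X : Subgroup G} [X.Normal] {e : MonoidAlgebra k G}

/-- homogeneous units of `e kG e` centralising `kX`, of degree in `Y` -/
def UY (he : IsBlockOf X e) (Y : Subgroup G) :
    Subgroup (HU X he.idem he.mem.1) where
  carrier := {u | deg u ∈ Y.map (QuotientGroup.mk' X) ∧ hv u ∈ Fix (cj k G) X}
  one_mem' := ⟨by rw [map_one]; exact Subgroup.one_mem _, he.mem.2⟩
  mul_mem' := by
    rintro u v ⟨h1, h2⟩ ⟨h3, h4⟩
    exact ⟨by rw [map_mul]; exact Subgroup.mul_mem _ h1 h3, by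
      rw [hv_mul]; exact Subalgebra.mul_mem _ h2 h4⟩
  inv_mem' := by
    rintro u ⟨h1, h2⟩
    refine ⟨by rw [map_inv]; exact Subgroup.inv_mem _ h1, fun x hx => ?_⟩
    calc cj k G x (hv u⁻¹) = cj k G x (hv u⁻¹ * e) := by rw [hv_i]
      _ = cj k G x (hv u⁻¹) * e := by rw [map_mul, he.mem.2 x hx]
      _ = cj k G x (hv u⁻¹) * (hv u * hv u⁻¹) := by rw [hv_hv_inv]
      _ = cj k G x (hv u⁻¹ * hv u) * hv u⁻¹ := by
          rw [map_mul, h2 x hx, mul_assoc]
      _ = hv u⁻¹ := by rw [hv_inv_hv, he.mem.2 x hx, i_hv]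

theorem mem_UY {he : IsBlockOf X e} {Y : Subgroup G} {u : HU X he.idem he.mem.1} :
    u ∈ UY he Y ↔ deg u ∈ Y.map (QuotientGroup.mk' X) ∧ hv u ∈ Fix (cj k G) X := Iff.rfl

theorem exists_UY (he : IsBlockOf X e) {Y : Subgroup G} (hY : Y ≤ Ge he) {y : G} (hy : y ∈ Y) :
    ∃ u ∈ UY he Y, deg u = (y : G ⧸ X) := by
  obtain ⟨u, v, hu, hv', hu1, hv1, hu3, hv3, huv, hvu⟩ := hY hy
  have hue : e * u = u := by rw [← huv, mul_assoc, hvu, hu3]
  have hve : e * v = v := by rw [← hvu, mul_assoc, huv, hv3]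
  obtain ⟨w, hw1, hw2, hw3⟩ := exists_hu (hi := he.idem) (hN := he.mem.1) (x := (y : G ⧸ X))
    hue hu3 hve hv3 huv hvu hu (by rw [QuotientGroup.mk_inv] at hv'; exact hv')
  exact ⟨w, ⟨by rw [hw3]; exact ⟨y, hy, rfl⟩, by rw [hw1]; exact hu1⟩, hw3⟩

theorem UY_comm (he : IsBlockOf X e) {Y : Subgroup G} {z u : HU X he.idem he.mem.1}
    (hz : deg z = 1) (hu : hv u ∈ Fix (cj k G) X) : z * u = u * z := by
  apply hu_ext
  · rw [hv_mul, hv_mul]
    have h1 : hv z ∈ SubAlg k X := by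
      rw [← supp_one_iff]
      have := supp_hv z
      rwa [hz] at this
    exact commute_of_mem h1 hu
  · rw [map_mul, map_mul, hz, one_mul, mul_one]

theorem UY_pow_mul (he : IsBlockOf X e) {Y : Subgroup G} (hXY : X ≤ Y) (hY : Y ≤ Ge he)
    {u v : HU X he.idem he.mem.1} (hu : u ∈ UY he Y) (hv' : v ∈ UY he Y) :
    (u * v) ^ X.relIndex Y = u ^ X.relIndex Y * v ^ X.relIndex Y := by
  let f : UY he Y →* G ⧸ X := deg.comp (UY he Y).subtype
  have hidx : f.ker.index = X.relIndex Y := by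
    rw [Subgroup.index_ker, relIndex_eq_card_map]
    congr 2
    apply le_antisymm
    · rintro _ ⟨w, rfl⟩
      exact w.2.1
    · rintro _ ⟨y, hy, rfl⟩
      obtain ⟨w, hw, hwd⟩ := exists_UY he hY hy
      exact ⟨⟨w, hw⟩, hwd⟩
  have hne : f.ker.index ≠ 0 := by
    rw [hidx]
    exact Subgroup.index_ne_zero_of_finite (H := X.subgroupOf Y)
  have h := central_pow f.ker (fun z hz w => Subtype.ext (UY_comm (Y := Y) he hz w.2.2)) hne
    ⟨u, hu⟩ ⟨v, hv'⟩
  rw [hidx] at h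
  exact congrArg Subtype.val h

/-- the canonical group of units -/
def WY (he : IsBlockOf X e) {Y : Subgroup G} (hXY : X ≤ Y) (hY : Y ≤ Ge he) :
    Subgroup (HU X he.idem he.mem.1) where
  carrier := {u | u ∈ UY he Y ∧ u ^ X.relIndex Y = 1}
  one_mem' := ⟨Subgroup.one_mem _, one_pow _⟩
  mul_mem' := by
    rintro u v ⟨h1, h2⟩ ⟨h3, h4⟩
    exact ⟨Subgroup.mul_mem _ h1 h3, by rw [UY_pow_mul he hXY hY h1 h3, h2, h4, one_mul]⟩
  inv_mem' := by
    rintro u ⟨h1, h2⟩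
    exact ⟨Subgroup.inv_mem _ h1, by rw [inv_pow, h2, inv_one]⟩

theorem mem_WY {he : IsBlockOf X e} {Y : Subgroup G} {hXY : X ≤ Y} {hY : Y ≤ Ge he}
    {u : HU X he.idem he.mem.1} :
    u ∈ WY he hXY hY ↔ u ∈ UY he Y ∧ u ^ X.relIndex Y = 1 := Iff.rfl

variable [IsAlgClosed k] {p : ℕ} [Fact p.Prime] [CharP k p]

/-- some power of a degree one unit is a scalar -/
theorem exists_pow_scalar (he : IsBlockOf X e) {z : HU X he.idem he.mem.1} (hz : deg z = 1)
    (hzF : hv z ∈ Fix (cj k G) X) :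
    ∃ (a : ℕ) (c : k), c ≠ 0 ∧ hv (z ^ p ^ a) = c • e := by
  have h1 : hv z ∈ ZAlg k X := by
    refine ⟨?_, hzF⟩
    have h := supp_hv z
    rw [hz] at h
    exact supp_one_iff.mp h
  obtain ⟨c, n, hn⟩ := KP.isPrimIn_exists_scalar (by exact ZAlg_comm) he h1
  have hze : hv z * e = hv z := hv_i z
  rw [hze] at hn
  have _ : ExpChar k p := ExpChar.prime Fact.out
  have hcharp : CharP (MonoidAlgebra k G) p :=
    charP_of_injective_algebraMap (algebraMap k (MonoidAlgebra k G)).injective p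
  have _ : ExpChar (MonoidAlgebra k G) p := ExpChar.prime Fact.out
  obtain ⟨a, ha⟩ : ∃ a, n ≤ p ^ a := ⟨n, (Nat.lt_pow_self (Fact.out : p.Prime).one_lt).le⟩
  have hpow : ∀ m : ℕ, hv (z ^ m) * e = hv (z ^ m) := fun m => hv_i _
  have hpow' : ∀ m : ℕ, m ≠ 0 → hv (z ^ m) = hv z ^ m := by
    intro m hm
    obtain ⟨m, rfl⟩ := Nat.exists_eq_succ_of_ne_zero hm
    induction m with
    | zero => rw [pow_one, pow_one]
    | succ m ih =>
      rw [pow_succ, hv_mul, ih (Nat.succ_ne_zero m)]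
      exact (pow_succ _ _).symm
  have hce : ∀ m : ℕ, m ≠ 0 → (c • e) ^ m = c ^ m • e := by
    intro m hm
    obtain ⟨m, rfl⟩ := Nat.exists_eq_succ_of_ne_zero hm
    induction m with
    | zero => rw [pow_one, pow_one]
    | succ m ih =>
      rw [pow_succ, ih (Nat.succ_ne_zero m), smul_mul_smul_comm, he.idem.eq, ← pow_succ]
  have hp0 : p ^ a ≠ 0 := pow_ne_zero _ (Fact.out : p.Prime).ne_zero
  have hcom : Commute (hv z) (c • e) := by
    change hv z * (c • e) = (c • e) * hv z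
    rw [mul_smul_comm, smul_mul_assoc, hv_i, i_hv]
  have h2 : (hv z - c • e) ^ p ^ a = 0 := by
    obtain ⟨d, hd⟩ := Nat.exists_eq_add_of_le ha
    rw [hd, pow_add, hn, zero_mul]
  rw [sub_pow_char_pow_of_commute (p := p) a hcom, sub_eq_zero] at h2
  refine ⟨a, c ^ p ^ a, ?_, ?_⟩
  · intro h0
    rw [hce _ hp0, h0, zero_smul, ← hpow' _ hp0] at h2
    have h3 := hv_hv_inv (z ^ p ^ a)
    rw [h2, zero_mul] at h3
    exact he.ne_zero h3.symm
  · rw [hpow' _ hp0, h2, hce _ hp0]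

end Units

end Vale.Agent.P180.R2.H667
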