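import Vale.Agent.P180.R2.H667.Wd1

set_option linter.all false

/-!
P180: the finite group generated by the canonical units and `G`.
-/

namespace Vale.Agent.P180.R2.H667

open Vale.Agent.P180 Vale.Agent.P180.KP

universe u

theorem exists_small {A : Type u} [Group A] [Finite A] :
    ∃ (Γ : Type) (_ : Group Γ) (_ : Finite Γ), Nonempty (Γ ≃* A) := by
  let f := Finite.equivFin A
  letI : Group (Fin (Nat.card A)) := f.symm.group
  exact ⟨Fin (Nat.card A), inferInstance, inferInstance, ⟨f.symm.mulEquiv⟩⟩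

section Units

variable {k : Type*} [Field k] {G : Type*} [Group G] [Finite G]
variable {X : Subgroup G} [X.Normal] {e : MonoidAlgebra k G}

theorem hv_pow (he : IsBlockOf X e) (u : HU X he.idem he.mem.1) {m : ℕ} (hm : m ≠ 0) :
    hv (u ^ m) = hv u ^ m := by
  obtain ⟨m, rfl⟩ := Nat.exists_eq_succ_of_ne_zero hm
  induction m with
  | zero => rw [pow_one, pow_one]
  | succ m ih =>
    rw [pow_succ, hv_mul, ih (Nat.succ_ne_zero m)]
    exact (pow_succ _ _).symm

theorem smul_e_pow (he : IsBlockOf X e) (c : k) {m : ℕ} (hm : m ≠ 0) :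
    (c • e) ^ m = c ^ m • e := by
  obtain ⟨m, rfl⟩ := Nat.exists_eq_succ_of_ne_zero hm
  induction m with
  | zero => rw [pow_one, pow_one]
  | succ m ih =>
    rw [pow_succ, ih (Nat.succ_ne_zero m), smul_mul_smul_comm, he.idem.eq, ← pow_succ]

theorem exists_smul (he : IsBlockOf X e) (s : kˣ) (u : HU X he.idem he.mem.1) :
    ∃ w : HU X he.idem he.mem.1, hv w = (s : k) • hv u ∧ deg w = deg u := by
  have h := supp_hv u⁻¹
  rw [map_inv] at h
  obtain ⟨w, h1, -, h2⟩ := exists_hu (hi := he.idem) (hN := he.mem.1) (x := deg u)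
    (c := (s : k) • hv u) (c' := ((s⁻¹ : kˣ) : k) • hv u⁻¹)
    (by rw [mul_smul_comm, i_hv]) (by rw [smul_mul_assoc, hv_i])
    (by rw [mul_smul_comm, i_hv]) (by rw [smul_mul_assoc, hv_i])
    (by rw [smul_mul_smul_comm, hv_hv_inv, Units.mul_inv, one_smul])
    (by rw [smul_mul_smul_comm, hv_inv_hv, Units.inv_mul, one_smul])
    ((supp_hv u).smul _) (h.smul _)
  exact ⟨w, h1, h2⟩

theorem deg_pow_eq_one {he : IsBlockOf X e} {Y : Subgroup G} {u : HU X he.idem he.mem.1}
    (hu : u ∈ UY he Y) : deg u ^ X.relIndex Y = 1 := by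
  rw [relIndex_eq_card_map]
  have h : (⟨deg u, hu.1⟩ : Y.map (QuotientGroup.mk' X)) ^
      Nat.card (Y.map (QuotientGroup.mk' X)) = 1 := pow_card_eq_one'
  exact congrArg Subtype.val h

variable [IsAlgClosed k] {p : ℕ} [Fact p.Prime] [CharP k p]

theorem coprime_of {m : ℕ} (hp : ¬ p ∣ m) (a : ℕ) : Nat.Coprime m (p ^ a) :=
  (Nat.Coprime.pow_left a (((Fact.out : p.Prime).coprime_iff_not_dvd).mpr hp)).symm

theorem exists_WY (he : IsBlockOf X e) {Y : Subgroup G} (hXY : X ≤ Y) (hY : Y ≤ Ge he)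
    (hp : ¬ p ∣ X.relIndex Y) {y : G} (hy : y ∈ Y) :
    ∃ w ∈ WY he hXY hY, deg w = (y : G ⧸ X) := by
  obtain ⟨u, hu, hud⟩ := exists_UY he hY hy
  set m := X.relIndex Y with hm
  have hm0 : m ≠ 0 := Subgroup.index_ne_zero_of_finite (H := X.subgroupOf Y)
  have hz : deg (u ^ m) = 1 := by rw [map_pow]; exact deg_pow_eq_one hu
  obtain ⟨a, c, hc0, hc⟩ := exists_pow_scalar (p := p) he hz (Subgroup.pow_mem _ hu m).2
  obtain ⟨N, a', b, hN1, hN2⟩ := exists_crt (coprime_of hp a) (Nat.pos_of_ne_zero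
    (pow_ne_zero a (Fact.out : p.Prime).ne_zero))
  have hN0 : N ≠ 0 := by omega
  have hb0 : b ≠ 0 := by rintro rfl; omega
  obtain ⟨s, hs⟩ := IsAlgClosed.exists_pow_nat_eq (c⁻¹ ^ b) (Nat.pos_of_ne_zero hm0)
  have hs0 : s ≠ 0 := by
    rintro rfl
    rw [zero_pow hm0] at hs
    exact pow_ne_zero b (inv_ne_zero hc0) hs.symm
  obtain ⟨w, hw, hwd⟩ := exists_smul he (Units.mk0 s hs0) (u ^ N)
  rw [Units.val_mk0] at hw
  have hdeg : deg w = (y : G ⧸ X) := by
    rw [hwd, map_pow, hN1, pow_add, pow_one, pow_mul, deg_pow_eq_one hu, one_pow, mul_one, hud]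
  have h1 : hv (u ^ N) ^ m = c ^ b • e := by
    rw [← hv_pow he _ hm0, ← pow_mul, mul_comm N m, pow_mul, hN2, pow_mul, hv_pow he _ hb0, hc,
      smul_e_pow he c hb0]
  refine ⟨w, ⟨⟨?_, ?_⟩, ?_⟩, hdeg⟩
  · rw [hdeg]; exact ⟨y, hy, rfl⟩
  · rw [hw]; exact Subalgebra.smul_mem _ (Subgroup.pow_mem _ hu N).2 s
  · apply hu_ext
    · rw [hv_pow he _ hm0, hw, smul_pow, h1, hs, smul_smul, inv_pow, inv_mul_cancel₀
        (pow_ne_zero b hc0), one_smul, hv_one]
    · rw [map_pow, hdeg, ← hud, deg_pow_eq_one hu, map_one]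

theorem WY_scalar (he : IsBlockOf X e) {Y : Subgroup G} (hXY : X ≤ Y) (hY : Y ≤ Ge he)
    (hp : ¬ p ∣ X.relIndex Y) {w : HU X he.idem he.mem.1} (hw : w ∈ WY he hXY hY)
    (hd : deg w = 1) : ∃ c : k, c ^ X.relIndex Y = 1 ∧ hv w = c • e := by
  have hm0 : X.relIndex Y ≠ 0 := Subgroup.index_ne_zero_of_finite (H := X.subgroupOf Y)
  obtain ⟨a, c, hc0, hc⟩ := exists_pow_scalar (p := p) he hd hw.1.2
  obtain ⟨N, a', b, hN1, hN2⟩ := exists_crt (coprime_of hp a) (Nat.pos_of_ne_zero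
    (pow_ne_zero a (Fact.out : p.Prime).ne_zero))
  have hb0 : b ≠ 0 := by rintro rfl; omega
  have h1 : w ^ N = w := by
    rw [hN1, pow_add, pow_one, pow_mul, hw.2, one_pow, mul_one]
  have h2 : hv w = c ^ b • e := by
    rw [← h1, hN2, pow_mul, hv_pow he _ hb0, hc, smul_e_pow he c hb0]
  refine ⟨c ^ b, ?_, h2⟩
  have h3 : hv (w ^ X.relIndex Y) = e := by rw [hw.2, hv_one]
  rw [hv_pow he _ hm0, h2, smul_e_pow he _ hm0] at h3
  have h4 : ((c ^ b) ^ X.relIndex Y - 1) • e = 0 := by rw [sub_smul, h3, one_smul, sub_self]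
  rcases smul_eq_zero.mp h4 with h | h
  · exact sub_eq_zero.mp h
  · exact absurd h he.ne_zero

theorem WY_finite (he : IsBlockOf X e) {Y : Subgroup G} (hXY : X ≤ Y) (hY : Y ≤ Ge he)
    (hp : ¬ p ∣ X.relIndex Y) : Finite (WY he hXY hY) := by
  classical
  have hm0 : X.relIndex Y ≠ 0 := Subgroup.index_ne_zero_of_finite (H := X.subgroupOf Y)
  set m := X.relIndex Y with hm
  let W := WY he hXY hY
  -- representatives
  let r : G ⧸ X → W := fun q => if h : ∃ w : W, deg w.1 = q then h.choose else 1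
  have hr : ∀ w : W, deg (r (deg w.1)).1 = deg w.1 := by
    intro w
    have h : ∃ w' : W, deg w'.1 = deg w.1 := ⟨w, rfl⟩
    have h2 : r (deg w.1) = h.choose := dif_pos h
    rw [h2]
    exact h.choose_spec
  have hc : ∀ w : W, ∃ c : k, c ^ m = 1 ∧ hv (w * (r (deg w.1))⁻¹).1 = c • e := by
    intro w
    apply WY_scalar (p := p) he hXY hY hp (w * (r (deg w.1))⁻¹).2
    change deg (w.1 * (r (deg w.1)).1⁻¹) = 1
    rw [map_mul, map_inv, hr, mul_inv_cancel]
  choose c hc1 hc2 using hc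
  have hmem : ∀ w : W, c w ∈ (Polynomial.nthRoots m (1 : k)).toFinset := fun w => by
    rw [Multiset.mem_toFinset, Polynomial.mem_nthRoots (Nat.pos_of_ne_zero hm0)]
    exact hc1 w
  refine Finite.of_injective (β := (G ⧸ X) × (Polynomial.nthRoots m (1 : k)).toFinset)
    (fun w : W => (deg w.1, ⟨c w, hmem w⟩)) ?_
  intro w w' h
  have h1 : deg w.1 = deg w'.1 := congrArg Prod.fst h
  have h2 : c w = c w' := congrArg Subtype.val (congrArg Prod.snd h)
  have h3 : hv (w * (r (deg w.1))⁻¹).1 = hv (w' * (r (deg w.1))⁻¹).1 := by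
    rw [hc2, h2, ← hc2, h1]
  have h4 : (w * (r (deg w.1))⁻¹).1 = (w' * (r (deg w.1))⁻¹).1 := by
    apply hu_ext h3
    change deg (w.1 * (r (deg w.1)).1⁻¹) = deg (w'.1 * (r (deg w.1)).1⁻¹)
    rw [map_mul, map_mul, h1]
  have h5 : w * (r (deg w.1))⁻¹ = w' * (r (deg w.1))⁻¹ := Subtype.ext h4
  exact mul_right_cancel h5

end Units

section GU

variable {k : Type*} [Field k] {G : Type*} [Group G] [Finite G]
variable {X : Subgroup G} [X.Normal] {e : MonoidAlgebra k G}

theorem e_comm (heG : ∀ g, cj k G g e = e) (x : MonoidAlgebra k G) : x * e = e * x :=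
  commute_of_mem (SubAlg_top x) (show e ∈ Fix (cj k G) ⊤ from fun g _ => heG g)

theorem exists_gU (he : IsBlockOf X e) (heG : ∀ g, cj k G g e = e) (g : G) :
    ∃ u : HU X he.idem he.mem.1, hv u = MonoidAlgebra.single g 1 * e ∧
      hv u⁻¹ = MonoidAlgebra.single g⁻¹ 1 * e ∧ deg u = (g : G ⧸ X) := by
  have hs : ∀ g : G, SuppIn (cst X (g : G ⧸ X)) (MonoidAlgebra.single g (1 : k) * e) := by
    intro g
    have h1 : SuppIn (cst X (g : G ⧸ X)) (MonoidAlgebra.single g (1 : k)) :=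
      SuppIn.single (show g ∈ cst X (g : G ⧸ X) from rfl) 1
    have h2 := supp_mul h1 (supp_one_iff.mpr he.mem.1)
    rwa [mul_one] at h2
  have hc := e_comm heG
  have hee : e * e = e := he.idem
  have h1 : ∀ g : G, e * (MonoidAlgebra.single g (1 : k) * e) = MonoidAlgebra.single g 1 * e := by
    intro g
    rw [← mul_assoc, ← hc, mul_assoc, hee]
  have h2 : ∀ g : G, (MonoidAlgebra.single g (1 : k) * e) * e = MonoidAlgebra.single g 1 * e := by
    intro g
    rw [mul_assoc, hee]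
  have h3 : ∀ g h : G, (MonoidAlgebra.single g (1 : k) * e) * (MonoidAlgebra.single h (1 : k) * e) =
      MonoidAlgebra.single (g * h) 1 * e := by
    intro g h
    rw [mul_assoc, ← mul_assoc e, ← hc, mul_assoc (MonoidAlgebra.single h (1 : k)), hee,
      ← mul_assoc, MonoidAlgebra.single_mul_single, one_mul]
  refine exists_hu (h1 g) (h2 g) (h1 g⁻¹) (h2 g⁻¹) ?_ ?_ (hs g) ?_
  · rw [h3, mul_inv_cancel, ← MonoidAlgebra.one_def, one_mul]
  · rw [h3, inv_mul_cancel, ← MonoidAlgebra.one_def, one_mul]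
  · have := hs g⁻¹
    rwa [QuotientGroup.mk_inv] at this

noncomputable def gU (he : IsBlockOf X e) (heG : ∀ g, cj k G g e = e) :
    G →* HU X he.idem he.mem.1 where
  toFun g := (exists_gU he heG g).choose
  map_one' := by
    have h := (exists_gU he heG 1).choose_spec
    apply hu_ext
    · rw [h.1, hv_one, ← MonoidAlgebra.one_def, one_mul]
    · rw [h.2.2, map_one]; rfl
  map_mul' x y := by
    have h := (exists_gU he heG (x * y)).choose_spec
    have hx := (exists_gU he heG x).choose_spec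
    have hy := (exists_gU he heG y).choose_spec
    have hee : e * e = e := he.idem
    apply hu_ext
    · rw [h.1, hv_mul, hx.1, hy.1, mul_assoc, ← mul_assoc e, ← e_comm heG, mul_assoc _ e e, hee,
        ← mul_assoc, MonoidAlgebra.single_mul_single, one_mul]
    · rw [h.2.2, map_mul, hx.2.2, hy.2.2]; rfl

theorem hv_gU (he : IsBlockOf X e) (heG : ∀ g, cj k G g e = e) (g : G) :
    hv (gU he heG g) = MonoidAlgebra.single g 1 * e := (exists_gU he heG g).choose_spec.1

theorem hv_gU_inv (he : IsBlockOf X e) (heG : ∀ g, cj k G g e = e) (g : G) :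
    hv (gU he heG g)⁻¹ = MonoidAlgebra.single g⁻¹ 1 * e :=
  (exists_gU he heG g).choose_spec.2.1

theorem deg_gU (he : IsBlockOf X e) (heG : ∀ g, cj k G g e = e) (g : G) :
    deg (gU he heG g) = (g : G ⧸ X) := (exists_gU he heG g).choose_spec.2.2

theorem hv_conj_gU (he : IsBlockOf X e) (heG : ∀ g, cj k G g e = e) (g : G)
    (w : HU X he.idem he.mem.1) :
    hv (gU he heG g * w * (gU he heG g)⁻¹) = cj k G g (hv w) := by
  have hee : e * e = e := he.idem
  rw [hv_mul, hv_mul, hv_gU, hv_gU_inv, cj_eq, mul_assoc (MonoidAlgebra.single g 1) e, i_hv,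
    e_comm heG, ← mul_assoc, mul_assoc _ _ e, hv_i]

theorem conj_mem_WY (he : IsBlockOf X e) (heG : ∀ g, cj k G g e = e) {Y : Subgroup G} [Y.Normal]
    {hXY : X ≤ Y} {hY : Y ≤ Ge he} (g : G) {w : HU X he.idem he.mem.1} (hw : w ∈ WY he hXY hY) :
    gU he heG g * w * (gU he heG g)⁻¹ ∈ WY he hXY hY := by
  refine ⟨⟨?_, ?_⟩, ?_⟩
  · rw [map_mul, map_mul, map_inv, deg_gU]
    have hn : (Y.map (QuotientGroup.mk' X)).Normal :=
      Subgroup.Normal.map inferInstance _ (QuotientGroup.mk'_surjective X)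
    exact hn.conj_mem _ hw.1.1 _
  · rw [hv_conj_gU]
    exact fix_cj hw.1.2
  · rw [conj_pow, hw.2, mul_one, mul_inv_cancel]

end GU

end Vale.Agent.P180.R2.H667
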