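import Vale.Agent.P180.R2.H667.Wd2

set_option linter.all false

/-!
P180: the finite group `Γ` of canonical units and group elements.
-/

namespace Vale.Agent.P180.R2.H667

open Vale.Agent.P180 Vale.Agent.P180.KP

universe u

/-- the data of the first step -/
structure WD {k : Type*} [Field k] {G Γ : Type*} [Group G] [Group Γ] [Finite G]
    (X Y : Subgroup G) [X.Normal] {e : MonoidAlgebra k G} (hi : IsIdempotentElem e)
    (φ : Γ →* hi.Cornerˣ) (q : Γ →* G) (j : G →* Γ) (m : ℕ) : Prop where
  ne : e ≠ 0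
  mem : e ∈ SubAlg k X
  cen : ∀ x, x * e = e * x
  qj : ∀ g, q (j g) = g
  φj : ∀ g, vl hi (φ (j g)) = MonoidAlgebra.single g 1 * e
  fix : ∀ w, q w = 1 → vl hi (φ w) ∈ Fix (cj k G) X
  supp : ∀ w, q w = 1 → ∃ y ∈ Y, SuppIn (cst X (y : G ⧸ X)) (vl hi (φ w))
  sur : ∀ y ∈ Y, ∃ w, q w = 1 ∧ SuppIn (cst X (y : G ⧸ X)) (vl hi (φ w))
  pow : ∀ w, q w = 1 → w ^ m = 1
  inj : ∀ w, q w = 1 → φ w = 1 → w = 1
  scal : ∀ w, q w = 1 → vl hi (φ w) ∈ SubAlg k X → ∃ c : k, vl hi (φ w) = c • e

section Exists

variable {k : Type u} [Field k] {G : Type} [Group G] [Finite G]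
variable {X : Subgroup G} [X.Normal] {e : MonoidAlgebra k G}
variable [IsAlgClosed k] {p : ℕ} [Fact p.Prime] [CharP k p]

theorem exists_WD (he : IsBlockOf X e) (heG : ∀ g, cj k G g e = e) {Y : Subgroup G} [Y.Normal]
    (hXY : X ≤ Y) (hY : Y ≤ Ge he) (hp : ¬ p ∣ X.relIndex Y) :
    ∃ (Γ : Type) (_ : Group Γ) (_ : Finite Γ) (φ : Γ →* he.idem.Cornerˣ) (q : Γ →* G)
      (j : G →* Γ), WD X Y he.idem φ q j (X.relIndex Y) := by
  let W := WY he hXY hY
  have hWf : Finite W := WY_finite (p := p) he hXY hY hp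
  let Δ : Subgroup (HU X he.idem he.mem.1 × G) :=
    { carrier := {x | x.1 * (gU he heG x.2)⁻¹ ∈ W}
      one_mem' := by
        change (1 : HU X he.idem he.mem.1) * (gU he heG 1)⁻¹ ∈ W
        rw [map_one, inv_one, one_mul]
        exact W.one_mem
      mul_mem' := by
        rintro ⟨u, g⟩ ⟨v, h⟩ h1 h2
        change u * v * (gU he heG (g * h))⁻¹ ∈ W
        have h3 : u * v * (gU he heG (g * h))⁻¹ = (u * (gU he heG g)⁻¹) *
            (gU he heG g * (v * (gU he heG h)⁻¹) * (gU he heG g)⁻¹) := by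
          rw [map_mul]; group
        rw [h3]
        exact W.mul_mem h1 (conj_mem_WY he heG g h2)
      inv_mem' := by
        rintro ⟨u, g⟩ h1
        change u⁻¹ * (gU he heG g⁻¹)⁻¹ ∈ W
        have h3 : u⁻¹ * (gU he heG g⁻¹)⁻¹ =
            gU he heG g⁻¹ * (u * (gU he heG g)⁻¹)⁻¹ * (gU he heG g⁻¹)⁻¹ := by
          rw [map_inv]; group
        rw [h3]
        exact conj_mem_WY he heG _ (W.inv_mem h1) }
  have hΔf : Finite Δ := by
    refine Finite.of_injective (β := W × G) (fun x => (⟨x.1.1 * (gU he heG x.1.2)⁻¹, x.2⟩, x.1.2)) ?_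
    intro x y hxy
    simp only [Prod.mk.injEq, Subtype.mk.injEq] at hxy
    have h1 : x.1.2 = y.1.2 := hxy.2
    have h2 : x.1.1 * (gU he heG x.1.2)⁻¹ = y.1.1 * (gU he heG y.1.2)⁻¹ := hxy.1
    rw [h1] at h2
    exact Subtype.ext (Prod.ext (mul_right_cancel h2) h1)
  obtain ⟨Γ, _, _, ⟨f⟩⟩ := exists_small (A := Δ)
  let F : HU X he.idem he.mem.1 →* he.idem.Cornerˣ :=
    (MonoidHom.fst _ _).comp (HU X he.idem he.mem.1).subtype
  let φ : Γ →* he.idem.Cornerˣ := F.comp (((MonoidHom.fst _ _).comp Δ.subtype).comp f.toMonoidHom)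
  let q : Γ →* G := ((MonoidHom.snd _ _).comp Δ.subtype).comp f.toMonoidHom
  let j₀ : G →* Δ :=
    { toFun := fun g => ⟨(gU he heG g, g), by
        change gU he heG g * (gU he heG g)⁻¹ ∈ W
        rw [mul_inv_cancel]; exact W.one_mem⟩
      map_one' := by
        apply Subtype.ext
        change (gU he heG 1, (1 : G)) = 1
        rw [map_one]; rfl
      map_mul' := by
        intro g h
        apply Subtype.ext
        change (gU he heG (g * h), g * h) = (gU he heG g * gU he heG h, g * h)
        rw [map_mul] }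
  let j : G →* Γ := f.symm.toMonoidHom.comp j₀
  have hfj : ∀ g, f (j g) = j₀ g := fun g => f.apply_symm_apply _
  have hvl : ∀ w, vl he.idem (φ w) = hv (f w).1.1 := fun _ => rfl
  have hker : ∀ w, q w = 1 → (f w).1.1 ∈ W := by
    intro w hw
    have h1 : (f w).1.2 = 1 := hw
    have h2 : (f w).1.1 * (gU he heG (f w).1.2)⁻¹ ∈ W := (f w).2
    rwa [h1, map_one, inv_one, mul_one] at h2
  have hlift : ∀ u ∈ W, ∃ w, q w = 1 ∧ (f w).1.1 = u := by
    intro u hu
    have h1 : ((u, (1 : G)) : HU X he.idem he.mem.1 × G) ∈ Δ := by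
      change u * (gU he heG 1)⁻¹ ∈ W
      rwa [map_one, inv_one, mul_one]
    refine ⟨f.symm ⟨(u, 1), h1⟩, ?_, ?_⟩
    · change (f (f.symm ⟨(u, 1), h1⟩)).1.2 = 1
      rw [f.apply_symm_apply]
    · rw [f.apply_symm_apply]
  refine ⟨Γ, inferInstance, inferInstance, φ, q, j, ?_⟩
  exact
    { ne := he.ne_zero
      mem := he.mem.1
      cen := e_comm heG
      qj := fun g => by
        change (f (j g)).1.2 = g
        rw [hfj]
        rfl
      φj := fun g => by
        rw [hvl, hfj]
        exact hv_gU he heG g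
      fix := fun w hw => (hker w hw).1.2
      supp := fun w hw => by
        obtain ⟨⟨y, hy, hyd⟩, -⟩ := (hker w hw).1
        refine ⟨y, hy, ?_⟩
        have h1 := supp_hv (f w).1.1
        rw [← hyd] at h1
        exact h1
      sur := fun y hy => by
        obtain ⟨u, hu, hud⟩ := exists_WY (p := p) he hXY hY hp hy
        obtain ⟨w, hw, hwu⟩ := hlift u hu
        refine ⟨w, hw, ?_⟩
        have h1 := supp_hv (f w).1.1
        rw [hwu, hud] at h1
        rw [hvl, hwu]
        exact h1
      pow := fun w hw => by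
        apply f.injective
        rw [map_pow, map_one]
        apply Subtype.ext
        apply Prod.ext
        · exact (hker w hw).2
        · change (f w).1.2 ^ _ = 1
          rw [show (f w).1.2 = 1 from hw, one_pow]
      inj := fun w hw hφ => by
        apply f.injective
        rw [map_one]
        apply Subtype.ext
        apply Prod.ext
        · exact supp_unique he.ne_zero (u := (f w).1.1) (w := 1) hφ
        · exact hw
      scal := fun w hw hX => by
        have h1 : deg (f w).1.1 = 1 := by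
          obtain ⟨g, hg⟩ := QuotientGroup.mk_surjective (deg (f w).1.1)
          have h2 := supp_hv (f w).1.1
          by_contra hne
          have h3 : hv (f w).1.1 = 0 := by
            apply MonoidAlgebra.coeff_injective
            ext x
            by_contra hx
            have h4 := h2 x hx
            have h5 := (supp_one_iff.mpr hX) x hx
            exact hne (h4.symm.trans h5)
          have h4 := hv_hv_inv (f w).1.1
          rw [h3, zero_mul] at h4
          exact he.ne_zero h4.symm
        obtain ⟨c, -, hc⟩ := WY_scalar (p := p) he hXY hY hp (hker w hw) h1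
        exact ⟨c, hc⟩ }

end Exists

end Vale.Agent.P180.R2.H667
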